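import Mathlib

/-!
A version of Mankiewicz's theorem for open unit balls: a bijective isometry between the open
unit balls of two real normed spaces that fixes the origin is the restriction of a linear
isometric equivalence.  The midpoint step is Vaisala's reflection argument, carried out on a
lens-shaped set; the globalisation is by dyadic scaling and the Mazur-Ulam theorem.
-/

namespace Vale.Agent.P084

open Set

/-- Abstract form of the reflection argument. -/
theorem fixed_of_reflection {D : Type*} [MetricSpace D] (R : D ≃ᵢ D) (x y z : D)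
    (hRx : R x = y) (hRy : R y = x) (hRz : ∀ u, dist (R u) z = dist u z)
    (hR2 : ∀ u, dist (R u) u = 2 * dist u z) :
    ∀ e : D ≃ᵢ D, e x = x → e y = y → e z = z := by
  set s := { e : D ≃ᵢ D | e x = x ∧ e y = y }
  have : Nonempty s := ⟨⟨IsometryEquiv.refl D, rfl, rfl⟩⟩
  have h_bdd : BddAbove (range fun e : s => dist ((e : D ≃ᵢ D) z) z) := by
    refine ⟨dist x z + dist x z, forall_mem_range.2 <| Subtype.forall.2 ?_⟩
    rintro e ⟨hx, _⟩
    calc
      dist (e z) z ≤ dist (e z) x + dist x z := dist_triangle (e z) x z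
      _ = dist (e x) (e z) + dist x z := by rw [hx, dist_comm]
      _ = dist x z + dist x z := by rw [e.dist_eq x z]
  set f : D ≃ᵢ D → D ≃ᵢ D := fun e => ((e.trans R).trans e.symm).trans R
  have hf_dist : ∀ e, dist (f e z) z = 2 * dist (e z) z := by
    intro e
    dsimp only [IsometryEquiv.trans_apply, f]
    rw [hRz, ← e.dist_eq, e.apply_symm_apply, hR2]
  have hf_maps_to : MapsTo f s s := by
    rintro e ⟨hx, hy⟩
    constructor
    · dsimp only [IsometryEquiv.trans_apply, f]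
      rw [hx, hRx, e.symm_apply_eq.2 hy.symm, hRy]
    · dsimp only [IsometryEquiv.trans_apply, f]
      rw [hy, hRy, e.symm_apply_eq.2 hx.symm, hRx]
  set c := ⨆ e : s, dist ((e : D ≃ᵢ D) z) z
  have : c ≤ c / 2 := by
    apply ciSup_le
    rintro ⟨e, he⟩
    simp only [le_div_iff₀' (zero_lt_two' ℝ), ← hf_dist]
    exact le_ciSup h_bdd ⟨f e, hf_maps_to he⟩
  replace : c ≤ 0 := by linarith
  refine fun e hx hy => dist_le_zero.1 (le_trans ?_ this)
  exact le_ciSup h_bdd ⟨e, hx, hy⟩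

/-- An isometric equivalence between two metric spaces with reflections maps centre to centre. -/
theorem map_center_of_reflections {D D' : Type*} [MetricSpace D] [MetricSpace D']
    (R : D ≃ᵢ D) (x y z : D) (hRx : R x = y) (hRy : R y = x)
    (hRz : ∀ u, dist (R u) z = dist u z) (hR2 : ∀ u, dist (R u) u = 2 * dist u z)
    (R' : D' ≃ᵢ D') (x' y' z' : D') (hRx' : R' x' = y') (hRy' : R' y' = x')
    (hR2' : ∀ u, dist (R' u) u = 2 * dist u z')
    (f : D ≃ᵢ D') (hx : f x = x') (hy : f y = y') : f z = z' := by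
  have key := fixed_of_reflection R x y z hRx hRy hRz hR2
    (((f.trans R').trans f.symm).trans R)
    (by
      dsimp only [IsometryEquiv.trans_apply]
      rw [hx, hRx', f.symm_apply_eq.2 hy.symm, hRy])
    (by
      dsimp only [IsometryEquiv.trans_apply]
      rw [hy, hRy', f.symm_apply_eq.2 hx.symm, hRx])
  dsimp only [IsometryEquiv.trans_apply] at key
  have hz : R z = z := by
    have := hR2 z
    rw [dist_self, mul_zero] at this
    exact dist_eq_zero.1 this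
  have h1 : f.symm (R' (f z)) = z := by
    apply R.injective
    rw [key, hz]
  have h2 : R' (f z) = f z := by
    have := congrArg f h1
    rwa [f.apply_symm_apply] at this
  have h3 := hR2' (f z)
  rw [h2, dist_self] at h3
  have h4 : dist (f z) z' = 0 := by linarith
  exact dist_eq_zero.1 h4

section Lens

variable {E : Type*} [NormedAddCommGroup E] [NormedSpace ℝ E]

/-- The intersection of the open unit balls centred at `0` and at `a`. -/
def lens (a : E) : Set E := {u | ‖u‖ < 1 ∧ ‖u - a‖ < 1}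

/-- The point reflection `u ↦ a - u` of the lens. -/
noncomputable def lensRefl (a : E) : lens a ≃ᵢ lens a where
  toFun u := ⟨a - u, by
    have h := u.2
    refine ⟨?_, ?_⟩
    · rw [← norm_neg, neg_sub]; exact h.2
    · have : a - (u : E) - a = -(u : E) := by abel
      rw [this, norm_neg]; exact h.1⟩
  invFun u := ⟨a - u, by
    have h := u.2
    refine ⟨?_, ?_⟩
    · rw [← norm_neg, neg_sub]; exact h.2
    · have : a - (u : E) - a = -(u : E) := by abel
      rw [this, norm_neg]; exact h.1⟩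
  left_inv u := by
    apply Subtype.ext
    simp
  right_inv u := by
    apply Subtype.ext
    simp
  isometry_toFun := by
    apply Isometry.of_dist_eq
    intro u v
    rw [Subtype.dist_eq, Subtype.dist_eq, dist_eq_norm, dist_eq_norm]
    have : a - (u : E) - (a - (v : E)) = -((u : E) - v) := by abel
    rw [this, norm_neg]

theorem lensRefl_coe (a : E) (u : lens a) : ((lensRefl a u : lens a) : E) = a - u := rfl

end Lens

section Ball

variable {X W : Type*} [NormedAddCommGroup X] [NormedSpace ℝ X]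
  [NormedAddCommGroup W] [NormedSpace ℝ W]

/-- A bijective isometry of open unit balls restricts to an isometric equivalence of lenses. -/
noncomputable def lensMap (f : X → W)
    (hmap : ∀ x, ‖x‖ < 1 → ‖f x‖ < 1)
    (hiso : ∀ x x', ‖x‖ < 1 → ‖x'‖ < 1 → ‖f x - f x'‖ = ‖x - x'‖)
    (hsurj : ∀ w, ‖w‖ < 1 → ∃ x, ‖x‖ < 1 ∧ f x = w) (a : X) (ha : ‖a‖ < 1) :
    lens a ≃ᵢ lens (f a) :=
  IsometryEquiv.mk
    (Equiv.ofBijective
      (fun u : lens a => (⟨f u, hmap u u.2.1, by rw [hiso u a u.2.1 ha]; exact u.2.2⟩ : lens (f a)))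
      (by
        constructor
        · intro u v huv
          have h1 : f u = f v := congrArg Subtype.val huv
          have h2 := hiso u v u.2.1 v.2.1
          rw [h1, sub_self, norm_zero] at h2
          apply Subtype.ext
          exact sub_eq_zero.1 (norm_eq_zero.1 h2.symm)
        · intro w
          obtain ⟨x, hx, hxw⟩ := hsurj w w.2.1
          refine ⟨⟨x, hx, ?_⟩, ?_⟩
          · rw [← hiso x a hx ha, hxw]; exact w.2.2
          · apply Subtype.ext
            exact hxw))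
    (by
      apply Isometry.of_dist_eq
      intro u v
      rw [Subtype.dist_eq, Subtype.dist_eq, dist_eq_norm, dist_eq_norm]
      exact hiso u v u.2.1 v.2.1)

theorem lensMap_coe (f : X → W)
    (hmap : ∀ x, ‖x‖ < 1 → ‖f x‖ < 1)
    (hiso : ∀ x x', ‖x‖ < 1 → ‖x'‖ < 1 → ‖f x - f x'‖ = ‖x - x'‖)
    (hsurj : ∀ w, ‖w‖ < 1 → ∃ x, ‖x‖ < 1 ∧ f x = w) (a : X) (ha : ‖a‖ < 1) (u : lens a) :
    ((lensMap f hmap hiso hsurj a ha u : lens (f a)) : W) = f u := rfl

theorem half_mem_lens {E : Type*} [NormedAddCommGroup E] [NormedSpace ℝ E] {a : E}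
    (ha : ‖a‖ < 1) : (1 / 2 : ℝ) • a ∈ lens a := by
  have h0 := norm_nonneg a
  constructor
  · rw [norm_smul, Real.norm_of_nonneg (by norm_num)]; linarith
  · have : (1 / 2 : ℝ) • a - a = (-(1 / 2) : ℝ) • a := by
      rw [neg_smul]
      have h2 : a = (1 / 2 : ℝ) • a + (1 / 2 : ℝ) • a := by
        rw [← add_smul]; norm_num
      nth_rewrite 2 [h2]
      abel
    rw [this, norm_smul, norm_neg, Real.norm_of_nonneg (by norm_num)]; linarith

theorem lens_reflection_props {E : Type*} [NormedAddCommGroup E] [NormedSpace ℝ E] {a : E}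
    (ha : ‖a‖ < 1) :
    (∀ u : lens a, dist (lensRefl a u) (⟨(1 / 2 : ℝ) • a, half_mem_lens ha⟩ : lens a)
        = dist u (⟨(1 / 2 : ℝ) • a, half_mem_lens ha⟩ : lens a)) ∧
    (∀ u : lens a, dist (lensRefl a u) u
        = 2 * dist u (⟨(1 / 2 : ℝ) • a, half_mem_lens ha⟩ : lens a)) := by
  have h2 : a = (1 / 2 : ℝ) • a + (1 / 2 : ℝ) • a := by
    rw [← add_smul]; norm_num
  constructor
  · intro u
    rw [Subtype.dist_eq, Subtype.dist_eq, dist_eq_norm, dist_eq_norm, lensRefl_coe]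
    have : a - (u : E) - (1 / 2 : ℝ) • a = -((u : E) - (1 / 2 : ℝ) • a) := by
      nth_rewrite 1 [h2]
      abel
    rw [this, norm_neg]
  · intro u
    rw [Subtype.dist_eq, Subtype.dist_eq, dist_eq_norm, dist_eq_norm, lensRefl_coe]
    have : a - (u : E) - (u : E) = (-2 : ℝ) • ((u : E) - (1 / 2 : ℝ) • a) := by
      rw [smul_sub, smul_smul, neg_smul, two_smul]
      norm_num
      abel
    rw [this, norm_smul]
    norm_num

/-- The midpoint step: `f (a / 2) = f a / 2`. -/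
theorem ball_iso_half (f : X → W) (h0 : f 0 = 0)
    (hmap : ∀ x, ‖x‖ < 1 → ‖f x‖ < 1)
    (hiso : ∀ x x', ‖x‖ < 1 → ‖x'‖ < 1 → ‖f x - f x'‖ = ‖x - x'‖)
    (hsurj : ∀ w, ‖w‖ < 1 → ∃ x, ‖x‖ < 1 ∧ f x = w) (a : X) (ha : ‖a‖ < 1) :
    f ((1 / 2 : ℝ) • a) = (1 / 2 : ℝ) • f a := by
  have ha' : ‖f a‖ < 1 := hmap a ha
  have hz : (0 : X) ∈ lens a := ⟨by simp, by simpa using ha⟩
  have hz' : (0 : W) ∈ lens (f a) := ⟨by simp, by simpa using ha'⟩
  have haa : a ∈ lens a := ⟨ha, by simp⟩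
  have haa' : f a ∈ lens (f a) := ⟨ha', by simp⟩
  have key := map_center_of_reflections (lensRefl a) ⟨0, hz⟩ ⟨a, haa⟩
    ⟨(1 / 2 : ℝ) • a, half_mem_lens ha⟩
    (by apply Subtype.ext; rw [lensRefl_coe]; simp)
    (by apply Subtype.ext; rw [lensRefl_coe]; simp)
    (lens_reflection_props ha).1 (lens_reflection_props ha).2
    (lensRefl (f a)) ⟨0, hz'⟩ ⟨f a, haa'⟩ ⟨(1 / 2 : ℝ) • f a, half_mem_lens ha'⟩
    (by apply Subtype.ext; rw [lensRefl_coe]; simp)
    (by apply Subtype.ext; rw [lensRefl_coe]; simp)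
    (lens_reflection_props ha').2
    (lensMap f hmap hiso hsurj a ha)
    (by apply Subtype.ext; rw [lensMap_coe]; exact h0)
    (by apply Subtype.ext; rw [lensMap_coe])
  have := congrArg Subtype.val key
  rw [lensMap_coe] at this
  exact this

/-- Dyadic rescaling of a map defined near the origin. -/
noncomputable def dyadic (f : X → W) (n : ℕ) (x : X) : W :=
  ((2 : ℝ) ^ n) • f (((2 : ℝ) ^ n)⁻¹ • x)

theorem norm_scaled_lt {E : Type*} [NormedAddCommGroup E] [NormedSpace ℝ E] {x : E} {n : ℕ}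
    (hx : ‖x‖ < (2 : ℝ) ^ n) : ‖((2 : ℝ) ^ n)⁻¹ • x‖ < 1 := by
  have hp : (0 : ℝ) < (2 : ℝ) ^ n := by positivity
  rw [norm_smul, norm_inv, Real.norm_of_nonneg hp.le, inv_mul_lt_iff₀ hp, mul_one]
  exact hx

theorem dyadic_succ (f : X → W) (h0 : f 0 = 0)
    (hmap : ∀ x, ‖x‖ < 1 → ‖f x‖ < 1)
    (hiso : ∀ x x', ‖x‖ < 1 → ‖x'‖ < 1 → ‖f x - f x'‖ = ‖x - x'‖)
    (hsurj : ∀ w, ‖w‖ < 1 → ∃ x, ‖x‖ < 1 ∧ f x = w) (n : ℕ) (x : X)
    (hx : ‖x‖ < (2 : ℝ) ^ n) : dyadic f (n + 1) x = dyadic f n x := by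
  have hp : (0 : ℝ) < (2 : ℝ) ^ n := by positivity
  have h1 := ball_iso_half f h0 hmap hiso hsurj _ (norm_scaled_lt hx)
  unfold dyadic
  have h2 : ((2 : ℝ) ^ (n + 1))⁻¹ • x = (1 / 2 : ℝ) • (((2 : ℝ) ^ n)⁻¹ • x) := by
    rw [smul_smul, pow_succ, mul_inv]
    congr 1
    ring
  rw [h2, h1, smul_smul]
  congr 1
  rw [pow_succ]
  ring

theorem dyadic_le (f : X → W) (h0 : f 0 = 0)
    (hmap : ∀ x, ‖x‖ < 1 → ‖f x‖ < 1)
    (hiso : ∀ x x', ‖x‖ < 1 → ‖x'‖ < 1 → ‖f x - f x'‖ = ‖x - x'‖)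
    (hsurj : ∀ w, ‖w‖ < 1 → ∃ x, ‖x‖ < 1 ∧ f x = w) (n : ℕ) (x : X)
    (hx : ‖x‖ < (2 : ℝ) ^ n) (m : ℕ) (hnm : n ≤ m) : dyadic f m x = dyadic f n x := by
  induction m, hnm using Nat.le_induction with
  | base => rfl
  | succ k hk ih =>
    rw [← ih]
    apply dyadic_succ f h0 hmap hiso hsurj
    calc ‖x‖ < (2 : ℝ) ^ n := hx
      _ ≤ (2 : ℝ) ^ k := pow_le_pow_right₀ (by norm_num) hk

theorem dyadic_eq (f : X → W) (h0 : f 0 = 0)
    (hmap : ∀ x, ‖x‖ < 1 → ‖f x‖ < 1)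
    (hiso : ∀ x x', ‖x‖ < 1 → ‖x'‖ < 1 → ‖f x - f x'‖ = ‖x - x'‖)
    (hsurj : ∀ w, ‖w‖ < 1 → ∃ x, ‖x‖ < 1 ∧ f x = w) (n m : ℕ) (x : X)
    (hn : ‖x‖ < (2 : ℝ) ^ n) (hm : ‖x‖ < (2 : ℝ) ^ m) : dyadic f m x = dyadic f n x := by
  rcases le_total n m with h | h
  · exact dyadic_le f h0 hmap hiso hsurj n x hn m h
  · exact (dyadic_le f h0 hmap hiso hsurj m x hm n h).symm

/-- **Mankiewicz's theorem for open unit balls.** -/
theorem ball_mankiewicz (f : X → W) (h0 : f 0 = 0)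
    (hmap : ∀ x, ‖x‖ < 1 → ‖f x‖ < 1)
    (hiso : ∀ x x', ‖x‖ < 1 → ‖x'‖ < 1 → ‖f x - f x'‖ = ‖x - x'‖)
    (hsurj : ∀ w, ‖w‖ < 1 → ∃ x, ‖x‖ < 1 ∧ f x = w) :
    ∃ L : X ≃ₗᵢ[ℝ] W, ∀ x, ‖x‖ < 1 → L x = f x := by
  have hex : ∀ x : X, ∃ n : ℕ, ‖x‖ < (2 : ℝ) ^ n := fun x =>
    pow_unbounded_of_one_lt ‖x‖ one_lt_two
  choose N hN using hex
  set g : X → W := fun x => dyadic f (N x) x with hg
  have g_eq : ∀ (m : ℕ) (x : X), ‖x‖ < (2 : ℝ) ^ m → g x = dyadic f m x := fun m x hm =>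
    dyadic_eq f h0 hmap hiso hsurj m (N x) x hm (hN x)
  have g_iso : Isometry g := by
    apply Isometry.of_dist_eq
    intro x y
    obtain ⟨m, hm⟩ := pow_unbounded_of_one_lt (‖x‖ + ‖y‖) one_lt_two
    have hx : ‖x‖ < (2 : ℝ) ^ m := by linarith [norm_nonneg y]
    have hy : ‖y‖ < (2 : ℝ) ^ m := by linarith [norm_nonneg x]
    have hp : (0 : ℝ) < (2 : ℝ) ^ m := by positivity
    rw [g_eq m x hx, g_eq m y hy, dist_eq_norm, dist_eq_norm]
    unfold dyadic
    rw [← smul_sub, norm_smul, hiso _ _ (norm_scaled_lt hx) (norm_scaled_lt hy), ← smul_sub,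
      norm_smul, ← mul_assoc, norm_inv, mul_inv_cancel₀ (norm_ne_zero_iff.2 hp.ne'), one_mul]
  have g_surj : Function.Surjective g := by
    intro w
    obtain ⟨m, hm⟩ := pow_unbounded_of_one_lt ‖w‖ one_lt_two
    have hp : (0 : ℝ) < (2 : ℝ) ^ m := by positivity
    obtain ⟨x0, hx0, hfx0⟩ := hsurj _ (norm_scaled_lt hm)
    refine ⟨((2 : ℝ) ^ m) • x0, ?_⟩
    have hx : ‖((2 : ℝ) ^ m) • x0‖ < (2 : ℝ) ^ m := by
      rw [norm_smul, Real.norm_of_nonneg hp.le]
      calc (2 : ℝ) ^ m * ‖x0‖ < (2 : ℝ) ^ m * 1 := by gcongr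
        _ = (2 : ℝ) ^ m := mul_one _
    rw [g_eq m _ hx]
    unfold dyadic
    rw [smul_smul, inv_mul_cancel₀ hp.ne', one_smul, hfx0, smul_smul, mul_inv_cancel₀ hp.ne',
      one_smul]
  have g_small : ∀ x, ‖x‖ < 1 → g x = f x := by
    intro x hx
    rw [g_eq 0 x (by simpa using hx)]
    unfold dyadic
    simp
  have g0 : g 0 = 0 := by
    rw [g_small 0 (by simp), h0]
  let ge : X ≃ᵢ W := IsometryEquiv.mk (Equiv.ofBijective g ⟨g_iso.injective, g_surj⟩) g_iso
  refine ⟨ge.toRealLinearIsometryEquivOfMapZero g0, ?_⟩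
  intro x hx
  rw [← g_small x hx]
  rfl

end Ball

end Vale.Agent.P084
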