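import Mathlib

/-!
Elementary norm lemmas used for the Mazur-Ulam property of `X × ℝ`.
-/

namespace Vale.Agent.P084

variable {E : Type*} [NormedAddCommGroup E] [NormedSpace ℝ E]

/-- If two unit vectors have a sum of norm two, then the norm is additive on their
nonnegative combinations. -/
theorem norm_comb_of_norm_add_eq_two {u v : E} (hu : ‖u‖ = 1) (hv : ‖v‖ = 1)
    (huv : ‖u + v‖ = 2) {a b : ℝ} (ha : 0 ≤ a) (hb : 0 ≤ b) : ‖a • u + b • v‖ = a + b := by
  apply le_antisymm
  · calc ‖a • u + b • v‖ ≤ ‖a • u‖ + ‖b • v‖ := norm_add_le _ _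
      _ = a + b := by rw [norm_smul, norm_smul, hu, hv, Real.norm_of_nonneg ha,
                        Real.norm_of_nonneg hb]; ring
  · rcases le_total a b with hab | hab
    · have h1 : b • (u + v) = (a • u + b • v) + (b - a) • u := by
        rw [smul_add, sub_smul]; abel
      have h2 : ‖b • (u + v)‖ = 2 * b := by
        rw [norm_smul, huv, Real.norm_of_nonneg hb]; ring
      have h3 : ‖(b - a) • u‖ = b - a := by
        rw [norm_smul, hu, Real.norm_of_nonneg (sub_nonneg.2 hab)]; ring
      have h4 := norm_add_le (a • u + b • v) ((b - a) • u)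
      rw [← h1, h2, h3] at h4
      linarith
    · have h1 : a • (u + v) = (a • u + b • v) + (a - b) • v := by
        rw [smul_add, sub_smul]; abel
      have h2 : ‖a • (u + v)‖ = 2 * a := by
        rw [norm_smul, huv, Real.norm_of_nonneg ha]; ring
      have h3 : ‖(a - b) • v‖ = a - b := by
        rw [norm_smul, hv, Real.norm_of_nonneg (sub_nonneg.2 hab)]; ring
      have h4 := norm_add_le (a • u + b • v) ((a - b) • v)
      rw [← h1, h2, h3] at h4
      linarith

/-- Metric rigidity of points of a unit sphere: a point `x` of the unit sphere is determined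
by its distances to those points of the sphere that are at distance at least one from it. -/
theorem sphere_point_rigidity {x v : E} (hx : ‖x‖ = 1) (hv : ‖v‖ = 1)
    (h : ∀ p : E, ‖p‖ = 1 → 1 ≤ ‖p - x‖ → ‖p - v‖ = ‖p - x‖) : v = x := by
  by_contra hne
  have hd : 0 < ‖v - x‖ := norm_pos_iff.2 (sub_ne_zero.2 hne)
  obtain ⟨d, e, hd, he, hve⟩ : ∃ (d : ℝ) (e : E), 0 < d ∧ ‖e‖ = 1 ∧ v = x + d • e := by
    refine ⟨‖v - x‖, ‖v - x‖⁻¹ • (v - x), hd, ?_, ?_⟩
    · rw [norm_smul, norm_inv, norm_norm]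
      exact inv_mul_cancel₀ hd.ne'
    · rw [smul_smul, mul_inv_cancel₀ hd.ne', one_smul]; abel
  -- the antipode of `x`
  have hxv : ‖x + v‖ = 2 := by
    have h1 : ‖-x - x‖ = 2 := by
      have : -x - x = (-2 : ℝ) • x := by rw [neg_smul, two_smul]; abel
      rw [this, norm_smul, hx]; norm_num
    have h2 := h (-x) (by rw [norm_neg, hx]) (by rw [h1]; norm_num)
    rw [h1] at h2
    have : -x - v = -(x + v) := by abel
    rw [this, norm_neg] at h2
    exact h2
  -- a functional norming both `x` and `v`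
  obtain ⟨φ, hφ, hφxv⟩ := exists_dual_vector'' ℝ (x + v)
  have hφle : ∀ w : E, φ w ≤ ‖w‖ := fun w => by
    calc φ w ≤ ‖φ w‖ := le_abs_self _
      _ ≤ ‖φ‖ * ‖w‖ := φ.le_opNorm w
      _ ≤ 1 * ‖w‖ := by gcongr
      _ = ‖w‖ := one_mul _
  have hφx : φ x = 1 := by
    have h1 := hφle x
    have h2 := hφle v
    have h3 : φ x + φ v = 2 := by
      rw [← map_add, hφxv, hxv]; norm_num
    rw [hx] at h1; rw [hv] at h2
    linarith
  have hφv : φ v = 1 := by
    have h3 : φ x + φ v = 2 := by
      rw [← map_add, hφxv, hxv]; norm_num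
    linarith
  have hφe : φ e = 0 := by
    have h3 : φ v = φ x + d * φ e := by
      conv_lhs => rw [hve]
      rw [map_add, map_smul, smul_eq_mul]
    rw [hφx, hφv] at h3
    have h4 : d * φ e = 0 := by linarith
    rcases mul_eq_zero.1 h4 with h5 | h5
    · exact absurd h5 hd.ne'
    · exact h5
  -- the two directions `e` and `-e`
  have hge1 : 1 ≤ ‖e - x‖ := by
    have := hφle (x - e)
    rw [map_sub, hφx, hφe, ← norm_neg] at this
    simpa using this
  have hge2 : 1 ≤ ‖-e - x‖ := by
    have := hφle (x + e)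
    rw [map_add, hφx, hφe, ← norm_neg] at this
    have h2 : -(x + e) = -e - x := by abel
    rw [h2] at this
    simpa using this
  have h1 := h e he hge1
  have h2 := h (-e) (by rw [norm_neg, he]) hge2
  -- rewrite in terms of `g s = ‖x + s • e‖`
  have g1 : ‖x + (1 + d) • e‖ = ‖x + e‖ := by
    have e1 : -e - v = -(x + (1 + d) • e) := by
      rw [hve, add_smul, one_smul]; abel
    have e2 : -e - x = -(x + e) := by abel
    rw [e1, e2, norm_neg, norm_neg] at h2
    exact h2
  have g2 : ‖x + (d - 1) • e‖ = ‖x - e‖ := by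
    have e1 : e - v = -(x + (d - 1) • e) := by
      rw [hve, sub_smul, one_smul]; abel
    have e2 : e - x = -(x - e) := by abel
    rw [e1, e2, norm_neg, norm_neg] at h1
    exact h1
  have hd1 : 0 < 1 + d := by linarith
  -- convexity
  have c1 : ‖x + e‖ ≤ 1 := by
    have e1 : x + e = (d / (1 + d)) • x + (1 / (1 + d)) • (x + (1 + d) • e) := by
      rw [smul_add, smul_smul, ← add_assoc, ← add_smul]
      have : d / (1 + d) + 1 / (1 + d) = 1 := by field_simp; ring
      rw [this, one_smul]
      have : 1 / (1 + d) * (1 + d) = 1 := by field_simp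
      rw [this, one_smul]
    have e2 : ‖x + e‖ ≤ d / (1 + d) * 1 + 1 / (1 + d) * ‖x + e‖ := by
      calc ‖x + e‖ = ‖(d / (1 + d)) • x + (1 / (1 + d)) • (x + (1 + d) • e)‖ := by rw [← e1]
        _ ≤ ‖(d / (1 + d)) • x‖ + ‖(1 / (1 + d)) • (x + (1 + d) • e)‖ := norm_add_le _ _
        _ = d / (1 + d) * 1 + 1 / (1 + d) * ‖x + e‖ := by
            rw [norm_smul, norm_smul, hx, g1, Real.norm_of_nonneg (by positivity),
              Real.norm_of_nonneg (by positivity)]
    have e3 : (1 + d) * ‖x + e‖ ≤ d + ‖x + e‖ := by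
      have := mul_le_mul_of_nonneg_left e2 hd1.le
      have e4 : (1 + d) * (d / (1 + d) * 1 + 1 / (1 + d) * ‖x + e‖) = d + ‖x + e‖ := by
        field_simp
      rwa [e4] at this
    have e5 : d * ‖x + e‖ ≤ d * 1 := by nlinarith
    exact le_of_mul_le_mul_left e5 hd
  have c2 : ‖x - e‖ ≤ 1 := by
    have e1 : x + (d - 1) • e = (1 / (1 + d)) • (x - e) + (d / (1 + d)) • v := by
      rw [hve, smul_sub, smul_add, smul_smul]
      have h3 : (1 / (1 + d)) • x - (1 / (1 + d)) • e + ((d / (1 + d)) • x + (d / (1 + d) * d) • e)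
          = (1 / (1 + d) + d / (1 + d)) • x + (d / (1 + d) * d - 1 / (1 + d)) • e := by
        rw [add_smul, sub_smul]; abel
      rw [h3]
      have h4 : 1 / (1 + d) + d / (1 + d) = 1 := by field_simp
      have h5 : d / (1 + d) * d - 1 / (1 + d) = d - 1 := by field_simp; ring
      rw [h4, h5, one_smul]
    have e2 : ‖x - e‖ ≤ 1 / (1 + d) * ‖x - e‖ + d / (1 + d) * 1 := by
      calc ‖x - e‖ = ‖(1 / (1 + d)) • (x - e) + (d / (1 + d)) • v‖ := by rw [← e1, g2]
        _ ≤ ‖(1 / (1 + d)) • (x - e)‖ + ‖(d / (1 + d)) • v‖ := norm_add_le _ _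
        _ = 1 / (1 + d) * ‖x - e‖ + d / (1 + d) * 1 := by
            rw [norm_smul, norm_smul, hv, Real.norm_of_nonneg (by positivity),
              Real.norm_of_nonneg (by positivity)]
    have e3 : (1 + d) * ‖x - e‖ ≤ ‖x - e‖ + d := by
      have := mul_le_mul_of_nonneg_left e2 hd1.le
      have e4 : (1 + d) * (1 / (1 + d) * ‖x - e‖ + d / (1 + d) * 1) = ‖x - e‖ + d := by
        field_simp
      rwa [e4] at this
    have e5 : d * ‖x - e‖ ≤ d * 1 := by nlinarith
    exact le_of_mul_le_mul_left e5 hd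
  -- final contradiction: a chord of length `2 + d`
  have f1 : (x + (1 + d) • e) - (x - e) = (2 + d) • e := by
    rw [add_smul, add_smul, one_smul, two_smul]; abel
  have f2 : ‖(2 + d) • e‖ = 2 + d := by
    rw [norm_smul, he, Real.norm_of_nonneg (by linarith)]; ring
  have f3 := norm_sub_le (x + (1 + d) • e) (x - e)
  rw [f1, f2, g1] at f3
  linarith

/-- A point of the closed unit ball is determined by its distances to the points of the
unit sphere. -/
theorem ball_point_rigidity {x u : E} (hx : ‖x‖ ≤ 1)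
    (h : ∀ p : E, ‖p‖ = 1 → ‖u - p‖ = ‖x - p‖) : u = x := by
  by_contra hne
  have hd : 0 < ‖x - u‖ := norm_pos_iff.2 (sub_ne_zero.2 (Ne.symm hne))
  -- the ray from `u` through `x` meets the sphere
  have hcont : Continuous fun s : ℝ => ‖x + s • (x - u)‖ := by fun_prop
  have hbig : 1 ≤ ‖x + (2 / ‖x - u‖) • (x - u)‖ := by
    have h1 : ‖(2 / ‖x - u‖) • (x - u)‖ = 2 := by
      rw [norm_smul, Real.norm_of_nonneg (by positivity)]; field_simp
    have h2 := norm_sub_le (x + (2 / ‖x - u‖) • (x - u)) x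
    rw [add_sub_cancel_left, h1] at h2
    linarith
  have hs0 : (0 : ℝ) ≤ 2 / ‖x - u‖ := by positivity
  have hmem : (1 : ℝ) ∈ Set.Icc (‖x + (0 : ℝ) • (x - u)‖) (‖x + (2 / ‖x - u‖) • (x - u)‖) := by
    constructor
    · simpa using hx
    · exact hbig
  obtain ⟨s, hs, hs1⟩ := intermediate_value_Icc hs0 hcont.continuousOn hmem
  have hs1' : ‖x + s • (x - u)‖ = 1 := hs1
  have h1 := h _ hs1'
  have e1 : u - (x + s • (x - u)) = -((1 + s) • (x - u)) := by
    rw [add_smul, one_smul]; abel
  have e2 : x - (x + s • (x - u)) = -(s • (x - u)) := by abel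
  rw [e1, e2, norm_neg, norm_neg, norm_smul, norm_smul, Real.norm_of_nonneg hs.1,
    Real.norm_of_nonneg (by linarith [hs.1])] at h1
  nlinarith

end Vale.Agent.P084
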