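import Mathlib

/-!
The norm of the combinatorial Banach space of a family of finite sets of natural numbers.
-/

namespace Vale.Agent.P084

/-- The combinatorial norm given by a family `𝓕` of finite subsets of `ℕ`, on finitely
supported sequences: the supremum over `F ∈ 𝓕` of `∑ i ∈ F, |x i|`. -/
noncomputable def combNorm (𝓕 : Set (Finset ℕ)) (x : ℕ →₀ ℝ) : ℝ :=
  ⨆ F : 𝓕, ∑ i ∈ F.1, |x i|

end Vale.Agent.P084
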