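import Mathlib
import Vale.Agent.P084.CombDef

/-!
Combinatorial norms: elementary facts on finitely supported sequences.
-/

namespace Vale.Agent.P084

variable {𝓕 : Set (Finset ℕ)}

theorem comb_bdd (x : ℕ →₀ ℝ) : BddAbove (Set.range fun F : 𝓕 => ∑ i ∈ F.1, |x i|) := by
  refine ⟨∑ i ∈ x.support, |x i|, ?_⟩
  rintro _ ⟨F, rfl⟩
  have h1 : ∑ i ∈ F.1, |x i| = ∑ i ∈ F.1.filter (fun i => i ∈ x.support), |x i| := by
    rw [Finset.sum_filter]
    apply Finset.sum_congr rfl
    intro i _
    split_ifs with h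
    · rfl
    · rw [Finsupp.notMem_support_iff.1 h, abs_zero]
  change ∑ i ∈ F.1, |x i| ≤ _
  rw [h1]
  apply Finset.sum_le_sum_of_subset_of_nonneg
  · intro i hi
    exact (Finset.mem_filter.1 hi).2
  · intro i _ _
    exact abs_nonneg _

theorem le_combNorm (x : ℕ →₀ ℝ) {A : Finset ℕ} (hA : A ∈ 𝓕) :
    ∑ i ∈ A, |x i| ≤ combNorm 𝓕 x :=
  le_ciSup (comb_bdd (𝓕 := 𝓕) x) ⟨A, hA⟩

theorem combNorm_le (hne : 𝓕.Nonempty) (x : ℕ →₀ ℝ) {r : ℝ}
    (h : ∀ A ∈ 𝓕, ∑ i ∈ A, |x i| ≤ r) : combNorm 𝓕 x ≤ r := by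
  have : Nonempty 𝓕 := hne.to_subtype
  exact ciSup_le fun F => h F.1 F.2

theorem abs_le_combNorm (x : ℕ →₀ ℝ) {A : Finset ℕ} (hA : A ∈ 𝓕) {i : ℕ} (hi : i ∈ A) :
    |x i| ≤ combNorm 𝓕 x :=
  le_trans (Finset.single_le_sum (f := fun i => |x i|) (fun _ _ => abs_nonneg _) hi)
    (le_combNorm x hA)

/-- The supremum defining the norm is attained. -/
theorem combNorm_attained (hne : 𝓕.Nonempty) (x : ℕ →₀ ℝ) :
    ∃ A ∈ 𝓕, ∑ i ∈ A, |x i| = combNorm 𝓕 x := by
  have : Nonempty 𝓕 := hne.to_subtype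
  have hfin : (Set.range fun F : 𝓕 => ∑ i ∈ F.1, |x i|).Finite := by
    apply Set.Finite.subset
      (Finset.finite_toSet (x.support.powerset.image fun B => ∑ i ∈ B, |x i|))
    rintro _ ⟨F, rfl⟩
    rw [Finset.mem_coe, Finset.mem_image]
    refine ⟨F.1.filter (fun i => i ∈ x.support), ?_, ?_⟩
    · rw [Finset.mem_powerset]
      intro i hi
      exact (Finset.mem_filter.1 hi).2
    · rw [Finset.sum_filter]
      apply Finset.sum_congr rfl
      intro i _
      split_ifs with h
      · rfl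
      · rw [Finsupp.notMem_support_iff.1 h, abs_zero]
  obtain ⟨F, hF⟩ := Set.Nonempty.csSup_mem (Set.range_nonempty _) hfin
  exact ⟨F.1, F.2, hF⟩

/-- The centre of the face given by a set `F` and signs `ε`. -/
noncomputable def combCenter (F : Finset ℕ) (ε : ℕ → ℝ) : ℕ →₀ ℝ :=
  Finsupp.indicator F (fun i _ => ε i / F.card)

theorem combCenter_apply (F : Finset ℕ) (ε : ℕ → ℝ) (i : ℕ) :
    combCenter F ε i = if i ∈ F then ε i / F.card else 0 := by
  unfold combCenter
  rw [Finsupp.indicator_apply]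
  split_ifs <;> rfl

/-- Flatness at the centre of a face, on finitely supported sequences. -/
theorem comb_flat_c00 {F : Finset ℕ} (hF : F ∈ 𝓕) (hmax : ∀ G ∈ 𝓕, F ⊆ G → G = F)
    (hFne : F.Nonempty) {ε : ℕ → ℝ} (hε : ∀ i, ε i = 1 ∨ ε i = -1) (x : ℕ →₀ ℝ)
    (hx : combNorm 𝓕 x ≤ 1 / (2 * F.card)) :
    combNorm 𝓕 (combCenter F ε + x) = 1 + ∑ i ∈ F, ε i * x i := by
  have hn : (0 : ℝ) < F.card := by exact_mod_cast Finset.card_pos.2 hFne
  have hεsq : ∀ i, ε i * ε i = 1 := by
    intro i; rcases hε i with h | h <;> rw [h] <;> norm_num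
  have hεabs : ∀ i, |ε i| = 1 := by
    intro i; rcases hε i with h | h <;> rw [h] <;> norm_num
  have hsum1 : ∑ i ∈ F, ε i * (combCenter F ε + x) i = 1 + ∑ i ∈ F, ε i * x i := by
    have : ∀ i ∈ F, ε i * (combCenter F ε + x) i = 1 / F.card + ε i * x i := by
      intro i hi
      rw [Finsupp.add_apply, combCenter_apply, if_pos hi, mul_add, ← mul_div_assoc, hεsq]
    rw [Finset.sum_congr rfl this, Finset.sum_add_distrib, Finset.sum_const, nsmul_eq_mul]
    congr 1
    field_simp
  have hsumx : |∑ i ∈ F, ε i * x i| ≤ combNorm 𝓕 x := by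
    calc |∑ i ∈ F, ε i * x i| ≤ ∑ i ∈ F, |ε i * x i| := Finset.abs_sum_le_sum_abs _ _
      _ = ∑ i ∈ F, |x i| := by
          apply Finset.sum_congr rfl
          intro i _
          rw [abs_mul, hεabs, one_mul]
      _ ≤ combNorm 𝓕 x := le_combNorm x hF
  apply le_antisymm
  · apply combNorm_le ⟨F, hF⟩
    intro A hA
    by_cases hAF : F ⊆ A
    · rw [hmax A hA hAF, ← hsum1]
      apply le_of_eq
      apply Finset.sum_congr rfl
      intro i hi
      have h1 : |x i| ≤ 1 / (2 * F.card) := le_trans (abs_le_combNorm x hF hi) hx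
      have h2 : ε i * (combCenter F ε + x) i = 1 / F.card + ε i * x i := by
        rw [Finsupp.add_apply, combCenter_apply, if_pos hi, mul_add, ← mul_div_assoc, hεsq]
      have h3 : |ε i * x i| ≤ 1 / (2 * F.card) := by rw [abs_mul, hεabs, one_mul]; exact h1
      have h4 : (1 : ℝ) / (2 * F.card) < 1 / F.card := by
        apply one_div_lt_one_div_of_lt hn
        linarith
      have h5 : 0 ≤ ε i * (combCenter F ε + x) i := by
        rw [h2]
        have := (abs_le.1 h3).1
        linarith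
      calc |(combCenter F ε + x) i| = |ε i| * |(combCenter F ε + x) i| := by rw [hεabs, one_mul]
        _ = |ε i * (combCenter F ε + x) i| := (abs_mul _ _).symm
        _ = ε i * (combCenter F ε + x) i := abs_of_nonneg h5
    · have hcard : ((A.filter (fun i => i ∈ F)).card : ℝ) ≤ F.card - 1 := by
        have hss : A.filter (fun i => i ∈ F) ⊂ F := by
          rw [Finset.ssubset_iff_subset_ne]
          refine ⟨fun i hi => (Finset.mem_filter.1 hi).2, fun heq => hAF ?_⟩
          intro i hi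
          rw [← heq] at hi
          exact (Finset.mem_filter.1 hi).1
        have := Finset.card_lt_card hss
        have h2 : (A.filter (fun i => i ∈ F)).card + 1 ≤ F.card := this
        have h3 : (((A.filter (fun i => i ∈ F)).card + 1 : ℕ) : ℝ) ≤ F.card := by exact_mod_cast h2
        push_cast at h3
        linarith
      have hc : ∑ i ∈ A, |combCenter F ε i| = (A.filter (fun i => i ∈ F)).card * (1 / F.card) := by
        have : ∀ i ∈ A, |combCenter F ε i| = if i ∈ F then 1 / (F.card : ℝ) else 0 := by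
          intro i _
          rw [combCenter_apply]
          split_ifs
          · rw [abs_div, hεabs, abs_of_pos hn]
          · rw [abs_zero]
        rw [Finset.sum_congr rfl this, ← Finset.sum_filter, Finset.sum_const, nsmul_eq_mul]
      have h1 : ∑ i ∈ A, |(combCenter F ε + x) i| ≤ ∑ i ∈ A, |combCenter F ε i| + ∑ i ∈ A, |x i| := by
        rw [← Finset.sum_add_distrib]
        apply Finset.sum_le_sum
        intro i _
        rw [Finsupp.add_apply]
        exact abs_add_le _ _
      have h2 := le_combNorm x hA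
      have h3 : ((A.filter (fun i => i ∈ F)).card : ℝ) * (1 / F.card) ≤ 1 - 1 / F.card := by
        calc ((A.filter (fun i => i ∈ F)).card : ℝ) * (1 / F.card)
            ≤ (F.card - 1) * (1 / F.card) := by gcongr
          _ = 1 - 1 / F.card := by field_simp
      have h4 : (1 : ℝ) / F.card = 1 / (2 * F.card) + 1 / (2 * F.card) := by field_simp; ring
      have h5 := (abs_le.1 hsumx).1
      rw [hc] at h1
      linarith
  · rw [← hsum1]
    refine le_trans ?_ (le_combNorm _ hF)
    apply Finset.sum_le_sum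
    intro i _
    calc ε i * (combCenter F ε + x) i ≤ |ε i * (combCenter F ε + x) i| := le_abs_self _
      _ = |(combCenter F ε + x) i| := by rw [abs_mul, hεabs, one_mul]

end Vale.Agent.P084
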