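import Mathlib
import Vale.Agent.P084.Basic

/-!
Flat points of the unit sphere: points near which the norm is an affine function.
-/

namespace Vale.Agent.P084

variable {E : Type*} [NormedAddCommGroup E] [NormedSpace ℝ E]

/-- `c` is a flat point of the unit sphere with functional `ξ` and radius `ρ`:
the norm equals `1 + ξ v` at `c + v` whenever `‖v‖ ≤ ρ`. -/
def Flat (c : E) (ξ : StrongDual ℝ E) (ρ : ℝ) : Prop :=
  0 < ρ ∧ ∀ v, ‖v‖ ≤ ρ → ‖c + v‖ = 1 + ξ v

namespace Flat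

variable {c : E} {ξ : StrongDual ℝ E} {ρ : ℝ}

theorem pos (h : Flat c ξ ρ) : 0 < ρ := h.1

theorem norm_eq (h : Flat c ξ ρ) : ‖c‖ = 1 := by
  have := h.2 0 (by rw [norm_zero]; exact h.1.le)
  simpa using this

theorem self_eq (h : Flat c ξ ρ) : ξ c = 1 := by
  have h1 := h.2 (ρ • c) (by rw [norm_smul, h.norm_eq, mul_one, Real.norm_of_nonneg h.1.le])
  have h2 : c + ρ • c = (1 + ρ) • c := by rw [add_smul, one_smul]
  rw [h2, norm_smul, h.norm_eq, mul_one, Real.norm_of_nonneg (by linarith [h.1]), map_smul,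
    smul_eq_mul] at h1
  have h3 : ρ * ξ c = ρ * 1 := by linarith
  exact mul_left_cancel₀ h.1.ne' h3

theorem le_norm (h : Flat c ξ ρ) (v : E) : ξ v ≤ ‖v‖ := by
  rcases eq_or_ne v 0 with rfl | hv
  · simp
  have hpos : 0 < ‖v‖ := norm_pos_iff.2 hv
  have h0 : ‖(ρ / ‖v‖) • v‖ = ρ := by
    rw [norm_smul, Real.norm_of_nonneg (div_nonneg h.1.le hpos.le)]
    field_simp
  have h1 := h.2 ((ρ / ‖v‖) • v) h0.le
  have h2 := norm_add_le c ((ρ / ‖v‖) • v)
  rw [h1, h.norm_eq, h0, map_smul, smul_eq_mul] at h2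
  have h3 : ρ / ‖v‖ * ξ v ≤ ρ := by linarith
  rw [div_mul_eq_mul_div, div_le_iff₀ hpos] at h3
  exact le_of_mul_le_mul_left h3 h.1

theorem abs_le_norm (h : Flat c ξ ρ) (v : E) : |ξ v| ≤ ‖v‖ := by
  rw [abs_le]
  constructor
  · have := h.le_norm (-v)
    rw [map_neg, norm_neg] at this
    linarith
  · exact h.le_norm v

theorem radius_le_one (h : Flat c ξ ρ) : ρ ≤ 1 := by
  have h1 := h.2 (-(ρ • c)) (by
    rw [norm_neg, norm_smul, h.norm_eq, mul_one, Real.norm_of_nonneg h.1.le])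
  rw [map_neg, map_smul, h.self_eq, smul_eq_mul, mul_one] at h1
  have := norm_nonneg (c + -(ρ • c))
  linarith

theorem mono (h : Flat c ξ ρ) {ρ' : ℝ} (h0 : 0 < ρ') (hle : ρ' ≤ ρ) : Flat c ξ ρ' :=
  ⟨h0, fun v hv => h.2 v (hv.trans hle)⟩

theorem neg (h : Flat c ξ ρ) : Flat (-c) (-ξ) ρ := by
  refine ⟨h.1, fun v hv => ?_⟩
  have h1 := h.2 (-v) (by rwa [norm_neg])
  have h2 : -c + v = -(c + -v) := by abel
  rw [h2, norm_neg, h1, map_neg]
  rfl

/-- Points of the unit sphere close to a flat point lie in its hyperplane. -/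
theorem eq_one_of_near (h : Flat c ξ ρ) {w : E} (hw : ‖w‖ = 1) (hd : ‖w - c‖ ≤ ρ) : ξ w = 1 := by
  have h1 := h.2 (w - c) hd
  rw [add_sub_cancel, hw, map_sub, h.self_eq] at h1
  linarith

/-- Points of the hyperplane close to a flat point lie on the unit sphere. -/
theorem norm_eq_one_of_near (h : Flat c ξ ρ) {w : E} (hw : ξ w = 1) (hd : ‖w - c‖ ≤ ρ) :
    ‖w‖ = 1 := by
  have h1 := h.2 (w - c) hd
  rw [add_sub_cancel, map_sub, h.self_eq, hw] at h1
  linarith

/-- Moving a flat point towards a point of its face gives a flat point. -/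
theorem mix (h : Flat c ξ ρ) {a : E} (ha : ‖a‖ ≤ 1) (hξ : ξ a = 1) {s : ℝ} (h0 : 0 ≤ s)
    (h1 : s < 1) : Flat ((1 - s) • c + s • a) ξ ((1 - s) * ρ) := by
  have hs : 0 < 1 - s := by linarith
  refine ⟨mul_pos hs h.1, fun v hv => ?_⟩
  apply le_antisymm
  · have h2 : (1 - s) • c + s • a + v = (1 - s) • (c + (1 - s)⁻¹ • v) + s • a := by
      rw [smul_add, smul_smul, mul_inv_cancel₀ hs.ne', one_smul]; abel
    have h3 : ‖(1 - s)⁻¹ • v‖ ≤ ρ := by
      rw [norm_smul, norm_inv, Real.norm_of_nonneg hs.le, inv_mul_le_iff₀ hs]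
      exact hv
    rw [h2]
    calc ‖(1 - s) • (c + (1 - s)⁻¹ • v) + s • a‖
        ≤ ‖(1 - s) • (c + (1 - s)⁻¹ • v)‖ + ‖s • a‖ := norm_add_le _ _
      _ = (1 - s) * (1 + ξ ((1 - s)⁻¹ • v)) + s * ‖a‖ := by
          rw [norm_smul, norm_smul, h.2 _ h3, Real.norm_of_nonneg hs.le, Real.norm_of_nonneg h0]
      _ ≤ (1 - s) * (1 + ξ ((1 - s)⁻¹ • v)) + s * 1 := by gcongr
      _ = 1 + ξ v := by
          rw [map_smul, smul_eq_mul]
          field_simp
          ring
  · have h2 := h.le_norm ((1 - s) • c + s • a + v)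
    rw [map_add, map_add, map_smul, map_smul, h.self_eq, hξ, smul_eq_mul, smul_eq_mul] at h2
    linarith

/-- The norming functional of a flat point is unique. -/
theorem unique (h : Flat c ξ ρ) {χ : StrongDual ℝ E} (hχ : ∀ v, χ v ≤ ‖v‖) (hc : χ c = 1) :
    χ = ξ := by
  have key : ∀ v, ‖v‖ ≤ ρ → χ v ≤ ξ v := by
    intro v hv
    have h1 := hχ (c + v)
    rw [h.2 v hv, map_add, hc] at h1
    linarith
  have key2 : ∀ v, ‖v‖ ≤ ρ → χ v = ξ v := by
    intro v hv
    apply le_antisymm (key v hv)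
    have := key (-v) (by rwa [norm_neg])
    rw [map_neg, map_neg] at this
    linarith
  ext v
  rcases eq_or_ne v 0 with rfl | hv
  · simp
  have hpos : 0 < ‖v‖ := norm_pos_iff.2 hv
  have h0 : ‖(ρ / ‖v‖) • v‖ ≤ ρ := by
    rw [norm_smul, Real.norm_of_nonneg (div_nonneg h.1.le hpos.le)]
    apply le_of_eq
    field_simp
  have h1 := key2 _ h0
  rw [map_smul, map_smul, smul_eq_mul, smul_eq_mul] at h1
  exact mul_left_cancel₀ (div_pos h.1 hpos).ne' h1

/-- A unit vector cofacial with a flat point lies in its hyperplane. -/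
theorem eq_one_of_cofacial (h : Flat c ξ ρ) {y : E} (hy : ‖y‖ = 1) (hcy : ‖c + y‖ = 2) :
    ξ y = 1 := by
  have h1 := norm_comb_of_norm_add_eq_two h.norm_eq hy hcy zero_le_one h.1.le
  rw [one_smul, h.2 (ρ • y) (by rw [norm_smul, hy, mul_one, Real.norm_of_nonneg h.1.le]), map_smul,
    smul_eq_mul] at h1
  have h3 : ρ * ξ y = ρ * 1 := by linarith
  exact mul_left_cancel₀ h.1.ne' h3

end Flat

end Vale.Agent.P084
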