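import Mathlib
import Vale.Agent.P084.Basic
import Vale.Agent.P084.BallMankiewicz
import Vale.Agent.P084.Flat

/-!
A surjective isometry between unit spheres maps flat points to flat points and is affine near
a flat point.
-/

namespace Vale.Agent.P084

variable {Z Y : Type*} [NormedAddCommGroup Z] [NormedSpace ℝ Z]
  [NormedAddCommGroup Y] [NormedSpace ℝ Y]

/-- Normalising a vector close to a unit vector. -/
theorem normalize_near {E : Type*} [NormedAddCommGroup E] [NormedSpace ℝ E] {e p : E} {δ : ℝ}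
    (he : ‖e‖ = 1) (hp : ‖p - e‖ ≤ δ) (hδ : δ < 1) :
    0 < ‖p‖ ∧ ‖‖p‖⁻¹ • p‖ = 1 ∧ ‖p‖ • (‖p‖⁻¹ • p) = p ∧ ‖‖p‖⁻¹ • p - e‖ ≤ 2 * δ := by
  have h_lo : 1 - δ ≤ ‖p‖ := by
    have h2 : ‖e‖ ≤ ‖e - p‖ + ‖p‖ := by
      calc ‖e‖ = ‖(e - p) + p‖ := by rw [sub_add_cancel]
        _ ≤ ‖e - p‖ + ‖p‖ := norm_add_le _ _
    rw [norm_sub_rev, he] at h2
    linarith
  have h_hi : ‖p‖ ≤ 1 + δ := by
    have h2 : ‖p‖ ≤ ‖p - e‖ + ‖e‖ := by
      calc ‖p‖ = ‖(p - e) + e‖ := by rw [sub_add_cancel]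
        _ ≤ ‖p - e‖ + ‖e‖ := norm_add_le _ _
    rw [he] at h2
    linarith
  have hpos : 0 < ‖p‖ := by linarith
  have hq : ‖‖p‖⁻¹ • p‖ = 1 := by
    rw [norm_smul, norm_inv, norm_norm]
    exact inv_mul_cancel₀ hpos.ne'
  have hpq : ‖p‖ • (‖p‖⁻¹ • p) = p := by
    rw [smul_smul, mul_inv_cancel₀ hpos.ne', one_smul]
  refine ⟨hpos, hq, hpq, ?_⟩
  have hqp : ‖‖p‖⁻¹ • p - p‖ ≤ δ := by
    have h1 : ‖p‖⁻¹ • p - p = (1 - ‖p‖) • (‖p‖⁻¹ • p) := by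
      rw [sub_smul, one_smul, hpq]
    rw [h1, norm_smul, hq, mul_one, Real.norm_eq_abs, abs_le]
    constructor <;> linarith
  calc ‖‖p‖⁻¹ • p - e‖ = ‖(‖p‖⁻¹ • p - p) + (p - e)‖ := by rw [sub_add_sub_cancel]
    _ ≤ ‖‖p‖⁻¹ • p - p‖ + ‖p - e‖ := norm_add_le _ _
    _ ≤ 2 * δ := by linarith

section Transfer

variable (T : Z → Y) (hT1 : ∀ z, ‖z‖ = 1 → ‖T z‖ = 1)
  (hTd : ∀ z w, ‖z‖ = 1 → ‖w‖ = 1 → ‖T z - T w‖ = ‖z - w‖)
  (hTs : ∀ y, ‖y‖ = 1 → ∃ z, ‖z‖ = 1 ∧ T z = y)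
  {c : Z} {ξ : StrongDual ℝ Z} {ρ : ℝ}

include hT1 hTd hTs in
/-- Images of points close to a flat point are cofacial. -/
theorem flat_pair (h : Flat c ξ ρ) {x x' : Z} (hx : ‖x‖ = 1) (hx' : ‖x'‖ = 1)
    (hd : ‖x - c‖ ≤ ρ / 3) (hd' : ‖x' - c‖ ≤ ρ / 3) : ‖T x + T x'‖ = 2 := by
  have hρ := h.pos
  obtain ⟨w, hw, hTw⟩ := hTs (-(T x)) (by rw [norm_neg]; exact hT1 x hx)
  have h1 : ‖x - w‖ = 2 := by
    rw [← hTd x w hx hw, hTw, sub_neg_eq_add, ← two_smul ℝ, norm_smul, hT1 x hx]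
    norm_num
  have hξx : ξ x = 1 := h.eq_one_of_near hx (by linarith)
  have hξx' : ξ x' = 1 := h.eq_one_of_near hx' (by linarith)
  have hx2 : ‖x + (x - x')‖ = 1 := by
    apply h.norm_eq_one_of_near
    · rw [map_add, map_sub, hξx, hξx']; ring
    · have : x + (x - x') - c = (x - c) + (x - c) - (x' - c) := by abel
      rw [this]
      calc ‖(x - c) + (x - c) - (x' - c)‖ ≤ ‖(x - c) + (x - c)‖ + ‖x' - c‖ := norm_sub_le _ _
        _ ≤ (‖x - c‖ + ‖x - c‖) + ‖x' - c‖ := by gcongr; exact norm_add_le _ _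
        _ ≤ ρ := by linarith
  have h2 : ‖x + (x - x') - w‖ ≤ 2 := by
    calc ‖x + (x - x') - w‖ ≤ ‖x + (x - x')‖ + ‖w‖ := norm_sub_le _ _
      _ = 2 := by rw [hx2, hw]; norm_num
  have h3 : ‖x' - w‖ ≤ 2 := by
    calc ‖x' - w‖ ≤ ‖x'‖ + ‖w‖ := norm_sub_le _ _
      _ = 2 := by rw [hx', hw]; norm_num
  have h4 : (2 : ℝ) • (x - w) = (x' - w) + (x + (x - x') - w) := by
    rw [two_smul]; abel
  have h5 : ‖(2 : ℝ) • (x - w)‖ = 4 := by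
    rw [norm_smul, h1]; norm_num
  have h6 := norm_add_le (x' - w) (x + (x - x') - w)
  rw [← h4, h5] at h6
  have h7 : ‖x' - w‖ = 2 := by linarith
  have h8 := hTd x' w hx' hw
  rw [hTw, sub_neg_eq_add, h7] at h8
  rw [add_comm]; exact h8

include hT1 hTd hTs in
/-- A functional norming the image of a flat point is one on the images of nearby points. -/
theorem flat_functional (h : Flat c ξ ρ) (ψ : StrongDual ℝ Y) (hψ : ∀ w, ψ w ≤ ‖w‖)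
    (hψc : ψ (T c) = 1) {x : Z} (hx : ‖x‖ = 1) (hd : ‖x - c‖ ≤ ρ / 6) : ψ (T x) = 1 := by
  have hρ := h.pos
  have hρ1 := h.radius_le_one
  have hc := h.norm_eq
  have he : ‖T c‖ = 1 := hT1 c hc
  have hy : ‖T x‖ = 1 := hT1 x hx
  obtain ⟨p, hp_def⟩ : ∃ p, p = T c + (T c - T x) := ⟨_, rfl⟩
  have hpe : ‖p - T c‖ ≤ ρ / 6 := by
    rw [hp_def, add_sub_cancel_left, hTd c x hc hx, norm_sub_rev]
    exact hd
  obtain ⟨hpos, hq, hpq, hqe⟩ := normalize_near he hpe (by linarith)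
  obtain ⟨x2, hx2, hTx2⟩ := hTs _ hq
  have hx2c : ‖x2 - c‖ ≤ ρ / 3 := by
    rw [← hTd x2 c hx2 hc, hTx2]
    linarith
  have hqy := flat_pair T hT1 hTd hTs h hx2 hx hx2c (by linarith)
  rw [hTx2] at hqy
  have h1 := norm_comb_of_norm_add_eq_two hq hy hqy hpos.le zero_le_one
  rw [hpq, one_smul] at h1
  have h2 : p + T x = (2 : ℝ) • T c := by
    rw [hp_def, two_smul]; abel
  rw [h2, norm_smul, he] at h1
  have hp1 : ‖p‖ = 1 := by
    norm_num at h1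
    linarith
  have h3 := hψ p
  rw [hp1, hp_def, map_add, map_sub, hψc] at h3
  have h4 := hψ (T x)
  rw [hy] at h4
  linarith

include hT1 hTd hTs in
/-- The image of a flat point is a flat point. -/
theorem flat_image (h : Flat c ξ ρ) (ψ : StrongDual ℝ Y) (hψ : ∀ w, ψ w ≤ ‖w‖)
    (hψc : ψ (T c) = 1) : Flat (T c) ψ (ρ / 12) := by
  have hρ := h.pos
  have hρ1 := h.radius_le_one
  have hc := h.norm_eq
  have he : ‖T c‖ = 1 := hT1 c hc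
  refine ⟨by linarith, fun v hv => ?_⟩
  have hpe : ‖(T c + v) - T c‖ ≤ ρ / 12 := by rwa [add_sub_cancel_left]
  obtain ⟨hpos, hq, hpq, hqe⟩ := normalize_near he hpe (by linarith)
  obtain ⟨x, hx, hTx⟩ := hTs _ hq
  have hxc : ‖x - c‖ ≤ ρ / 6 := by
    rw [← hTd x c hx hc, hTx]
    linarith
  have h1 := flat_functional T hT1 hTd hTs h ψ hψ hψc hx hxc
  rw [hTx, map_smul, smul_eq_mul, map_add, hψc] at h1
  have h2 : ‖T c + v‖ * (‖T c + v‖⁻¹ * (1 + ψ v)) = ‖T c + v‖ * 1 := by rw [h1]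
  rw [← mul_assoc, mul_inv_cancel₀ hpos.ne', one_mul, mul_one] at h2
  exact h2.symm

include hT1 hTd hTs in
/-- Near a flat point the isometry is affine. -/
theorem flat_local_linear (h : Flat c ξ ρ) (ψ : StrongDual ℝ Y) (hψ : ∀ w, ψ w ≤ ‖w‖)
    (hψc : ψ (T c) = 1) :
    ∃ D : (LinearMap.ker (ξ : Z →ₗ[ℝ] ℝ)) ≃ₗᵢ[ℝ] (LinearMap.ker (ψ : Y →ₗ[ℝ] ℝ)),
      ∀ k : LinearMap.ker (ξ : Z →ₗ[ℝ] ℝ), ‖k‖ < ρ / 12 → T (c + (k : Z)) = T c + (D k : Y) := by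
  have hρ := h.pos
  have hc := h.norm_eq
  have hflatY := flat_image T hT1 hTd hTs h ψ hψ hψc
  obtain ⟨r, hr_def⟩ : ∃ r, r = ρ / 12 := ⟨_, rfl⟩
  have hr : 0 < r := by rw [hr_def]; linarith
  rw [← hr_def] at hflatY
  have hker : ∀ k : LinearMap.ker (ξ : Z →ₗ[ℝ] ℝ), ξ (k : Z) = 0 := fun k => LinearMap.mem_ker.1 k.2
  -- points of the flat ball
  have hS : ∀ k : LinearMap.ker (ξ : Z →ₗ[ℝ] ℝ), ‖k‖ < 1 → ‖c + r • (k : Z)‖ = 1 := by
    intro k hk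
    have h1 : ‖r • (k : Z)‖ ≤ ρ := by
      rw [norm_smul, Real.norm_of_nonneg hr.le, ← Submodule.coe_norm, hr_def]
      nlinarith [norm_nonneg k]
    rw [h.2 _ h1, map_smul, hker, smul_zero, add_zero]
  have hSd : ∀ k : LinearMap.ker (ξ : Z →ₗ[ℝ] ℝ), ‖k‖ < 1 → ‖c + r • (k : Z) - c‖ ≤ ρ / 6 := by
    intro k hk
    rw [add_sub_cancel_left, norm_smul, Real.norm_of_nonneg hr.le, ← Submodule.coe_norm, hr_def]
    nlinarith [norm_nonneg k]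
  let f : LinearMap.ker (ξ : Z →ₗ[ℝ] ℝ) → LinearMap.ker (ψ : Y →ₗ[ℝ] ℝ) := fun k =>
    ⟨r⁻¹ • ((T (c + r • (k : Z)) - T c) - ψ (T (c + r • (k : Z)) - T c) • T c), by
      rw [LinearMap.mem_ker]
      simp [hψc]⟩
  have hf : ∀ k : LinearMap.ker (ξ : Z →ₗ[ℝ] ℝ), ‖k‖ < 1 →
      ((f k : LinearMap.ker (ψ : Y →ₗ[ℝ] ℝ)) : Y) = r⁻¹ • (T (c + r • (k : Z)) - T c) := by
    intro k hk
    have h1 := flat_functional T hT1 hTd hTs h ψ hψ hψc (hS k hk) (hSd k hk)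
    change r⁻¹ • ((T (c + r • (k : Z)) - T c) - ψ (T (c + r • (k : Z)) - T c) • T c) = _
    rw [map_sub, h1, hψc, sub_self, zero_smul, sub_zero]
  have h0 : f 0 = 0 := by
    apply Subtype.ext
    rw [hf 0 (by simp)]
    simp
  have hiso : ∀ k k', ‖k‖ < 1 → ‖k'‖ < 1 → ‖f k - f k'‖ = ‖k - k'‖ := by
    intro k k' hk hk'
    rw [Submodule.coe_norm, Submodule.coe_sub, hf k hk, hf k' hk', ← smul_sub,
      sub_sub_sub_cancel_right, norm_smul, hTd _ _ (hS k hk) (hS k' hk'), add_sub_add_left_eq_sub,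
      ← smul_sub, norm_smul, ← mul_assoc, norm_inv, inv_mul_cancel₀ (norm_ne_zero_iff.2 hr.ne'),
      one_mul, Submodule.coe_norm, Submodule.coe_sub]
  have hmap : ∀ k, ‖k‖ < 1 → ‖f k‖ < 1 := by
    intro k hk
    have := hiso k 0 hk (by simp)
    rw [h0, sub_zero, sub_zero] at this
    rw [this]; exact hk
  have hsurj : ∀ w, ‖w‖ < 1 → ∃ k, ‖k‖ < 1 ∧ f k = w := by
    intro w hw
    have hw0 : ψ (w : Y) = 0 := LinearMap.mem_ker.1 w.2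
    have hwn : ‖r • (w : Y)‖ = r * ‖w‖ := by
      rw [norm_smul, Real.norm_of_nonneg hr.le, Submodule.coe_norm]
    have h1 : ‖T c + r • (w : Y)‖ = 1 := by
      rw [hflatY.2 _ (by rw [hwn]; nlinarith [norm_nonneg w]), map_smul, hw0, smul_zero, add_zero]
    obtain ⟨x, hx, hTx⟩ := hTs _ h1
    have hxc : ‖x - c‖ = r * ‖w‖ := by
      rw [← hTd x c hx hc, hTx, add_sub_cancel_left, hwn]
    have hξx : ξ x = 1 := h.eq_one_of_near hx (by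
      rw [hxc, hr_def]; nlinarith [norm_nonneg w])
    have hmem : r⁻¹ • (x - c) ∈ LinearMap.ker (ξ : Z →ₗ[ℝ] ℝ) := by
      rw [LinearMap.mem_ker]
      change ξ (r⁻¹ • (x - c)) = 0
      rw [map_smul, map_sub, hξx, h.self_eq, sub_self, smul_zero]
    have hkn : ‖(⟨r⁻¹ • (x - c), hmem⟩ : LinearMap.ker (ξ : Z →ₗ[ℝ] ℝ))‖ < 1 := by
      rw [Submodule.coe_norm]
      change ‖r⁻¹ • (x - c)‖ < 1
      rw [norm_smul, hxc, norm_inv, Real.norm_of_nonneg hr.le, ← mul_assoc, inv_mul_cancel₀ hr.ne',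
        one_mul]
      exact hw
    refine ⟨⟨r⁻¹ • (x - c), hmem⟩, hkn, ?_⟩
    apply Subtype.ext
    rw [hf _ hkn]
    change r⁻¹ • (T (c + r • (r⁻¹ • (x - c))) - T c) = w
    rw [smul_smul, mul_inv_cancel₀ hr.ne', one_smul, add_sub_cancel, hTx, add_sub_cancel_left,
      smul_smul, inv_mul_cancel₀ hr.ne', one_smul]
  obtain ⟨D, hD⟩ := ball_mankiewicz f h0 hmap hiso hsurj
  refine ⟨D, fun k hk => ?_⟩
  have hk1 : ‖r⁻¹ • k‖ < 1 := by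
    rw [norm_smul, norm_inv, Real.norm_of_nonneg hr.le, inv_mul_lt_iff₀ hr, mul_one, hr_def]
    exact hk
  have h1 := hD (r⁻¹ • k) hk1
  have h2 := hf (r⁻¹ • k) hk1
  rw [← h1, map_smul, Submodule.coe_smul, Submodule.coe_smul, smul_smul, mul_inv_cancel₀ hr.ne',
    one_smul] at h2
  have h3 : r • (r⁻¹ • (D k : Y)) = r • (r⁻¹ • (T (c + (k : Z)) - T c)) := by rw [h2]
  rw [smul_smul, smul_smul, mul_inv_cancel₀ hr.ne', one_smul, one_smul] at h3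
  rw [h3]; abel

end Transfer

end Vale.Agent.P084
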