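import Mathlib
import Vale.Agent.P084.Basic

/-!
The Mazur-Ulam property of the `ℓ¹`-sum `X ⊕₁ ℝ`: first part.
A map on the unit sphere of `X ⊕₁ ℝ` is written as a function `T : X → ℝ → Y` of the pairs
`(w, t)` with `‖w‖ + |t| = 1`.
-/

namespace Vale.Agent.P084.LSum

open Vale.Agent.P084

variable {X Y : Type*} [NormedAddCommGroup X] [NormedSpace ℝ X]
  [NormedAddCommGroup Y] [NormedSpace ℝ Y]

/-- The image of the south pole is the antipode of the image of the north pole. -/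
theorem pole_antipode (T : X → ℝ → Y)
    (hT1 : ∀ w t, ‖w‖ + |t| = 1 → ‖T w t‖ = 1)
    (hTd : ∀ w t w' t', ‖w‖ + |t| = 1 → ‖w'‖ + |t'| = 1 →
      ‖T w t - T w' t'‖ = ‖w - w'‖ + |t - t'|)
    (hTs : ∀ y, ‖y‖ = 1 → ∃ w t, ‖w‖ + |t| = 1 ∧ T w t = y) :
    T 0 (-1) = -(T 0 1) := by
  have hN : ‖(0 : X)‖ + |(1 : ℝ)| = 1 := by simp
  have hS : ‖(0 : X)‖ + |(-1 : ℝ)| = 1 := by simp
  by_contra hne
  obtain ⟨e, he_def⟩ : ∃ e, e = T 0 1 := ⟨_, rfl⟩
  obtain ⟨u, hu_def⟩ : ∃ u, u = -(T 0 (-1)) := ⟨_, rfl⟩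
  have hsouth : T 0 (-1) = -u := by rw [hu_def, neg_neg]
  have he : ‖e‖ = 1 := by rw [he_def]; exact hT1 _ _ hN
  have hu : ‖u‖ = 1 := by rw [hu_def, norm_neg]; exact hT1 _ _ hS
  have hue : e - u ≠ 0 := by
    intro h
    apply hne
    rw [hsouth, ← he_def, sub_eq_zero.1 h]
  have hD : 0 < ‖e - u‖ := norm_pos_iff.2 hue
  have hD2 : ‖e - u‖ ≤ 2 := by
    calc ‖e - u‖ ≤ ‖e‖ + ‖u‖ := norm_sub_le _ _
      _ = 2 := by rw [he, hu]; norm_num
  obtain ⟨D, hD_def⟩ : ∃ D, D = ‖e - u‖ := ⟨_, rfl⟩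
  rw [← hD_def] at hD hD2
  obtain ⟨p, hp_def⟩ : ∃ p, p = e + (1 / 4 : ℝ) • (e - u) := ⟨_, rfl⟩
  have hpe : ‖p - e‖ = D / 4 := by
    rw [hp_def, add_sub_cancel_left, norm_smul, Real.norm_of_nonneg (by norm_num), ← hD_def]
    ring
  have hp_lo : 1 / 2 ≤ ‖p‖ := by
    have h2 : ‖e‖ ≤ ‖e - p‖ + ‖p‖ := by
      calc ‖e‖ = ‖(e - p) + p‖ := by rw [sub_add_cancel]
        _ ≤ ‖e - p‖ + ‖p‖ := norm_add_le _ _
    rw [norm_sub_rev, he, hpe] at h2
    linarith
  have hp_hi : ‖p‖ ≤ 3 / 2 := by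
    have h2 : ‖p‖ ≤ ‖p - e‖ + ‖e‖ := by
      calc ‖p‖ = ‖(p - e) + e‖ := by rw [sub_add_cancel]
        _ ≤ ‖p - e‖ + ‖e‖ := norm_add_le _ _
    rw [he, hpe] at h2
    linarith
  have hp_pos : 0 < ‖p‖ := by linarith
  obtain ⟨y, hy_def⟩ : ∃ y, y = ‖p‖⁻¹ • p := ⟨_, rfl⟩
  have hy : ‖y‖ = 1 := by
    rw [hy_def, norm_smul, norm_inv, norm_norm]
    exact inv_mul_cancel₀ hp_pos.ne'
  have hpy : ‖p‖ • y = p := by
    rw [hy_def, smul_smul, mul_inv_cancel₀ hp_pos.ne', one_smul]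
  have hyp : ‖y - p‖ ≤ 1 / 2 := by
    have h1 : y - p = (1 - ‖p‖) • y := by
      rw [sub_smul, one_smul, hpy]
    rw [h1, norm_smul, hy, mul_one, Real.norm_eq_abs, abs_le]
    constructor <;> linarith
  have hye : ‖y - e‖ ≤ 1 := by
    calc ‖y - e‖ = ‖(y - p) + (p - e)‖ := by rw [sub_add_sub_cancel]
      _ ≤ ‖y - p‖ + ‖p - e‖ := norm_add_le _ _
      _ ≤ 1 := by rw [hpe]; linarith
  -- a general fact: points closer than two to `e` are at distance two from the south pole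
  have hfar : ∀ w t, ‖w‖ + |t| = 1 → ‖T w t - e‖ < 2 → 0 < t ∧ ‖T w t + u‖ = 2 := by
    intro w t hwt hlt
    have h1 := hTd w t 0 1 hwt hN
    rw [← he_def, sub_zero] at h1
    have ht : 0 < t := by
      by_contra hneg
      have hneg' : t ≤ 0 := not_lt.1 hneg
      rw [abs_of_nonpos (by linarith : t - 1 ≤ 0)] at h1
      rw [abs_of_nonpos hneg'] at hwt
      linarith
    refine ⟨ht, ?_⟩
    have h2 := hTd w t 0 (-1) hwt hS
    rw [hsouth, sub_neg_eq_add, sub_zero, sub_neg_eq_add, abs_of_pos (by linarith : 0 < t + 1)] at h2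
    rw [abs_of_pos ht] at hwt
    linarith
  obtain ⟨w, t, hwt, hTy⟩ := hTs y hy
  obtain ⟨-, hyu⟩ := hfar w t hwt (by rw [hTy]; linarith)
  rw [hTy] at hyu
  have h1 := norm_comb_of_norm_add_eq_two hy hu hyu hp_pos.le (by norm_num : (0 : ℝ) ≤ 1 / 4)
  have h2 : ‖p‖ • y + (1 / 4 : ℝ) • u = (5 / 4 : ℝ) • e := by
    rw [hpy, hp_def, smul_sub]
    have : (5 / 4 : ℝ) • e = e + (1 / 4 : ℝ) • e := by
      rw [show (5 / 4 : ℝ) = 1 + 1 / 4 by norm_num, add_smul, one_smul]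
    rw [this]; abel
  rw [h2, norm_smul, he, Real.norm_of_nonneg (by norm_num)] at h1
  have hp1 : ‖p‖ = 1 := by linarith
  -- now `p` itself is on the sphere
  obtain ⟨w1, t1, hwt1, hTp⟩ := hTs p hp1
  obtain ⟨ht1, -⟩ := hfar w1 t1 hwt1 (by rw [hTp, hpe]; linarith)
  have a1 := hTd w1 t1 0 1 hwt1 hN
  rw [hTp, ← he_def, hpe, sub_zero] at a1
  obtain ⟨w2, t2, hwt2, hTu⟩ := hTs u hu
  have a2 := hTd w2 t2 0 (-1) hwt2 hS
  rw [hTu, hsouth, sub_neg_eq_add, sub_zero, sub_neg_eq_add, ← two_smul ℝ u, norm_smul, hu] at a2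
  have ht2 : 0 ≤ t2 := by
    by_contra hneg
    have hneg' : t2 < 0 := not_le.1 hneg
    have hb : |t2| ≤ 1 := by linarith [norm_nonneg w2]
    have hb' := abs_le.1 hb
    rw [abs_of_nonneg (by linarith : 0 ≤ t2 + 1)] at a2
    rw [abs_of_neg hneg'] at hwt2
    norm_num at a2
    linarith
  have a3 := hTd w2 t2 0 1 hwt2 hN
  rw [hTu, ← he_def, norm_sub_rev, ← hD_def, sub_zero] at a3
  have a4 := hTd w1 t1 w2 t2 hwt1 hwt2
  have hpu : p - u = (5 / 4 : ℝ) • (e - u) := by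
    rw [hp_def]
    have : (5 / 4 : ℝ) • (e - u) = (e - u) + (1 / 4 : ℝ) • (e - u) := by
      rw [show (5 / 4 : ℝ) = 1 + 1 / 4 by norm_num, add_smul, one_smul]
    rw [this]; abel
  rw [hTp, hTu, hpu, norm_smul, ← hD_def, Real.norm_of_nonneg (by norm_num)] at a4
  rw [abs_of_pos ht1] at hwt1
  rw [abs_of_nonneg ht2] at hwt2
  have hb1 : t1 ≤ 1 := by linarith [norm_nonneg w1]
  have hb2 : t2 ≤ 1 := by linarith [norm_nonneg w2]
  rw [abs_of_nonpos (by linarith : t1 - 1 ≤ 0)] at a1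
  rw [abs_of_nonpos (by linarith : t2 - 1 ≤ 0)] at a3
  have hw1 : ‖w1‖ = D / 8 := by linarith
  have hw2 : ‖w2‖ = D / 2 := by linarith
  have a5 : ‖w1 - w2‖ ≤ D / 8 + D / 2 := by
    calc ‖w1 - w2‖ ≤ ‖w1‖ + ‖w2‖ := norm_sub_le _ _
      _ = D / 8 + D / 2 := by rw [hw1, hw2]
  have a6 : |t1 - t2| = 3 * D / 8 := by
    have : t1 - t2 = 3 * D / 8 := by linarith
    rw [this, abs_of_nonneg (by positivity)]
  rw [a6] at a4
  linarith

section Pole

variable (T : X → ℝ → Y) (e : Y)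
  (hT1 : ∀ w t, ‖w‖ + |t| = 1 → ‖T w t‖ = 1)
  (hTd : ∀ w t w' t', ‖w‖ + |t| = 1 → ‖w'‖ + |t'| = 1 →
      ‖T w t - T w' t'‖ = ‖w - w'‖ + |t - t'|)
  (hTs : ∀ y, ‖y‖ = 1 → ∃ w t, ‖w‖ + |t| = 1 ∧ T w t = y)
  (he1 : T 0 1 = e) (he2 : T 0 (-1) = -e)

include hTd he1 in
theorem dist_pole_sub (w : X) (t : ℝ) (h : ‖w‖ + |t| = 1) : ‖T w t - e‖ = ‖w‖ + |t - 1| := by
  have := hTd w t 0 1 h (by simp)
  rwa [he1, sub_zero] at this

include hTd he2 in
theorem dist_pole_add (w : X) (t : ℝ) (h : ‖w‖ + |t| = 1) : ‖T w t + e‖ = ‖w‖ + |t + 1| := by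
  have := hTd w t 0 (-1) h (by simp)
  rwa [he2, sub_zero, sub_neg_eq_add, sub_neg_eq_add] at this

include hT1 he1 in
theorem norm_pole : ‖e‖ = 1 := by
  rw [← he1]; exact hT1 _ _ (by simp)

include hT1 hTd he1 he2 in
/-- The far formulas in the upper hemisphere. -/
theorem far_nonneg (w : X) (t : ℝ) (h : ‖w‖ + |t| = 1) (ht : 0 ≤ t) (l : ℝ) (hl : 1 ≤ l) :
    ‖T w t + l • e‖ = l + ‖w‖ + t ∧ ‖T w t - l • e‖ = l + ‖w‖ - t := by
  have he : ‖e‖ = 1 := norm_pole T e hT1 he1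
  have hy : ‖T w t‖ = 1 := hT1 w t h
  have h' : ‖w‖ + t = 1 := by rwa [abs_of_nonneg ht] at h
  constructor
  · have h1 := dist_pole_add T e hTd he2 w t h
    rw [abs_of_nonneg (by linarith)] at h1
    have h2 := norm_comb_of_norm_add_eq_two hy he (by linarith) (zero_le_one) (by linarith : 0 ≤ l)
    rw [one_smul] at h2
    rw [h2]; linarith
  · apply le_antisymm
    · have h1 := dist_pole_sub T e hTd he1 w t h
      have ht1 : t ≤ 1 := by linarith [norm_nonneg w]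
      rw [abs_of_nonpos (by linarith)] at h1
      have h2 : T w t - l • e = (T w t - e) - (l - 1) • e := by
        rw [sub_smul, one_smul]; abel
      rw [h2]
      calc ‖(T w t - e) - (l - 1) • e‖ ≤ ‖T w t - e‖ + ‖(l - 1) • e‖ := norm_sub_le _ _
        _ = l + ‖w‖ - t := by
            rw [h1, norm_smul, he, Real.norm_of_nonneg (by linarith)]; ring
    · rcases eq_or_ne w 0 with hw | hw
      · subst hw
        rw [norm_zero, zero_add] at h'
        subst h'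
        rw [he1]
        have : e - l • e = (1 - l) • e := by rw [sub_smul, one_smul]
        rw [this, norm_smul, he, norm_zero, Real.norm_eq_abs, abs_of_nonpos (by linarith)]
        linarith
      · have hwpos : 0 < ‖w‖ := norm_pos_iff.2 hw
        obtain ⟨g, hg_def⟩ : ∃ g, g = ‖w‖⁻¹ • w := ⟨_, rfl⟩
        have hg : ‖g‖ = 1 := by
          rw [hg_def, norm_smul, norm_inv, norm_norm]
          exact inv_mul_cancel₀ hwpos.ne'
        have hg0 : ‖g‖ + |(0 : ℝ)| = 1 := by rw [hg]; simp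
        have hq : ‖T g 0‖ = 1 := hT1 g 0 hg0
        have h1 := dist_pole_sub T e hTd he1 g 0 hg0
        rw [hg] at h1
        have h1' : ‖T g 0 + -e‖ = 2 := by
          rw [← sub_eq_add_neg, h1]; norm_num
        have h2 := norm_comb_of_norm_add_eq_two hq (by rw [norm_neg, he]) h1' (zero_le_one)
          (by linarith : 0 ≤ l)
        rw [one_smul, smul_neg, ← sub_eq_add_neg] at h2
        have h3 := hTd w t g 0 h hg0
        have hwg : ‖w - g‖ = 1 - ‖w‖ := by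
          have : w - g = -((1 - ‖w‖) • g) := by
            rw [sub_smul, one_smul, hg_def, smul_smul, mul_inv_cancel₀ hwpos.ne', one_smul]; abel
          rw [this, norm_neg, norm_smul, hg, mul_one, Real.norm_of_nonneg (by linarith)]
        rw [hwg, sub_zero, abs_of_nonneg ht] at h3
        have h4 : ‖T g 0 - l • e‖ ≤ ‖T w t - l • e‖ + ‖T w t - T g 0‖ := by
          calc ‖T g 0 - l • e‖ = ‖(T w t - l • e) - (T w t - T g 0)‖ := by congr 1; abel
            _ ≤ ‖T w t - l • e‖ + ‖T w t - T g 0‖ := norm_sub_le _ _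
        rw [h2, h3] at h4
        linarith

include hT1 hTd he1 he2 in
/-- The far formulas. -/
theorem far (w : X) (t : ℝ) (h : ‖w‖ + |t| = 1) (l : ℝ) (hl : 1 ≤ l) :
    ‖T w t + l • e‖ = l + ‖w‖ + t ∧ ‖T w t - l • e‖ = l + ‖w‖ - t := by
  rcases le_total 0 t with ht | ht
  · exact far_nonneg T e hT1 hTd he1 he2 w t h ht l hl
  · have key := far_nonneg (fun w t => T w (-t)) (-e)
      (fun w t h => hT1 w (-t) (by rwa [abs_neg]))
      (fun w t w' t' h h' => by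
        have := hTd w (-t) w' (-t') (by rwa [abs_neg]) (by rwa [abs_neg])
        rw [this]
        congr 1
        rw [show -t - -t' = -(t - t') by ring, abs_neg])
      (by simpa using he2) (by simpa using he1) w (-t) (by rwa [abs_neg]) (by linarith) l hl
    simp only [neg_neg, smul_neg, sub_neg_eq_add, ← sub_eq_add_neg] at key
    exact ⟨by linarith [key.2], by linarith [key.1]⟩

include hT1 hTd hTs he1 he2 in
/-- The horizontal part of `T w t` has the norm of `w`. -/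
theorem norm_horizontal (w : X) (t : ℝ) (h : ‖w‖ + |t| = 1) : ‖T w t - t • e‖ = ‖w‖ := by
  have he : ‖e‖ = 1 := norm_pole T e hT1 he1
  have htabs : |t| ≤ 1 := by linarith [norm_nonneg w]
  have ht := abs_le.1 htabs
  obtain ⟨c, hc_def⟩ : ∃ c, c = T w t - t • e := ⟨_, rfl⟩
  rw [← hc_def]
  have hTc : ∀ s : ℝ, c + s • e = T w t + (s - t) • e := by
    intro s; rw [hc_def, sub_smul]; abel
  have hTc' : ∀ s : ℝ, c - s • e = T w t - (s + t) • e := by
    intro s; rw [hc_def, add_smul]; abel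
  have hlow : ‖w‖ ≤ ‖c‖ := by
    have h1 := (far T e hT1 hTd he1 he2 w t h 1 le_rfl).1
    have h2 : T w t + (1 : ℝ) • e = c + (1 + t) • e := by
      rw [hTc]; congr 2; ring
    rw [h2] at h1
    have h3 : ‖c + (1 + t) • e‖ ≤ ‖c‖ + (1 + t) := by
      calc ‖c + (1 + t) • e‖ ≤ ‖c‖ + ‖(1 + t) • e‖ := norm_add_le _ _
        _ = ‖c‖ + (1 + t) := by rw [norm_smul, he, Real.norm_of_nonneg (by linarith), mul_one]
    linarith
  rcases (norm_nonneg c).eq_or_lt with h0 | hpos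
  · linarith [norm_nonneg w]
  obtain ⟨n, hn_def⟩ : ∃ n, n = ‖c‖ := ⟨_, rfl⟩
  rw [← hn_def] at hpos hlow ⊢
  obtain ⟨d, hd_def⟩ : ∃ d, d = n⁻¹ • c := ⟨_, rfl⟩
  have hd : ‖d‖ = 1 := by
    rw [hd_def, norm_smul, norm_inv, Real.norm_of_nonneg hpos.le, ← hn_def]
    exact inv_mul_cancel₀ hpos.ne'
  obtain ⟨w2, t2, hwt2, hTd2⟩ := hTs d hd
  obtain ⟨s, hs_def⟩ : ∃ s, s = 1 + 2 / n := ⟨_, rfl⟩
  have hs1 : 1 ≤ s := by rw [hs_def]; have : 0 < 2 / n := by positivity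
                         linarith
  have hns : n * s = n + 2 := by rw [hs_def]; field_simp
  have f1 := far T e hT1 hTd he1 he2 w2 t2 hwt2 s hs1
  rw [hTd2] at f1
  have f2 := far T e hT1 hTd he1 he2 w t h (n * s - t) (by rw [hns]; linarith)
  have f3 := far T e hT1 hTd he1 he2 w t h (n * s + t) (by rw [hns]; linarith)
  have g1 : d + s • e = n⁻¹ • (T w t + (n * s - t) • e) := by
    rw [← hTc, smul_add, smul_smul, ← mul_assoc, inv_mul_cancel₀ hpos.ne', one_mul, hd_def]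
  have g2 : d - s • e = n⁻¹ • (T w t - (n * s + t) • e) := by
    rw [← hTc', smul_sub, smul_smul, ← mul_assoc, inv_mul_cancel₀ hpos.ne', one_mul, hd_def]
  have k1 := f1.1
  rw [g1, norm_smul, f2.1, norm_inv, Real.norm_of_nonneg hpos.le] at k1
  have k2 := f1.2
  rw [g2, norm_smul, f3.2, norm_inv, Real.norm_of_nonneg hpos.le] at k2
  have k1' : n * s + ‖w‖ = n * (s + ‖w2‖ + t2) := by
    have : n * (n⁻¹ * (n * s - t + ‖w‖ + t)) = n * (s + ‖w2‖ + t2) := by rw [k1]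
    rw [← mul_assoc, mul_inv_cancel₀ hpos.ne', one_mul] at this
    linarith
  have k2' : n * s + ‖w‖ = n * (s + ‖w2‖ - t2) := by
    have : n * (n⁻¹ * (n * s + t + ‖w‖ - t)) = n * (s + ‖w2‖ - t2) := by rw [k2]
    rw [← mul_assoc, mul_inv_cancel₀ hpos.ne', one_mul] at this
    linarith
  have ht2 : t2 = 0 := by
    have : n * (2 * t2) = 0 := by linarith
    rcases mul_eq_zero.1 this with h5 | h5
    · exact absurd h5 hpos.ne'
    · linarith
  rw [ht2, abs_zero, add_zero] at hwt2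
  rw [ht2, hwt2] at k1'
  linarith

include hT1 hTd hTs he1 he2 in
/-- The norm along the vertical line through `T w t`. -/
theorem norm_line (w : X) (t : ℝ) (h : ‖w‖ + |t| = 1) (m : ℝ) :
    ‖T w t + m • e‖ = ‖w‖ + |t + m| := by
  have he : ‖e‖ = 1 := norm_pole T e hT1 he1
  have hh := norm_horizontal T e hT1 hTd hTs he1 he2 w t h
  apply le_antisymm
  · have h1 : T w t + m • e = (T w t - t • e) + (t + m) • e := by
      rw [add_smul]; abel
    rw [h1]
    calc ‖(T w t - t • e) + (t + m) • e‖ ≤ ‖T w t - t • e‖ + ‖(t + m) • e‖ := norm_add_le _ _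
      _ = ‖w‖ + |t + m| := by rw [hh, norm_smul, he, mul_one, Real.norm_eq_abs]
  · obtain ⟨l, hl_def⟩ : ∃ l, l = 1 + |m| := ⟨_, rfl⟩
    have hl1 : 1 ≤ l := by rw [hl_def]; linarith [abs_nonneg m]
    have hlm : m ≤ l := by rw [hl_def]; linarith [le_abs_self m]
    have hlm' : -m ≤ l := by rw [hl_def]; linarith [neg_abs_le m]
    have f := far T e hT1 hTd he1 he2 w t h l hl1
    rcases le_total 0 (t + m) with hs | hs
    · rw [abs_of_nonneg hs]
      have h1 : T w t + l • e = (T w t + m • e) + (l - m) • e := by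
        rw [sub_smul]; abel
      have h2 : ‖T w t + l • e‖ ≤ ‖T w t + m • e‖ + (l - m) := by
        rw [h1]
        calc ‖(T w t + m • e) + (l - m) • e‖ ≤ ‖T w t + m • e‖ + ‖(l - m) • e‖ := norm_add_le _ _
          _ = ‖T w t + m • e‖ + (l - m) := by
              rw [norm_smul, he, mul_one, Real.norm_of_nonneg (by linarith)]
      rw [f.1] at h2
      linarith
    · rw [abs_of_nonpos hs]
      have h1 : T w t - l • e = (T w t + m • e) - (l + m) • e := by
        rw [add_smul]; abel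
      have h2 : ‖T w t - l • e‖ ≤ ‖T w t + m • e‖ + (l + m) := by
        rw [h1]
        calc ‖(T w t + m • e) - (l + m) • e‖ ≤ ‖T w t + m • e‖ + ‖(l + m) • e‖ := norm_sub_le _ _
          _ = ‖T w t + m • e‖ + (l + m) := by
              rw [norm_smul, he, mul_one, Real.norm_of_nonneg (by linarith)]
      rw [f.2] at h2
      linarith

end Pole

end Vale.Agent.P084.LSum
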