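import Mathlib
import Vale.Agent.P084.LSumA
import Vale.Agent.P084.BallMankiewicz

/-!
The Mazur-Ulam property of the `ℓ¹`-sum `X ⊕₁ ℝ`: second part.
The horizontal vectors of the target space form a subspace.
-/

namespace Vale.Agent.P084.LSum

open Vale.Agent.P084

variable {X Y : Type*} [NormedAddCommGroup X] [NormedSpace ℝ X]
  [NormedAddCommGroup Y] [NormedSpace ℝ Y]

/-- Horizontal vectors with respect to `e`. -/
def Hor (e : Y) (c : Y) : Prop := ∀ η : ℝ, ‖c + η • e‖ = ‖c‖ + |η|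

theorem Hor.zero {e : Y} (he : ‖e‖ = 1) : Hor e 0 := by
  intro η
  rw [zero_add, norm_smul, he, mul_one, norm_zero, zero_add, Real.norm_eq_abs]

theorem Hor.smul {e c : Y} (he : ‖e‖ = 1) (hc : Hor e c) (a : ℝ) : Hor e (a • c) := by
  rcases eq_or_ne a 0 with rfl | ha
  · rw [zero_smul]; exact Hor.zero he
  · intro η
    have h1 : a • c + η • e = a • (c + (η / a) • e) := by
      rw [smul_add, smul_smul, mul_div_cancel₀ _ ha]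
    rw [h1, norm_smul, hc, norm_smul, mul_add, Real.norm_eq_abs, ← abs_mul, mul_div_cancel₀ _ ha]

theorem Hor.unique {e c c' : Y} (hc : Hor e c) (hc' : Hor e c') (δ : ℝ) (h : c = c' + δ • e) :
    δ = 0 := by
  have h1 : ‖c‖ = ‖c'‖ + |δ| := by rw [h, hc']
  have h2 : ‖c'‖ = ‖c‖ + |δ| := by
    have h3 : c' = c + (-δ) • e := by rw [h, neg_smul]; abel
    have h4 := hc (-δ)
    rw [← h3, abs_neg] at h4
    exact h4
  have := abs_nonneg δ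
  exact abs_eq_zero.1 (by linarith)

section Pole

variable (T : X → ℝ → Y) (e : Y)
  (hT1 : ∀ w t, ‖w‖ + |t| = 1 → ‖T w t‖ = 1)
  (hTd : ∀ w t w' t', ‖w‖ + |t| = 1 → ‖w'‖ + |t'| = 1 →
      ‖T w t - T w' t'‖ = ‖w - w'‖ + |t - t'|)
  (hTs : ∀ y, ‖y‖ = 1 → ∃ w t, ‖w‖ + |t| = 1 ∧ T w t = y)
  (he1 : T 0 1 = e) (he2 : T 0 (-1) = -e)

include hT1 hTd hTs he1 he2 in
theorem hor_part (w : X) (t : ℝ) (h : ‖w‖ + |t| = 1) :
    Hor e (T w t - t • e) ∧ ‖T w t - t • e‖ = ‖w‖ := by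
  have hh := norm_horizontal T e hT1 hTd hTs he1 he2 w t h
  refine ⟨?_, hh⟩
  intro η
  have h1 : T w t - t • e + η • e = T w t + (η - t) • e := by
    rw [sub_smul]; abel
  rw [h1, norm_line T e hT1 hTd hTs he1 he2 w t h, hh]
  congr 2
  ring

include hT1 hTd hTs he1 he2 in
theorem exists_decomp (v : Y) : ∃ (c : Y) (σ : ℝ), Hor e c ∧ v = c + σ • e := by
  have he : ‖e‖ = 1 := norm_pole T e hT1 he1
  rcases eq_or_ne v 0 with rfl | hv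
  · exact ⟨0, 0, Hor.zero he, by simp⟩
  · have hpos : 0 < ‖v‖ := norm_pos_iff.2 hv
    have h1 : ‖‖v‖⁻¹ • v‖ = 1 := by
      rw [norm_smul, norm_inv, norm_norm]
      exact inv_mul_cancel₀ hpos.ne'
    obtain ⟨w, t, hwt, hT⟩ := hTs _ h1
    have hp := (hor_part T e hT1 hTd hTs he1 he2 w t hwt).1
    refine ⟨‖v‖ • (T w t - t • e), ‖v‖ * t, hp.smul he _, ?_⟩
    rw [hT, smul_sub, smul_smul, smul_smul, mul_inv_cancel₀ hpos.ne', one_smul]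
    abel

include hT1 hTd hTs he1 he2 in
theorem exists_rep (c : Y) (hc : Hor e c) (τ : ℝ) (h : ‖c‖ + |τ| = 1) :
    ∃ w, ‖w‖ = ‖c‖ ∧ T w τ = c + τ • e := by
  have h1 : ‖c + τ • e‖ = 1 := by rw [hc, h]
  obtain ⟨w, t, hwt, hT⟩ := hTs _ h1
  obtain ⟨hp, hn⟩ := hor_part T e hT1 hTd hTs he1 he2 w t hwt
  have h2 : T w t - t • e = c + (τ - t) • e := by
    rw [hT, sub_smul]; abel
  have h3 := Hor.unique hp hc _ h2
  have h4 : τ = t := by linarith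
  subst h4
  refine ⟨w, ?_, hT⟩
  rw [← hn, hT, add_sub_cancel_right]

include hTd in
theorem rep_dist (c₁ c₂ c₃ : Y) (σ : ℝ) (hc₃ : Hor e c₃)
    (h : c₁ - c₂ = c₃ + σ • e) (hsmall : ‖c₁‖ + ‖c₂‖ ≤ 1) (w₁ w₂ : X)
    (hw₁ : ‖w₁‖ = ‖c₁‖) (h₁ : T w₁ (1 - ‖c₁‖) = c₁ + (1 - ‖c₁‖) • e)
    (hw₂ : ‖w₂‖ = ‖c₂‖) (h₂ : T w₂ (-(1 - ‖c₂‖)) = c₂ + (-(1 - ‖c₂‖)) • e) :
    ‖w₁ - w₂‖ = ‖c₃‖ + σ := by
  have n1 := norm_nonneg c₁
  have n2 := norm_nonneg c₂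
  have a1 : ‖w₁‖ + |1 - ‖c₁‖| = 1 := by
    rw [hw₁, abs_of_nonneg (by linarith)]; ring
  have a2 : ‖w₂‖ + |-(1 - ‖c₂‖)| = 1 := by
    rw [hw₂, abs_neg, abs_of_nonneg (by linarith)]; ring
  have hd := hTd _ _ _ _ a1 a2
  have h3 : c₁ + (1 - ‖c₁‖) • e - (c₂ + (-(1 - ‖c₂‖)) • e)
      = c₃ + (σ + (2 - ‖c₁‖ - ‖c₂‖)) • e := by
    have : c₁ + (1 - ‖c₁‖) • e - (c₂ + (-(1 - ‖c₂‖)) • e)
        = (c₁ - c₂) + ((1 - ‖c₁‖) • e + (1 - ‖c₂‖) • e) := by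
      rw [neg_smul]; abel
    rw [this, h, ← add_smul, add_assoc, ← add_smul]
    congr 2
    ring
  have hσ : |σ| ≤ ‖c₁‖ + ‖c₂‖ := by
    have h4 : ‖c₁ - c₂‖ = ‖c₃‖ + |σ| := by rw [h, hc₃]
    have h5 := norm_sub_le c₁ c₂
    linarith [norm_nonneg c₃]
  have hσ' := abs_le.1 hσ
  rw [h₁, h₂, h3, hc₃, abs_of_nonneg (by linarith)] at hd
  rw [show 1 - ‖c₁‖ - -(1 - ‖c₂‖) = 2 - ‖c₁‖ - ‖c₂‖ by ring, abs_of_nonneg (by linarith)] at hd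
  linarith

include hT1 hTd hTs he1 he2 in
theorem hor_sub_small (c₁ c₂ : Y) (hc₁ : Hor e c₁) (hc₂ : Hor e c₂)
    (h1 : ‖c₁‖ ≤ 1 / 2) (h2 : ‖c₂‖ ≤ 1 / 2) : Hor e (c₁ - c₂) := by
  have he : ‖e‖ = 1 := norm_pole T e hT1 he1
  have n1 := norm_nonneg c₁
  have n2 := norm_nonneg c₂
  obtain ⟨c₃, σ, hc₃, hdec⟩ := exists_decomp T e hT1 hTd hTs he1 he2 (c₁ - c₂)
  obtain ⟨u₁, hu₁, hU₁⟩ := exists_rep T e hT1 hTd hTs he1 he2 c₁ hc₁ (1 - ‖c₁‖)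
    (by rw [abs_of_nonneg (by linarith)]; ring)
  obtain ⟨l₁, hl₁, hL₁⟩ := exists_rep T e hT1 hTd hTs he1 he2 c₁ hc₁ (-(1 - ‖c₁‖))
    (by rw [abs_neg, abs_of_nonneg (by linarith)]; ring)
  obtain ⟨u₂, hu₂, hU₂⟩ := exists_rep T e hT1 hTd hTs he1 he2 c₂ hc₂ (1 - ‖c₂‖)
    (by rw [abs_of_nonneg (by linarith)]; ring)
  obtain ⟨l₂, hl₂, hL₂⟩ := exists_rep T e hT1 hTd hTs he1 he2 c₂ hc₂ (-(1 - ‖c₂‖))
    (by rw [abs_neg, abs_of_nonneg (by linarith)]; ring)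
  have e1 : u₁ = l₁ := by
    have := rep_dist T e hTd c₁ c₁ 0 0 (Hor.zero he) (by simp) (by linarith) u₁ l₁ hu₁ hU₁ hl₁ hL₁
    rw [norm_zero, add_zero] at this
    exact sub_eq_zero.1 (norm_eq_zero.1 this)
  have e2 : u₂ = l₂ := by
    have := rep_dist T e hTd c₂ c₂ 0 0 (Hor.zero he) (by simp) (by linarith) u₂ l₂ hu₂ hU₂ hl₂ hL₂
    rw [norm_zero, add_zero] at this
    exact sub_eq_zero.1 (norm_eq_zero.1 this)
  have d1 := rep_dist T e hTd c₁ c₂ c₃ σ hc₃ hdec (by linarith) u₁ l₂ hu₁ hU₁ hl₂ hL₂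
  have hneg : Hor e (-c₃) := by
    have := hc₃.smul he (-1)
    rwa [neg_one_smul] at this
  have d2 := rep_dist T e hTd c₂ c₁ (-c₃) (-σ) hneg
    (by rw [← neg_sub, hdec, neg_smul]; abel) (by linarith) u₂ l₁ hu₂ hU₂ hl₁ hL₁
  rw [← e1, norm_neg, norm_sub_rev] at d2
  rw [← e2] at d1
  have hσ : σ = 0 := by linarith
  rw [hdec, hσ, zero_smul, add_zero]
  exact hc₃

include hT1 hTd hTs he1 he2 in
theorem hor_sub (c₁ c₂ : Y) (hc₁ : Hor e c₁) (hc₂ : Hor e c₂) : Hor e (c₁ - c₂) := by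
  have he : ‖e‖ = 1 := norm_pole T e hT1 he1
  obtain ⟨a, ha_def⟩ : ∃ a, a = (2 * (1 + ‖c₁‖ + ‖c₂‖))⁻¹ := ⟨_, rfl⟩
  have n1 := norm_nonneg c₁
  have n2 := norm_nonneg c₂
  have hpos : 0 < 2 * (1 + ‖c₁‖ + ‖c₂‖) := by linarith
  have ha : 0 < a := by rw [ha_def]; exact inv_pos.2 hpos
  have hb : ∀ r : ℝ, 0 ≤ r → r ≤ 1 + ‖c₁‖ + ‖c₂‖ → a * r ≤ 1 / 2 := by
    intro r _ hr
    rw [ha_def, inv_mul_le_iff₀ hpos]
    linarith
  have k := hor_sub_small T e hT1 hTd hTs he1 he2 (a • c₁) (a • c₂) (hc₁.smul he a) (hc₂.smul he a)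
    (by rw [norm_smul, Real.norm_of_nonneg ha.le]; exact hb _ n1 (by linarith))
    (by rw [norm_smul, Real.norm_of_nonneg ha.le]; exact hb _ n2 (by linarith))
  have k2 := k.smul he a⁻¹
  rwa [← smul_sub, smul_smul, inv_mul_cancel₀ ha.ne', one_smul] at k2

end Pole

end Vale.Agent.P084.LSum
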