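import Mathlib
import Vale.Agent.P084.LSumB

/-!
The Mazur-Ulam property of the `ℓ¹`-sum `X ⊕₁ ℝ`: third part, the linear extension.
-/

namespace Vale.Agent.P084.LSum

open Vale.Agent.P084

variable {X Y : Type*} [NormedAddCommGroup X] [NormedSpace ℝ X]
  [NormedAddCommGroup Y] [NormedSpace ℝ Y]

/-- The horizontal subspace. -/
def horSubmodule (e : Y) (he : ‖e‖ = 1)
    (hsub : ∀ c₁ c₂, Hor e c₁ → Hor e c₂ → Hor e (c₁ - c₂)) : Submodule ℝ Y where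
  carrier := {c | Hor e c}
  zero_mem' := Hor.zero he
  add_mem' := fun {a b} ha hb => by
    have h1 : Hor e (-b) := by
      have := Hor.smul he hb (-1)
      rwa [neg_one_smul] at this
    have := hsub a (-b) ha h1
    rwa [sub_neg_eq_add] at this
  smul_mem' := fun a c hc => Hor.smul he hc a

theorem mem_horSubmodule (e : Y) (he : ‖e‖ = 1)
    (hsub : ∀ c₁ c₂, Hor e c₁ → Hor e c₂ → Hor e (c₁ - c₂)) (c : Y) :
    c ∈ horSubmodule e he hsub ↔ Hor e c := Iff.rfl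

section Pole

variable (T : X → ℝ → Y) (e : Y)
  (hT1 : ∀ w t, ‖w‖ + |t| = 1 → ‖T w t‖ = 1)
  (hTd : ∀ w t w' t', ‖w‖ + |t| = 1 → ‖w'‖ + |t'| = 1 →
      ‖T w t - T w' t'‖ = ‖w - w'‖ + |t - t'|)
  (hTs : ∀ y, ‖y‖ = 1 → ∃ w t, ‖w‖ + |t| = 1 ∧ T w t = y)
  (he1 : T 0 1 = e) (he2 : T 0 (-1) = -e)

include hT1 hTd hTs he1 he2 in
theorem lsum_extension : ∃ L : X →ₗ[ℝ] Y, (∀ (w : X) (t : ℝ), ‖L w + t • e‖ = ‖w‖ + |t|) ∧
    (∀ y : Y, ∃ (w : X) (t : ℝ), L w + t • e = y) ∧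
    ∀ (w : X) (t : ℝ), ‖w‖ + |t| = 1 → T w t = L w + t • e := by
  have he : ‖e‖ = 1 := norm_pole T e hT1 he1
  have hsub := hor_sub T e hT1 hTd hTs he1 he2
  have hup : ∀ x : X, ‖x‖ ≤ 1 → ‖x‖ + |1 - ‖x‖| = 1 := by
    intro x hx
    rw [abs_of_nonneg (by linarith)]; ring
  have hlo : ∀ x : X, ‖x‖ ≤ 1 → ‖x‖ + |-(1 - ‖x‖)| = 1 := by
    intro x hx
    rw [abs_neg, abs_of_nonneg (by linarith)]; ring
  obtain ⟨W, hW⟩ : ∃ W : Submodule ℝ Y, ∀ c, c ∈ W ↔ Hor e c :=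
    ⟨horSubmodule e he hsub, mem_horSubmodule e he hsub⟩
  obtain ⟨f, hf⟩ : ∃ f : X → W, ∀ x, ‖x‖ ≤ 1 → (f x : Y) = T x (1 - ‖x‖) - (1 - ‖x‖) • e := by
    classical
    refine ⟨fun x => if h : ‖x‖ ≤ 1 then ⟨T x (1 - ‖x‖) - (1 - ‖x‖) • e,
      (hW _).2 (hor_part T e hT1 hTd hTs he1 he2 x _ (hup x h)).1⟩ else 0, ?_⟩
    intro x hx
    simp only [hx, dite_true]
  have hfn : ∀ x, ‖x‖ ≤ 1 → ‖f x‖ = ‖x‖ := by
    intro x hx
    rw [Submodule.coe_norm, hf x hx]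
    exact (hor_part T e hT1 hTd hTs he1 he2 x _ (hup x hx)).2
  have hfd : ∀ x x', ‖x‖ ≤ 1 → ‖x'‖ ≤ 1 → ‖f x - f x'‖ = ‖x - x'‖ := by
    intro x x' hx hx'
    have h1 := hTd _ _ _ _ (hup x hx) (hup x' hx')
    have h2 : T x (1 - ‖x‖) - T x' (1 - ‖x'‖)
        = ((f x - f x' : W) : Y) + ((1 - ‖x‖) - (1 - ‖x'‖)) • e := by
      rw [Submodule.coe_sub, hf x hx, hf x' hx']; module
    have h3 : Hor e ((f x - f x' : W) : Y) := (hW _).1 (f x - f x').2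
    rw [h2, h3, ← Submodule.coe_norm] at h1
    linarith
  have hfs : ∀ c : W, ‖c‖ ≤ 1 → ∃ x, ‖x‖ = ‖c‖ ∧ f x = c := by
    intro c hc
    have hc' : ‖(c : Y)‖ ≤ 1 := by rwa [← Submodule.coe_norm]
    obtain ⟨w, hw, hTw⟩ := exists_rep T e hT1 hTd hTs he1 he2 (c : Y) ((hW _).1 c.2) (1 - ‖(c : Y)‖)
      (by rw [abs_of_nonneg (by linarith)]; ring)
    refine ⟨w, by rw [hw, ← Submodule.coe_norm], ?_⟩
    apply Subtype.ext
    rw [hf w (by rw [hw]; exact hc'), hw, hTw, add_sub_cancel_right]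
  have hf0 : f 0 = 0 := by
    have := hfn 0 (by simp)
    rw [norm_zero] at this
    exact norm_eq_zero.1 this
  obtain ⟨L₀, hL₀⟩ := ball_mankiewicz f hf0
    (fun x hx => by rw [hfn x hx.le]; exact hx)
    (fun x x' hx hx' => hfd x x' hx.le hx'.le)
    (fun c hc => by
      obtain ⟨x, hx, hfx⟩ := hfs c hc.le
      exact ⟨x, by rw [hx]; exact hc, hfx⟩)
  have hL₁ : ∀ x, ‖x‖ ≤ 1 → L₀ x = f x := by
    intro x hx
    rcases hx.lt_or_eq with hlt | heq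
    · exact hL₀ x hlt
    · by_contra hne
      have hpos : 0 < ‖L₀ x - f x‖ := norm_pos_iff.2 (sub_ne_zero.2 hne)
      obtain ⟨d, hd_def⟩ : ∃ d, d = ‖L₀ x - f x‖ := ⟨_, rfl⟩
      rw [← hd_def] at hpos
      obtain ⟨r, hr_def⟩ : ∃ r, r = max (1 / 2) (1 - d / 4) := ⟨_, rfl⟩
      have hr0 : 0 < r := by
        rw [hr_def]; exact lt_of_lt_of_le (by norm_num) (le_max_left _ _)
      have hr1 : r < 1 := by
        rw [hr_def]; exact max_lt (by norm_num) (by linarith)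
      have hrd : 1 - r ≤ d / 4 := by
        have : 1 - d / 4 ≤ r := by rw [hr_def]; exact le_max_right _ _
        linarith
      have hrx : ‖r • x‖ = r := by rw [norm_smul, heq, mul_one, Real.norm_of_nonneg hr0.le]
      have hxr : ‖x - r • x‖ = 1 - r := by
        have : x - r • x = (1 - r) • x := by rw [sub_smul, one_smul]
        rw [this, norm_smul, heq, mul_one, Real.norm_of_nonneg (by linarith)]
      have h1 : ‖L₀ x - L₀ (r • x)‖ = 1 - r := by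
        rw [← map_sub, L₀.norm_map, hxr]
      have h2 : ‖f x - f (r • x)‖ = 1 - r := by
        rw [hfd x (r • x) hx (by rw [hrx]; exact hr1.le), hxr]
      have h3 : L₀ (r • x) = f (r • x) := hL₀ _ (by rw [hrx]; exact hr1)
      have h4 : d ≤ (1 - r) + (1 - r) := by
        rw [hd_def]
        calc ‖L₀ x - f x‖ = ‖(L₀ x - L₀ (r • x)) - (f x - f (r • x))‖ := by
              rw [h3]; congr 1; abel
          _ ≤ ‖L₀ x - L₀ (r • x)‖ + ‖f x - f (r • x)‖ := norm_sub_le _ _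
          _ = (1 - r) + (1 - r) := by rw [h1, h2]
      linarith
  have hlower : ∀ x, ‖x‖ ≤ 1 → T x (-(1 - ‖x‖)) = (f x : Y) + (-(1 - ‖x‖)) • e := by
    intro x hx
    obtain ⟨hp, -⟩ := hor_part T e hT1 hTd hTs he1 he2 x _ (hlo x hx)
    have h1 := hTd _ _ _ _ (hup x hx) (hlo x hx)
    have h2 : T x (1 - ‖x‖) - T x (-(1 - ‖x‖))
        = ((f x : Y) - (T x (-(1 - ‖x‖)) - (-(1 - ‖x‖)) • e)) + ((1 - ‖x‖) - -(1 - ‖x‖)) • e := by
      rw [hf x hx]; module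
    have h3 := hsub _ _ ((hW _).1 (f x).2) hp
    rw [h2, h3, sub_self, norm_zero] at h1
    have h4 : (f x : Y) - (T x (-(1 - ‖x‖)) - (-(1 - ‖x‖)) • e) = 0 :=
      norm_eq_zero.1 (by linarith)
    rw [sub_eq_zero] at h4
    rw [h4]; abel
  refine ⟨W.subtype ∘ₗ L₀.toLinearEquiv.toLinearMap, ?_, ?_, ?_⟩
  · intro w t
    have h1 : Hor e ((L₀ w : W) : Y) := (hW _).1 (L₀ w).2
    have h2 : (W.subtype ∘ₗ L₀.toLinearEquiv.toLinearMap) w = ((L₀ w : W) : Y) := rfl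
    rw [h2, h1, ← Submodule.coe_norm, L₀.norm_map]
  · intro y
    obtain ⟨c, σ, hc, hy⟩ := exists_decomp T e hT1 hTd hTs he1 he2 y
    refine ⟨L₀.symm ⟨c, (hW _).2 hc⟩, σ, ?_⟩
    have h2 : (W.subtype ∘ₗ L₀.toLinearEquiv.toLinearMap) (L₀.symm ⟨c, (hW _).2 hc⟩)
        = ((L₀ (L₀.symm ⟨c, (hW _).2 hc⟩) : W) : Y) := rfl
    rw [h2, L₀.apply_symm_apply, hy]
  · intro w t hwt
    have h2 : (W.subtype ∘ₗ L₀.toLinearEquiv.toLinearMap) w = ((L₀ w : W) : Y) := rfl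
    have hw : ‖w‖ ≤ 1 := by linarith [abs_nonneg t]
    rw [h2, hL₁ w hw]
    rcases le_total 0 t with ht | ht
    · have h3 : t = 1 - ‖w‖ := by
        rw [abs_of_nonneg ht] at hwt; linarith
      rw [h3, hf w hw]; abel
    · have h3 : t = -(1 - ‖w‖) := by
        rw [abs_of_nonpos ht] at hwt; linarith
      rw [h3, hlower w hw]

end Pole

end Vale.Agent.P084.LSum
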