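import Mathlib
import Vale.Agent.P084.LSumC

/-!
The Mazur-Ulam property of the `ℓ¹`-sum `X ⊕₁ ℝ`: the final statement.
-/

namespace Vale.Agent.P084.LSum

open Vale.Agent.P084

variable {X Y : Type*} [NormedAddCommGroup X] [NormedSpace ℝ X]
  [NormedAddCommGroup Y] [NormedSpace ℝ Y]

/-- **Main theorem.**  For every real normed space `X`, the `ℓ¹`-sum of `X` and `ℝ`
has the Mazur-Ulam property. -/
theorem mazur_ulam_l1_sum_real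
    (f : Metric.sphere (0 : WithLp 1 (X × ℝ)) 1 → Metric.sphere (0 : Y) 1) (hf : Isometry f)
    (hs : Function.Surjective f) :
    ∃ Λ : WithLp 1 (X × ℝ) ≃ₗᵢ[ℝ] Y,
      ∀ z : Metric.sphere (0 : WithLp 1 (X × ℝ)) 1, Λ z = f z := by
  classical
  have hn : ∀ z : WithLp 1 (X × ℝ), ‖z‖ = ‖z.fst‖ + |z.snd| := by
    intro z
    rw [WithLp.prod_norm_eq_of_L1, Real.norm_eq_abs]
  have hn' : ∀ (w : X) (t : ℝ), ‖WithLp.toLp 1 (w, t)‖ = ‖w‖ + |t| := by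
    intro w t
    rw [hn]; rfl
  let T : X → ℝ → Y := fun w t =>
    if h : ‖w‖ + |t| = 1 then
      (f ⟨WithLp.toLp 1 (w, t), mem_sphere_zero_iff_norm.2 ((hn' w t).trans h)⟩ : Y) else 0
  have hT : ∀ (w : X) (t : ℝ) (h : ‖w‖ + |t| = 1),
      T w t = f ⟨WithLp.toLp 1 (w, t), mem_sphere_zero_iff_norm.2 ((hn' w t).trans h)⟩ := by
    intro w t h
    simp only [T, dif_pos h]
  have hT1 : ∀ w t, ‖w‖ + |t| = 1 → ‖T w t‖ = 1 := by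
    intro w t h
    rw [hT w t h]
    exact mem_sphere_zero_iff_norm.1 (f _).2
  have hTd : ∀ w t w' t', ‖w‖ + |t| = 1 → ‖w'‖ + |t'| = 1 →
      ‖T w t - T w' t'‖ = ‖w - w'‖ + |t - t'| := by
    intro w t w' t' h h'
    rw [hT w t h, hT w' t' h', ← dist_eq_norm, ← Subtype.dist_eq, hf.dist_eq,
        Subtype.dist_eq, dist_eq_norm, hn]
    rfl
  have hTs : ∀ y, ‖y‖ = 1 → ∃ w t, ‖w‖ + |t| = 1 ∧ T w t = y := by
    intro y hy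
    obtain ⟨z, hz⟩ := hs ⟨y, mem_sphere_zero_iff_norm.2 hy⟩
    have hz1 : ‖(z : WithLp 1 (X × ℝ)).fst‖ + |(z : WithLp 1 (X × ℝ)).snd| = 1 := by
      rw [← hn]; exact mem_sphere_zero_iff_norm.1 z.2
    refine ⟨(z : WithLp 1 (X × ℝ)).fst, (z : WithLp 1 (X × ℝ)).snd, hz1, ?_⟩
    rw [hT _ _ hz1]
    have : (⟨WithLp.toLp 1 ((z : WithLp 1 (X × ℝ)).fst, (z : WithLp 1 (X × ℝ)).snd),
        mem_sphere_zero_iff_norm.2 ((hn' _ _).trans hz1)⟩ :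
          Metric.sphere (0 : WithLp 1 (X × ℝ)) 1) = z := Subtype.ext rfl
    rw [this, hz]
  obtain ⟨L, hLn, hLs, hLT⟩ := lsum_extension T (T 0 1) hT1 hTd hTs rfl
    (pole_antipode T hT1 hTd hTs)
  let Λ₀ : WithLp 1 (X × ℝ) →ₗ[ℝ] Y :=
    L ∘ₗ WithLp.fstₗ 1 ℝ X ℝ + (LinearMap.toSpanSingleton ℝ Y (T 0 1)) ∘ₗ WithLp.sndₗ 1 ℝ X ℝ
  have hΛ₀ : ∀ z : WithLp 1 (X × ℝ), Λ₀ z = L z.fst + z.snd • T 0 1 := fun z => rfl
  have hnorm : ∀ z, ‖Λ₀ z‖ = ‖z‖ := by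
    intro z
    rw [hΛ₀, hLn, hn]
  have hsurj : Function.Surjective Λ₀ := by
    intro y
    obtain ⟨w, t, hwt⟩ := hLs y
    exact ⟨WithLp.toLp 1 (w, t), by rw [hΛ₀]; exact hwt⟩
  let Λ₁ : WithLp 1 (X × ℝ) →ₗᵢ[ℝ] Y := ⟨Λ₀, hnorm⟩
  let Λ : WithLp 1 (X × ℝ) ≃ₗᵢ[ℝ] Y := LinearIsometryEquiv.ofSurjective Λ₁ hsurj
  have hΛ : ∀ z, Λ z = Λ₀ z := fun z => rfl
  refine ⟨Λ, fun z => ?_⟩
  have hz1 : ‖(z : WithLp 1 (X × ℝ)).fst‖ + |(z : WithLp 1 (X × ℝ)).snd| = 1 := by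
    rw [← hn]; exact mem_sphere_zero_iff_norm.1 z.2
  rw [hΛ, hΛ₀, ← hLT _ _ hz1, hT _ _ hz1]
  rfl

end Vale.Agent.P084.LSum
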