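import Mathlib
import Vale.Agent.P084.Basic

/-!
Rigidity of the unit sphere of `X × ℝ` (supremum norm): a distance preserving self-map of the
sphere that fixes the top face pointwise is the identity.
-/

namespace Vale.Agent.P084

variable {X : Type*} [NormedAddCommGroup X] [NormedSpace ℝ X]

theorem prod_norm_cases {a : X} {b r : ℝ} (h : ‖((a, b) : X × ℝ)‖ = r) :
    ‖a‖ ≤ r ∧ |b| ≤ r ∧ (‖a‖ = r ∨ |b| = r) := by
  rw [Prod.norm_mk, Real.norm_eq_abs] at h
  refine ⟨h ▸ le_max_left _ _, h ▸ le_max_right _ _, ?_⟩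
  rcases max_choice ‖a‖ |b| with h1 | h1
  · left; rw [← h, h1]
  · right; rw [← h, h1]

theorem prod_norm_side {x : X} {t : ℝ} (hx : ‖x‖ = 1) (ht : |t| ≤ 1) :
    ‖((x, t) : X × ℝ)‖ = 1 := by
  rw [Prod.norm_mk, Real.norm_eq_abs, hx]
  exact max_eq_left ht

theorem prod_norm_top {x : X} {t : ℝ} (hx : ‖x‖ ≤ 1) (ht : |t| = 1) :
    ‖((x, t) : X × ℝ)‖ = 1 := by
  rw [Prod.norm_mk, Real.norm_eq_abs, ht]
  exact max_eq_right hx

/-- One step of the propagation along the cylinder. -/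
theorem cylinder_step (S : X × ℝ → X × ℝ) (hS1 : ∀ z, ‖z‖ = 1 → ‖S z‖ = 1)
    (hSd : ∀ z w, ‖z‖ = 1 → ‖w‖ = 1 → ‖S z - S w‖ = ‖z - w‖)
    (hfix : ∀ x : X, ‖x‖ ≤ 1 → S (x, 1) = (x, 1))
    (τ : ℝ) (hτ : |τ| ≤ 1) (hfixτ : ∀ p : X, ‖p‖ = 1 → S (p, τ) = (p, τ))
    (x : X) (hx : ‖x‖ = 1) (t : ℝ) (ht : |t| ≤ 1) (htτ : |t - τ| < 1) : S (x, t) = (x, t) := by
  have hz : ‖((x, t) : X × ℝ)‖ = 1 := prod_norm_side hx ht
  obtain ⟨u, s, hus⟩ : ∃ (u : X) (s : ℝ), S (x, t) = (u, s) := ⟨_, _, rfl⟩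
  have hSz := hS1 _ hz
  rw [hus] at hSz
  obtain ⟨hu1, hs1, -⟩ := prod_norm_cases hSz
  -- comparison with `(x, τ)`
  have ha := hSd (x, t) (x, τ) hz (prod_norm_side hx hτ)
  rw [hus, hfixτ x hx, Prod.mk_sub_mk, Prod.mk_sub_mk, sub_self] at ha
  have ha' : ‖((0 : X), t - τ)‖ = |t - τ| := by
    rw [Prod.norm_mk, norm_zero, Real.norm_eq_abs]
    exact max_eq_right (abs_nonneg _)
  rw [ha'] at ha
  obtain ⟨-, hsτ, -⟩ := prod_norm_cases ha
  have hsτ1 : |s - τ| < 1 := lt_of_le_of_lt hsτ htτ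
  -- comparison with `(-x, τ)`
  have hb := hSd (x, t) (-x, τ) hz (prod_norm_side (by rw [norm_neg, hx]) hτ)
  rw [hus, hfixτ (-x) (by rw [norm_neg, hx]), Prod.mk_sub_mk, Prod.mk_sub_mk] at hb
  have hb' : ‖((x - -x, t - τ) : X × ℝ)‖ = 2 := by
    have h2 : ‖x - -x‖ = 2 := by
      have : x - -x = (2 : ℝ) • x := by rw [two_smul]; abel
      rw [this, norm_smul, hx]; norm_num
    rw [Prod.norm_mk, h2, Real.norm_eq_abs]
    exact max_eq_left (by linarith)
  rw [hb'] at hb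
  obtain ⟨-, -, hb2⟩ := prod_norm_cases hb
  have hux : ‖u - -x‖ = 2 := by
    rcases hb2 with h | h
    · exact h
    · linarith
  have hu : ‖u‖ = 1 := by
    apply le_antisymm hu1
    have := norm_sub_le u (-x)
    rw [hux, norm_neg, hx] at this
    linarith
  -- equal distances to far points
  have hc : ∀ p : X, ‖p‖ = 1 → 1 ≤ ‖p - x‖ → ‖p - u‖ = ‖p - x‖ := by
    intro p hp hpx
    have h1 := hSd (x, t) (p, τ) hz (prod_norm_side hp hτ)
    rw [hus, hfixτ p hp, Prod.mk_sub_mk, Prod.mk_sub_mk] at h1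
    have h2 : ‖((x - p, t - τ) : X × ℝ)‖ = ‖p - x‖ := by
      rw [Prod.norm_mk, Real.norm_eq_abs, norm_sub_rev x p]
      exact max_eq_left (by linarith)
    rw [h2] at h1
    obtain ⟨-, -, h3⟩ := prod_norm_cases h1
    rcases h3 with h | h
    · rw [norm_sub_rev p u]; exact h
    · linarith
  have hux' : u = x := sphere_point_rigidity hx hu hc
  -- the height
  have hd := hSd (x, t) (x, 1) hz (prod_norm_side hx (by simp))
  rw [hus, hfix x hx.le, Prod.mk_sub_mk, Prod.mk_sub_mk, hux', sub_self, Prod.norm_mk,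
    Prod.norm_mk, norm_zero, Real.norm_eq_abs, Real.norm_eq_abs,
    max_eq_right (abs_nonneg _), max_eq_right (abs_nonneg _)] at hd
  have hs_le : s ≤ 1 := (abs_le.1 hs1).2
  have ht_le : t ≤ 1 := (abs_le.1 ht).2
  rw [abs_of_nonpos (by linarith), abs_of_nonpos (by linarith)] at hd
  have : s = t := by linarith
  rw [hus, hux', this]

/-- Rigidity of the sphere of `X × ℝ` relative to its top face. -/
theorem cylinder_rigidity (S : X × ℝ → X × ℝ) (hS1 : ∀ z, ‖z‖ = 1 → ‖S z‖ = 1)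
    (hSd : ∀ z w, ‖z‖ = 1 → ‖w‖ = 1 → ‖S z - S w‖ = ‖z - w‖)
    (hfix : ∀ x : X, ‖x‖ ≤ 1 → S (x, 1) = (x, 1)) :
    ∀ z, ‖z‖ = 1 → S z = z := by
  -- stage one: positive heights
  have st1 : ∀ (x : X) (t : ℝ), ‖x‖ = 1 → 0 < t → t ≤ 1 → S (x, t) = (x, t) := by
    intro x t hx h0 h1
    apply cylinder_step S hS1 hSd hfix 1 (by simp) (fun p hp => hfix p hp.le) x hx t
    · rw [abs_le]; constructor <;> linarith
    · rw [abs_lt]; constructor <;> linarith
  -- stage two: heights above `-1`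
  have st2 : ∀ (x : X) (t : ℝ), ‖x‖ = 1 → -1 < t → t ≤ 1 → S (x, t) = (x, t) := by
    intro x t hx h0 h1
    rcases lt_or_ge 0 t with h | h
    · exact st1 x t hx h h1
    · apply cylinder_step S hS1 hSd hfix ((1 + t) / 2) (by rw [abs_le]; constructor <;> linarith)
        (fun p hp => st1 p _ hp (by linarith) (by linarith)) x hx t
      · rw [abs_le]; constructor <;> linarith
      · rw [abs_lt]; constructor <;> linarith
  -- stage three: all heights
  have st3 : ∀ (x : X) (t : ℝ), ‖x‖ = 1 → |t| ≤ 1 → S (x, t) = (x, t) := by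
    intro x t hx ht
    have ht' := abs_le.1 ht
    rcases lt_or_ge (-1) t with h | h
    · exact st2 x t hx h ht'.2
    · apply cylinder_step S hS1 hSd hfix (-1 / 2) (by rw [abs_le]; constructor <;> norm_num)
        (fun p hp => st2 p _ hp (by norm_num) (by norm_num)) x hx t ht
      rw [abs_lt]; constructor <;> linarith
  rintro ⟨x, t⟩ hz
  obtain ⟨hx1, ht1, hor⟩ := prod_norm_cases hz
  by_cases hx : ‖x‖ = 1
  · exact st3 x t hx ht1
  have ht : |t| = 1 := by
    rcases hor with h | h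
    · exact absurd h hx
    · exact h
  rcases (abs_eq (by norm_num : (0 : ℝ) ≤ 1)).1 ht with h | h
  · rw [h]; exact hfix x hx1
  -- the bottom face
  subst h
  obtain ⟨u, s, hus⟩ : ∃ (u : X) (s : ℝ), S (x, -1) = (u, s) := ⟨_, _, rfl⟩
  have hSz := hS1 _ hz
  rw [hus] at hSz
  obtain ⟨hu1, hs1, -⟩ := prod_norm_cases hSz
  have ha := hSd (x, -1) (0, 1) hz (prod_norm_top (by simp) (by simp))
  rw [hus, hfix 0 (by simp), Prod.mk_sub_mk, Prod.mk_sub_mk] at ha
  have ha' : ‖((x - 0, -1 - 1) : X × ℝ)‖ = 2 := by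
    rw [Prod.norm_mk, sub_zero, Real.norm_eq_abs]
    have : |(-1 - 1 : ℝ)| = 2 := by norm_num
    rw [this]
    exact max_eq_right (by linarith)
  rw [ha', sub_zero] at ha
  obtain ⟨-, -, ha2⟩ := prod_norm_cases ha
  have hs : s = -1 := by
    have hs' := abs_le.1 hs1
    rcases ha2 with h | h
    · linarith
    · rw [abs_of_nonpos (by linarith)] at h
      linarith
  have hc : ∀ p : X, ‖p‖ = 1 → ‖u - p‖ = ‖x - p‖ := by
    intro p hp
    have h1 := hSd (x, -1) (p, -1) hz (prod_norm_side hp (by simp))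
    rw [hus, st3 p (-1) hp (by simp), hs, Prod.mk_sub_mk, Prod.mk_sub_mk, sub_self, Prod.norm_mk,
      Prod.norm_mk, norm_zero, max_eq_left (norm_nonneg _), max_eq_left (norm_nonneg _)] at h1
    exact h1
  rw [hus, hs, ball_point_rigidity hx1 hc]

end Vale.Agent.P084
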