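import Mathlib
import Vale.Agent.P084.Basic
import Vale.Agent.P084.BallMankiewicz
import Vale.Agent.P084.Cylinder

/-!
The Mazur-Ulam property of `X × ℝ` with the supremum norm, for an arbitrary real normed
space `X`.
-/

namespace Vale.Agent.P084

variable {X Y : Type*} [NormedAddCommGroup X] [NormedSpace ℝ X]
  [NormedAddCommGroup Y] [NormedSpace ℝ Y]

section Face

variable (T : X × ℝ → Y) (hT1 : ∀ z, ‖z‖ = 1 → ‖T z‖ = 1)
  (hTd : ∀ z w, ‖z‖ = 1 → ‖w‖ = 1 → ‖T z - T w‖ = ‖z - w‖)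
  (hTs : ∀ y, ‖y‖ = 1 → ∃ z, ‖z‖ = 1 ∧ T z = y)

include hT1 hTd hTs

/-- Points of the target sphere cofacial with the image of the pole are cofacial with the whole
image of the top face. -/
theorem face_aux (x : X) (hx : ‖x‖ ≤ 1) (y : Y) (hy : ‖y‖ = 1) (h : ‖y + T (0, 1)‖ = 2) :
    ‖y + T (x, 1)‖ = 2 := by
  have hc : ‖(((0 : X), (1 : ℝ)) : X × ℝ)‖ = 1 := prod_norm_top (by simp) (by simp)
  obtain ⟨⟨a, s⟩, ha, hTa⟩ := hTs (-y) (by rw [norm_neg, hy])
  have h1 := hTd (a, s) (0, 1) ha hc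
  rw [hTa] at h1
  have h2 : -y - T (0, 1) = -(y + T (0, 1)) := by abel
  rw [h2, norm_neg, h, Prod.mk_sub_mk, sub_zero] at h1
  obtain ⟨ha1, hs1, -⟩ := prod_norm_cases ha
  obtain ⟨-, -, h3⟩ := prod_norm_cases h1.symm
  have hs : s = -1 := by
    have hs' := abs_le.1 hs1
    rcases h3 with h4 | h4
    · linarith
    · rw [abs_of_nonpos (by linarith)] at h4
      linarith
  have h5 := hTd (x, 1) (a, s) (prod_norm_top hx (by simp)) ha
  rw [hTa, sub_neg_eq_add, Prod.mk_sub_mk, hs] at h5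
  rw [add_comm, h5, Prod.norm_mk, Real.norm_eq_abs]
  have h6 : |(1 - -1 : ℝ)| = 2 := by norm_num
  rw [h6]
  apply max_eq_right
  calc ‖x - a‖ ≤ ‖x‖ + ‖a‖ := norm_sub_le _ _
    _ ≤ 2 := by linarith

/-- Any two points of the image of the top face are cofacial. -/
theorem face_pair (x x' : X) (hx : ‖x‖ ≤ 1) (hx' : ‖x'‖ ≤ 1) :
    ‖T (x, 1) + T (x', 1)‖ = 2 := by
  have hc : ‖(((0 : X), (1 : ℝ)) : X × ℝ)‖ = 1 := prod_norm_top (by simp) (by simp)
  have he : ‖T ((0 : X), (1 : ℝ))‖ = 1 := hT1 _ hc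
  have h0 : ‖T ((0 : X), (1 : ℝ)) + T (0, 1)‖ = 2 := by
    rw [← two_smul ℝ, norm_smul, he]; norm_num
  have h1 := face_aux T hT1 hTd hTs x hx _ he h0
  rw [add_comm] at h1
  exact face_aux T hT1 hTd hTs x' hx' _ (hT1 _ (prod_norm_top hx (by simp))) h1

/-- The part of the target sphere within distance less than one of the image of the pole is
the image of the open top face. -/
theorem open_face_surj (y : Y) (hy : ‖y‖ = 1) (h : ‖y - T (0, 1)‖ < 1) :
    ∃ x : X, ‖x‖ < 1 ∧ T (x, 1) = y := by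
  have hc : ‖(((0 : X), (1 : ℝ)) : X × ℝ)‖ = 1 := prod_norm_top (by simp) (by simp)
  obtain ⟨⟨a, s⟩, ha, hTa⟩ := hTs y hy
  have h1 := hTd (a, s) (0, 1) ha hc
  rw [hTa, Prod.mk_sub_mk, sub_zero] at h1
  obtain ⟨h2, h3, -⟩ := prod_norm_cases h1.symm
  obtain ⟨-, -, h4⟩ := prod_norm_cases ha
  have ha1 : ‖a‖ < 1 := lt_of_le_of_lt h2 h
  have hs : s = 1 := by
    have h5 : |s - 1| < 1 := lt_of_le_of_lt h3 h
    have h6 := abs_lt.1 h5
    rcases h4 with h7 | h7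
    · linarith
    · rw [abs_of_pos (by linarith)] at h7
      exact h7
  exact ⟨a, ha1, by rw [← hs, hTa]⟩

omit hT1 hTs in
theorem open_face_dist (x x' : X) (hx : ‖x‖ ≤ 1) (hx' : ‖x'‖ ≤ 1) :
    ‖T (x, 1) - T (x', 1)‖ = ‖x - x'‖ := by
  rw [hTd _ _ (prod_norm_top hx (by simp)) (prod_norm_top hx' (by simp)), Prod.mk_sub_mk, sub_self,
    Prod.norm_mk, norm_zero]
  exact max_eq_left (norm_nonneg _)

/-- A functional norming the image of the pole is equal to one on the image of the open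
top face. -/
theorem functional_on_open_face (ψ : StrongDual ℝ Y) (hψ : ‖ψ‖ ≤ 1) (hψe : ψ (T (0, 1)) = 1)
    (x : X) (hx : ‖x‖ < 1) : ψ (T (x, 1)) = 1 := by
  have hc : ‖(((0 : X), (1 : ℝ)) : X × ℝ)‖ = 1 := prod_norm_top (by simp) (by simp)
  have hψle : ∀ w : Y, ψ w ≤ ‖w‖ := fun w => by
    calc ψ w ≤ ‖ψ w‖ := le_abs_self _
      _ ≤ ‖ψ‖ * ‖w‖ := ψ.le_opNorm w
      _ ≤ 1 * ‖w‖ := by gcongr
      _ = ‖w‖ := one_mul _
  set e := T ((0 : X), (1 : ℝ)) with he_def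
  have he : ‖e‖ = 1 := hT1 _ hc
  set y := T (x, 1) with hy_def
  have hy : ‖y‖ = 1 := hT1 _ (prod_norm_top hx.le (by simp))
  have hye : ‖e - y‖ ≤ 1 := by
    rw [he_def, hy_def, open_face_dist T hTd 0 x (by simp) hx.le, zero_sub, norm_neg]
    exact hx.le
  set p : Y := e + (1 / 4 : ℝ) • (e - y) with hp_def
  have hpe : ‖p - e‖ ≤ 1 / 4 := by
    rw [hp_def, add_sub_cancel_left, norm_smul, Real.norm_of_nonneg (by norm_num)]
    linarith
  have hp_lo : 3 / 4 ≤ ‖p‖ := by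
    have := norm_sub_le e p
    have h2 : ‖e‖ ≤ ‖e - p‖ + ‖p‖ := by
      calc ‖e‖ = ‖(e - p) + p‖ := by rw [sub_add_cancel]
        _ ≤ ‖e - p‖ + ‖p‖ := norm_add_le _ _
    rw [norm_sub_rev, he] at h2
    linarith
  have hp_hi : ‖p‖ ≤ 5 / 4 := by
    have h2 : ‖p‖ ≤ ‖p - e‖ + ‖e‖ := by
      calc ‖p‖ = ‖(p - e) + e‖ := by rw [sub_add_cancel]
        _ ≤ ‖p - e‖ + ‖e‖ := norm_add_le _ _
    rw [he] at h2
    linarith
  have hp_pos : 0 < ‖p‖ := by linarith
  set q : Y := ‖p‖⁻¹ • p with hq_def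
  have hq : ‖q‖ = 1 := by
    rw [hq_def, norm_smul, norm_inv, norm_norm]
    exact inv_mul_cancel₀ hp_pos.ne'
  have hpq : ‖p‖ • q = p := by
    rw [hq_def, smul_smul, mul_inv_cancel₀ hp_pos.ne', one_smul]
  have hqp : ‖q - p‖ ≤ 1 / 4 := by
    have h1 : q - p = (1 - ‖p‖) • q := by
      rw [sub_smul, one_smul, hpq]
    rw [h1, norm_smul, hq, mul_one, Real.norm_eq_abs, abs_le]
    constructor <;> linarith
  have hqe : ‖q - e‖ < 1 := by
    calc ‖q - e‖ = ‖(q - p) + (p - e)‖ := by rw [sub_add_sub_cancel]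
      _ ≤ ‖q - p‖ + ‖p - e‖ := norm_add_le _ _
      _ < 1 := by linarith
  obtain ⟨x2, hx2, hTx2⟩ := open_face_surj T hT1 hTd hTs q hq hqe
  have hqy : ‖q + y‖ = 2 := by
    rw [← hTx2, hy_def]
    exact face_pair T hT1 hTd hTs x2 x hx2.le hx.le
  have h1 := norm_comb_of_norm_add_eq_two hq hy hqy hp_pos.le (by norm_num : (0 : ℝ) ≤ 1 / 4)
  have h2 : ‖p‖ • q + (1 / 4 : ℝ) • y = (5 / 4 : ℝ) • e := by
    rw [hpq, hp_def, smul_sub]
    have : (5 / 4 : ℝ) • e = e + (1 / 4 : ℝ) • e := by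
      rw [show (5 / 4 : ℝ) = 1 + 1 / 4 by norm_num, add_smul, one_smul]
    rw [this]; abel
  rw [h2, norm_smul, he, Real.norm_of_nonneg (by norm_num)] at h1
  have hp1 : ‖p‖ = 1 := by linarith
  have h3 := hψle p
  rw [hp1, hp_def, map_add, map_smul, map_sub, hψe, smul_eq_mul] at h3
  have h4 := hψle y
  rw [hy] at h4
  linarith

/-- Points of the hyperplane `ψ = 1` within distance less than one of the image of the pole
lie on the unit sphere. -/
theorem hyperplane_ball_subset_sphere (ψ : StrongDual ℝ Y) (hψ : ‖ψ‖ ≤ 1)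
    (hψe : ψ (T (0, 1)) = 1) (y : Y) (hy : ψ y = 1) (h : ‖y - T (0, 1)‖ < 1) : ‖y‖ = 1 := by
  have hc : ‖(((0 : X), (1 : ℝ)) : X × ℝ)‖ = 1 := prod_norm_top (by simp) (by simp)
  have hψle : ∀ w : Y, ψ w ≤ ‖w‖ := fun w => by
    calc ψ w ≤ ‖ψ w‖ := le_abs_self _
      _ ≤ ‖ψ‖ * ‖w‖ := ψ.le_opNorm w
      _ ≤ 1 * ‖w‖ := by gcongr
      _ = ‖w‖ := one_mul _
  set e := T ((0 : X), (1 : ℝ)) with he_def
  have he : ‖e‖ = 1 := hT1 _ hc
  have hN : 1 ≤ ‖y‖ := by rw [← hy]; exact hψle y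
  have hNpos : 0 < ‖y‖ := by linarith
  set q : Y := ‖y‖⁻¹ • y with hq_def
  have hq : ‖q‖ = 1 := by
    rw [hq_def, norm_smul, norm_inv, norm_norm]
    exact inv_mul_cancel₀ hNpos.ne'
  have hqe : ‖q - e‖ < 1 := by
    have h1 : q - e = ‖y‖⁻¹ • ((y - e) - (‖y‖ - 1) • e) := by
      rw [hq_def, smul_sub, smul_sub, smul_smul, mul_sub, inv_mul_cancel₀ hNpos.ne', mul_one,
        sub_smul, one_smul]
      abel
    have h2 : ‖(y - e) - (‖y‖ - 1) • e‖ < ‖y‖ := by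
      calc ‖(y - e) - (‖y‖ - 1) • e‖ ≤ ‖y - e‖ + ‖(‖y‖ - 1) • e‖ := norm_sub_le _ _
        _ = ‖y - e‖ + (‖y‖ - 1) := by
            rw [norm_smul, he, mul_one, Real.norm_of_nonneg (by linarith)]
        _ < ‖y‖ := by linarith
    rw [h1, norm_smul, norm_inv, norm_norm, inv_mul_lt_iff₀ hNpos, mul_one]
    exact h2
  obtain ⟨x, hx, hTx⟩ := open_face_surj T hT1 hTd hTs q hq hqe
  have h3 := functional_on_open_face T hT1 hTd hTs ψ hψ hψe x hx
  rw [hTx, hq_def, map_smul, hy, smul_eq_mul, mul_one] at h3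
  exact inv_eq_one.1 h3

/-- The linear structure on the image of the top face. -/
theorem exists_linear_on_face (ψ : StrongDual ℝ Y) (hψ : ‖ψ‖ ≤ 1) (hψe : ψ (T (0, 1)) = 1) :
    ∃ L : X ≃ₗᵢ[ℝ] (LinearMap.ker (ψ : Y →ₗ[ℝ] ℝ)),
      ∀ x : X, ‖x‖ ≤ 1 → T (x, 1) = T (0, 1) + (L x : Y) := by
  set e := T ((0 : X), (1 : ℝ)) with he_def
  -- the map of open balls
  let f : X → LinearMap.ker (ψ : Y →ₗ[ℝ] ℝ) := fun x =>
    ⟨(T (x, 1) - e) - ψ (T (x, 1) - e) • e, by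
      rw [LinearMap.mem_ker]
      simp [hψe]⟩
  have hf : ∀ x : X, ‖x‖ < 1 → ((f x : LinearMap.ker (ψ : Y →ₗ[ℝ] ℝ)) : Y) = T (x, 1) - e := by
    intro x hx
    have h1 := functional_on_open_face T hT1 hTd hTs ψ hψ hψe x hx
    change (T (x, 1) - e) - ψ (T (x, 1) - e) • e = T (x, 1) - e
    rw [map_sub, h1, hψe, sub_self, zero_smul, sub_zero]
  have h0 : f 0 = 0 := by
    apply Subtype.ext
    rw [hf 0 (by simp)]
    simp [he_def]
  have hmap : ∀ x, ‖x‖ < 1 → ‖f x‖ < 1 := by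
    intro x hx
    rw [Submodule.coe_norm, hf x hx, he_def, open_face_dist T hTd x 0 hx.le (by simp), sub_zero]
    exact hx
  have hiso : ∀ x x', ‖x‖ < 1 → ‖x'‖ < 1 → ‖f x - f x'‖ = ‖x - x'‖ := by
    intro x x' hx hx'
    rw [Submodule.coe_norm, Submodule.coe_sub, hf x hx, hf x' hx', sub_sub_sub_cancel_right,
      open_face_dist T hTd x x' hx.le hx'.le]
  have hsurj : ∀ w, ‖w‖ < 1 → ∃ x, ‖x‖ < 1 ∧ f x = w := by
    intro w hw
    have hw0 : ψ (w : Y) = 0 := LinearMap.mem_ker.1 w.2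
    have h1 : ψ (e + (w : Y)) = 1 := by rw [map_add, hψe, hw0, add_zero]
    have h2 : ‖(e + (w : Y)) - e‖ < 1 := by
      rw [add_sub_cancel_left]; exact hw
    have h3 := hyperplane_ball_subset_sphere T hT1 hTd hTs ψ hψ hψe _ h1 h2
    obtain ⟨x, hx, hTx⟩ := open_face_surj T hT1 hTd hTs _ h3 h2
    refine ⟨x, hx, ?_⟩
    apply Subtype.ext
    rw [hf x hx, hTx, add_sub_cancel_left]
  obtain ⟨L, hL⟩ := ball_mankiewicz f h0 hmap hiso hsurj
  refine ⟨L, ?_⟩
  have hopen : ∀ x : X, ‖x‖ < 1 → T (x, 1) = e + (L x : Y) := by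
    intro x hx
    rw [hL x hx, hf x hx]; abel
  intro x hx
  -- approximation from inside
  have key : ∀ ε : ℝ, 0 < ε → ε < 1 → ‖T (x, 1) - (e + (L x : Y))‖ ≤ 2 * ε := by
    intro ε h0 h1
    have hr : ‖(1 - ε) • x‖ < 1 := by
      rw [norm_smul, Real.norm_of_nonneg (by linarith)]
      nlinarith [norm_nonneg x]
    have e1 : ‖T (x, 1) - T ((1 - ε) • x, 1)‖ ≤ ε := by
      rw [open_face_dist T hTd x _ hx hr.le]
      have : x - (1 - ε) • x = ε • x := by rw [sub_smul, one_smul]; abel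
      rw [this, norm_smul, Real.norm_of_nonneg h0.le]
      nlinarith [norm_nonneg x]
    have e2 : ‖T ((1 - ε) • x, 1) - (e + (L x : Y))‖ ≤ ε := by
      rw [hopen _ hr, add_sub_add_left_eq_sub, ← Submodule.coe_sub, ← map_sub, ← Submodule.coe_norm,
        L.norm_map]
      have : (1 - ε) • x - x = -(ε • x) := by rw [sub_smul, one_smul]; abel
      rw [this, norm_neg, norm_smul, Real.norm_of_nonneg h0.le]
      nlinarith [norm_nonneg x]
    calc ‖T (x, 1) - (e + (L x : Y))‖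
        = ‖(T (x, 1) - T ((1 - ε) • x, 1)) + (T ((1 - ε) • x, 1) - (e + (L x : Y)))‖ := by
          rw [sub_add_sub_cancel]
      _ ≤ ‖T (x, 1) - T ((1 - ε) • x, 1)‖ + ‖T ((1 - ε) • x, 1) - (e + (L x : Y))‖ :=
          norm_add_le _ _
      _ ≤ 2 * ε := by linarith
  by_contra hne
  have hpos : 0 < ‖T (x, 1) - (e + (L x : Y))‖ := norm_pos_iff.2 (sub_ne_zero.2 hne)
  set δ := ‖T (x, 1) - (e + (L x : Y))‖ with hδ
  have h1 := key (min (δ / 4) (1 / 2)) (by positivity)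
    (lt_of_le_of_lt (min_le_right _ _) (by norm_num))
  have h2 : min (δ / 4) (1 / 2) ≤ δ / 4 := min_le_left _ _
  linarith

/-- **Main theorem, function form.**  Every surjective isometry from the unit sphere of `X × ℝ`
onto the unit sphere of a real normed space is the restriction of a linear isometry. -/
theorem prod_real_extension :
    ∃ Λ : (X × ℝ) ≃ₗᵢ[ℝ] Y, ∀ z : X × ℝ, ‖z‖ = 1 → Λ z = T z := by
  have hc : ‖(((0 : X), (1 : ℝ)) : X × ℝ)‖ = 1 := prod_norm_top (by simp) (by simp)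
  set e := T ((0 : X), (1 : ℝ)) with he_def
  have he : ‖e‖ = 1 := hT1 _ hc
  obtain ⟨ψ, hψ, hψe'⟩ := exists_dual_vector'' ℝ e
  have hψe : ψ e = 1 := by rw [hψe', he]; norm_num
  have hψabs : ∀ w : Y, |ψ w| ≤ ‖w‖ := fun w => by
    calc |ψ w| = ‖ψ w‖ := rfl
      _ ≤ ‖ψ‖ * ‖w‖ := ψ.le_opNorm w
      _ ≤ 1 * ‖w‖ := by gcongr
      _ = ‖w‖ := one_mul _
  obtain ⟨L, hL⟩ := exists_linear_on_face T hT1 hTd hTs ψ hψ hψe
  have hLker : ∀ x : X, ψ (L x : Y) = 0 := fun x => LinearMap.mem_ker.1 (L x).2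
  have hLnorm : ∀ x : X, ‖(L x : Y)‖ = ‖x‖ := fun x => by
    rw [← Submodule.coe_norm, L.norm_map]
  -- the candidate linear map
  let Λ₀ : X × ℝ →ₗ[ℝ] Y :=
    LinearMap.coprod ((LinearMap.ker (ψ : Y →ₗ[ℝ] ℝ)).subtype ∘ₗ L.toLinearEquiv.toLinearMap)
      (LinearMap.toSpanSingleton ℝ Y e)
  have hΛ₀ : ∀ (x : X) (t : ℝ), Λ₀ (x, t) = (L x : Y) + t • e := by
    intro x t
    simp [Λ₀, LinearMap.coprod_apply]
  -- upper bound on the unit ball
  have up1 : ∀ (x : X) (t : ℝ), ‖x‖ ≤ 1 → |t| ≤ 1 → ‖(L x : Y) + t • e‖ ≤ 1 := by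
    intro x t hx ht
    have ht' := abs_le.1 ht
    have h1 : ‖e + (L x : Y)‖ = 1 := by
      rw [← hL x hx]; exact hT1 _ (prod_norm_top hx (by simp))
    have h2 : ‖e + (L (-x) : Y)‖ = 1 := by
      rw [← hL (-x) (by rw [norm_neg]; exact hx)]
      exact hT1 _ (prod_norm_top (by rw [norm_neg]; exact hx) (by simp))
    have h3 : (L x : Y) + t • e
        = ((1 + t) / 2) • (e + (L x : Y)) + ((1 - t) / 2) • (-(e + (L (-x) : Y))) := by
      rw [map_neg, Submodule.coe_neg, smul_add, smul_neg, smul_add, smul_neg]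
      have a1 : (L x : Y) = ((1 + t) / 2) • (L x : Y) + ((1 - t) / 2) • (L x : Y) := by
        rw [← add_smul]; ring_nf; rw [one_smul]
      have a2 : t • e = ((1 + t) / 2) • e - ((1 - t) / 2) • e := by
        rw [← sub_smul]; ring_nf
      nth_rewrite 1 [a1]
      rw [a2]
      abel
    rw [h3]
    calc ‖((1 + t) / 2) • (e + (L x : Y)) + ((1 - t) / 2) • (-(e + (L (-x) : Y)))‖
        ≤ ‖((1 + t) / 2) • (e + (L x : Y))‖ + ‖((1 - t) / 2) • (-(e + (L (-x) : Y)))‖ :=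
          norm_add_le _ _
      _ = (1 + t) / 2 + (1 - t) / 2 := by
          rw [norm_smul, norm_smul, norm_neg, h1, h2, Real.norm_of_nonneg (by linarith),
            Real.norm_of_nonneg (by linarith)]
          ring
      _ = 1 := by ring
  -- upper bound in general
  have up : ∀ (x : X) (t r : ℝ), ‖x‖ ≤ r → |t| ≤ r → ‖(L x : Y) + t • e‖ ≤ r := by
    intro x t r hx ht
    have hr0 : 0 ≤ r := le_trans (norm_nonneg _) hx
    rcases hr0.eq_or_lt with hr | hr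
    · have hx0 : x = 0 := by
        apply norm_eq_zero.1
        exact le_antisymm (by rw [hr]; exact hx) (norm_nonneg _)
      have ht0 : t = 0 := by
        apply abs_eq_zero.1
        exact le_antisymm (by rw [hr]; exact ht) (abs_nonneg _)
      rw [hx0, ht0, ← hr]; simp
    · have h1 := up1 (r⁻¹ • x) (r⁻¹ * t)
        (by rw [norm_smul, norm_inv, Real.norm_of_nonneg hr.le, inv_mul_le_iff₀ hr, mul_one]
            exact hx)
        (by rw [abs_mul, abs_inv, abs_of_pos hr, inv_mul_le_iff₀ hr, mul_one]; exact ht)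
      have h2 : (L (r⁻¹ • x) : Y) + (r⁻¹ * t) • e = r⁻¹ • ((L x : Y) + t • e) := by
        rw [map_smul, Submodule.coe_smul, smul_add, smul_smul]
      rw [h2, norm_smul, norm_inv, Real.norm_of_nonneg hr.le, inv_mul_le_iff₀ hr, mul_one] at h1
      exact h1
  -- lower bounds
  have lo_t : ∀ (x : X) (t : ℝ), |t| ≤ ‖(L x : Y) + t • e‖ := by
    intro x t
    have := hψabs ((L x : Y) + t • e)
    rw [map_add, map_smul, hLker, hψe, smul_eq_mul, mul_one, zero_add] at this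
    exact this
  have lo_x : ∀ (x : X) (t : ℝ), ‖x‖ ≤ ‖(L x : Y) + t • e‖ := by
    intro x t
    set r := ‖(L x : Y) + t • e‖ with hr
    rcases eq_or_ne x 0 with hx0 | hx0
    · rw [hx0, norm_zero]; exact norm_nonneg _
    have hxpos : 0 < ‖x‖ := norm_pos_iff.2 hx0
    have hr0 : 0 ≤ r := norm_nonneg _
    set w : X := (-(r / ‖x‖)) • x with hw
    have hwn : ‖w‖ = r := by
      rw [hw, norm_smul, norm_neg, Real.norm_of_nonneg (by positivity)]
      field_simp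
    have h1 := up w t r hwn.le (lo_t x t)
    have h2 : ((L x : Y) + t • e) - ((L w : Y) + t • e) = (L (x - w) : Y) := by
      rw [map_sub, Submodule.coe_sub]; abel
    have h3 : ‖x - w‖ = ‖x‖ + r := by
      have : x - w = (1 + r / ‖x‖) • x := by
        rw [hw, neg_smul, add_smul, one_smul]; abel
      rw [this, norm_smul, Real.norm_of_nonneg (by positivity)]
      field_simp
    have h4 := norm_sub_le ((L x : Y) + t • e) ((L w : Y) + t • e)
    rw [h2, hLnorm, h3, ← hr] at h4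
    linarith
  have hnorm : ∀ z : X × ℝ, ‖Λ₀ z‖ = ‖z‖ := by
    rintro ⟨x, t⟩
    rw [hΛ₀, Prod.norm_mk, Real.norm_eq_abs]
    apply le_antisymm
    · exact up x t _ (le_max_left _ _) (le_max_right _ _)
    · exact max_le (lo_x x t) (lo_t x t)
  have hsurj : Function.Surjective Λ₀ := by
    intro y
    have hmem : y - ψ y • e ∈ LinearMap.ker (ψ : Y →ₗ[ℝ] ℝ) := by
      rw [LinearMap.mem_ker]
      simp [hψe]
    refine ⟨(L.symm ⟨y - ψ y • e, hmem⟩, ψ y), ?_⟩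
    rw [hΛ₀, L.apply_symm_apply]
    simp
  let Λ₁ : X × ℝ →ₗᵢ[ℝ] Y := ⟨Λ₀, hnorm⟩
  let Λ : (X × ℝ) ≃ₗᵢ[ℝ] Y := LinearIsometryEquiv.ofSurjective Λ₁ hsurj
  have hΛ : ∀ z, Λ z = Λ₀ z := fun z => rfl
  refine ⟨Λ, ?_⟩
  -- rigidity
  have hrig := cylinder_rigidity (fun z => Λ.symm (T z))
    (fun z hz => by
      change ‖Λ.symm (T z)‖ = 1
      rw [Λ.symm.norm_map]; exact hT1 z hz)
    (fun z w hz hw => by
      change ‖Λ.symm (T z) - Λ.symm (T w)‖ = ‖z - w‖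
      rw [← map_sub, Λ.symm.norm_map]; exact hTd z w hz hw)
    (fun x hx => by
      change Λ.symm (T (x, 1)) = (x, 1)
      rw [Λ.symm_apply_eq, hΛ, hΛ₀, hL x hx, one_smul, add_comm])
  intro z hz
  have := hrig z hz
  change Λ.symm (T z) = z at this
  rw [Λ.symm_apply_eq] at this
  exact this.symm

end Face

/-- **Main theorem.**  For every real normed space `X`, the space `X × ℝ` with the supremum norm
has the Mazur-Ulam property: every surjective isometry from its unit sphere onto the unit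
sphere of a real normed space `Y` is the restriction of a linear isometry of `X × ℝ` onto `Y`. -/
theorem mazur_ulam_prod_real
    (f : Metric.sphere (0 : X × ℝ) 1 → Metric.sphere (0 : Y) 1) (hf : Isometry f)
    (hs : Function.Surjective f) :
    ∃ Λ : (X × ℝ) ≃ₗᵢ[ℝ] Y, ∀ z : Metric.sphere (0 : X × ℝ) 1, Λ z = f z := by
  classical
  let T : X × ℝ → Y := fun z =>
    if h : ‖z‖ = 1 then (f ⟨z, mem_sphere_zero_iff_norm.2 h⟩ : Y) else 0
  have hT : ∀ (z : X × ℝ) (h : ‖z‖ = 1), T z = f ⟨z, mem_sphere_zero_iff_norm.2 h⟩ := by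
    intro z h
    simp only [T, dif_pos h]
  obtain ⟨Λ, hΛ⟩ := prod_real_extension T
    (fun z hz => by
      rw [hT z hz]
      exact mem_sphere_zero_iff_norm.1 (f _).2)
    (fun z w hz hw => by
      rw [hT z hz, hT w hw, ← dist_eq_norm, ← dist_eq_norm, ← Subtype.dist_eq, hf.dist_eq,
        Subtype.dist_eq])
    (fun y hy => by
      obtain ⟨z, hz⟩ := hs ⟨y, mem_sphere_zero_iff_norm.2 hy⟩
      refine ⟨z, mem_sphere_zero_iff_norm.1 z.2, ?_⟩
      rw [hT z (mem_sphere_zero_iff_norm.1 z.2)]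
      have : (⟨(z : X × ℝ), mem_sphere_zero_iff_norm.2 (mem_sphere_zero_iff_norm.1 z.2)⟩ :
          Metric.sphere (0 : X × ℝ) 1) = z := Subtype.ext rfl
      rw [this, hz])
  refine ⟨Λ, fun z => ?_⟩
  rw [hΛ z (mem_sphere_zero_iff_norm.1 z.2), hT z (mem_sphere_zero_iff_norm.1 z.2)]

end Vale.Agent.P084
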