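import Mathlib
import Vale.Agent.P084.ProdReal
import Vale.Agent.P084.LSumD

/-!
Intrinsic forms: a real normed space with a one-dimensional M-summand or L-summand has the
Mazur-Ulam property.
-/

namespace Vale.Agent.P084

variable {Z Z' Y : Type*} [NormedAddCommGroup Z] [NormedSpace ℝ Z]
  [NormedAddCommGroup Z'] [NormedSpace ℝ Z']
  [NormedAddCommGroup Y] [NormedSpace ℝ Y]

/-- The extension property is transported along a linear isometric equivalence. -/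
theorem mup_transfer (Ψ : Z ≃ₗᵢ[ℝ] Z')
    (h : ∀ g : Metric.sphere (0 : Z') 1 → Metric.sphere (0 : Y) 1, Isometry g →
      Function.Surjective g → ∃ Λ : Z' ≃ₗᵢ[ℝ] Y, ∀ z : Metric.sphere (0 : Z') 1, Λ z = g z)
    (f : Metric.sphere (0 : Z) 1 → Metric.sphere (0 : Y) 1) (hf : Isometry f)
    (hs : Function.Surjective f) :
    ∃ Λ : Z ≃ₗᵢ[ℝ] Y, ∀ z : Metric.sphere (0 : Z) 1, Λ z = f z := by
  have hmem : ∀ w : Metric.sphere (0 : Z') 1, Ψ.symm (w : Z') ∈ Metric.sphere (0 : Z) 1 := by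
    intro w
    rw [mem_sphere_zero_iff_norm, Ψ.symm.norm_map]
    exact mem_sphere_zero_iff_norm.1 w.2
  have hmem' : ∀ z : Metric.sphere (0 : Z) 1, Ψ (z : Z) ∈ Metric.sphere (0 : Z') 1 := by
    intro z
    rw [mem_sphere_zero_iff_norm, Ψ.norm_map]
    exact mem_sphere_zero_iff_norm.1 z.2
  obtain ⟨Λ, hΛ⟩ := h (fun w => f ⟨Ψ.symm (w : Z'), hmem w⟩)
    (by
      intro w w'
      rw [hf.edist_eq, Subtype.edist_eq, Subtype.edist_eq]
      exact Ψ.symm.isometry.edist_eq _ _)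
    (by
      intro y
      obtain ⟨z, hz⟩ := hs y
      refine ⟨⟨Ψ (z : Z), hmem' z⟩, ?_⟩
      have : (⟨Ψ.symm (Ψ (z : Z)), hmem ⟨Ψ (z : Z), hmem' z⟩⟩ : Metric.sphere (0 : Z) 1) = z :=
        Subtype.ext (Ψ.symm_apply_apply _)
      change f ⟨Ψ.symm (Ψ (z : Z)), _⟩ = y
      rw [this, hz])
  refine ⟨Ψ.trans Λ, fun z => ?_⟩
  have h1 := hΛ ⟨Ψ (z : Z), hmem' z⟩
  have : (⟨Ψ.symm (Ψ (z : Z)), hmem ⟨Ψ (z : Z), hmem' z⟩⟩ : Metric.sphere (0 : Z) 1) = z :=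
    Subtype.ext (Ψ.symm_apply_apply _)
  change Λ (Ψ (z : Z)) = (f ⟨Ψ.symm (Ψ (z : Z)), _⟩ : Y) at h1
  rw [this] at h1
  exact h1

/-- The linear equivalence between `Z` and `ker φ × ℝ`. -/
noncomputable def kerProdEquiv (e : Z) (φ : StrongDual ℝ Z) (hφe : φ e = 1) :
    Z ≃ₗ[ℝ] (LinearMap.ker (φ : Z →ₗ[ℝ] ℝ)) × ℝ where
  toFun z := (⟨z - φ z • e, by
    rw [LinearMap.mem_ker]
    change φ (z - φ z • e) = 0
    rw [map_sub, map_smul, hφe, smul_eq_mul, mul_one, sub_self]⟩, φ z)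
  map_add' a b := by
    refine Prod.ext (Subtype.ext ?_) ?_
    · change a + b - φ (a + b) • e = (a - φ a • e) + (b - φ b • e)
      rw [map_add, add_smul]; abel
    · change φ (a + b) = φ a + φ b
      rw [map_add]
  map_smul' c a := by
    refine Prod.ext (Subtype.ext ?_) ?_
    · change c • a - φ (c • a) • e = c • (a - φ a • e)
      rw [map_smul, smul_sub, smul_eq_mul, mul_smul]
    · change φ (c • a) = c • φ a
      rw [map_smul]
  invFun w := (w.1 : Z) + w.2 • e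
  left_inv z := by
    change (z - φ z • e) + φ z • e = z
    rw [sub_add_cancel]
  right_inv w := by
    have hw : φ (w.1 : Z) = 0 := w.1.2
    have h1 : φ ((w.1 : Z) + w.2 • e) = w.2 := by
      rw [map_add, map_smul, hφe, hw, smul_eq_mul, mul_one, zero_add]
    refine Prod.ext (Subtype.ext ?_) ?_
    · change (w.1 : Z) + w.2 • e - φ ((w.1 : Z) + w.2 • e) • e = w.1
      rw [h1, add_sub_cancel_right]
    · exact h1

/-- A real normed space with a one-dimensional M-summand has the Mazur-Ulam property. -/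
theorem mup_of_M_summand (e : Z) (φ : StrongDual ℝ Z) (hφe : φ e = 1)
    (hnorm : ∀ z, ‖z‖ = max ‖z - φ z • e‖ |φ z|)
    (f : Metric.sphere (0 : Z) 1 → Metric.sphere (0 : Y) 1) (hf : Isometry f)
    (hs : Function.Surjective f) :
    ∃ Λ : Z ≃ₗᵢ[ℝ] Y, ∀ z : Metric.sphere (0 : Z) 1, Λ z = f z := by
  let Ψ : Z ≃ₗᵢ[ℝ] (LinearMap.ker (φ : Z →ₗ[ℝ] ℝ)) × ℝ :=
    ⟨kerProdEquiv e φ hφe, fun z => by
      rw [hnorm z]
      rfl⟩
  exact mup_transfer Ψ (fun g hg hgs => mazur_ulam_prod_real g hg hgs) f hf hs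

/-- A real normed space with a one-dimensional L-summand has the Mazur-Ulam property. -/
theorem mup_of_L_summand (e : Z) (φ : StrongDual ℝ Z) (hφe : φ e = 1)
    (hnorm : ∀ z, ‖z‖ = ‖z - φ z • e‖ + |φ z|)
    (f : Metric.sphere (0 : Z) 1 → Metric.sphere (0 : Y) 1) (hf : Isometry f)
    (hs : Function.Surjective f) :
    ∃ Λ : Z ≃ₗᵢ[ℝ] Y, ∀ z : Metric.sphere (0 : Z) 1, Λ z = f z := by
  let Ψ : Z ≃ₗᵢ[ℝ] WithLp 1 ((LinearMap.ker (φ : Z →ₗ[ℝ] ℝ)) × ℝ) :=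
    ⟨(kerProdEquiv e φ hφe).trans (WithLp.linearEquiv 1 ℝ _).symm, fun z => by
      rw [hnorm z, WithLp.prod_norm_eq_of_L1]
      rfl⟩
  exact mup_transfer Ψ (fun g hg hgs => LSum.mazur_ulam_l1_sum_real g hg hgs) f hf hs

end Vale.Agent.P084
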