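import Mathlib
import Vale.Agent.P084.FlatTransfer
import Vale.Agent.P084.Summand

/-!
A surjective isometry between unit spheres is the restriction of a linear map on the whole face
of a flat point.
-/

namespace Vale.Agent.P084

variable {Z Y : Type*} [NormedAddCommGroup Z] [NormedSpace ℝ Z]
  [NormedAddCommGroup Y] [NormedSpace ℝ Y]

/-- A curve on `[0, 1]` which is affine near every point of `[0, 1)`, with a radius proportional
to the distance to `1`, and which is continuous at `1`, is affine. -/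
theorem local_affine_segment (γ : ℝ → Y) (κ : ℝ) (hκ0 : 0 < κ) (hκ1 : κ < 1)
    (hloc : ∀ s, 0 ≤ s → s < 1 → ∃ w : Y, ∀ t : ℝ, |t| ≤ κ * (1 - s) → 0 ≤ s + t →
      γ (s + t) = γ s + t • w)
    (C : ℝ) (hlip : ∀ s, 0 ≤ s → s ≤ 1 → ‖γ 1 - γ s‖ ≤ C * (1 - s)) :
    ∀ s, 0 ≤ s → s ≤ 1 → γ s = γ 0 + s • (γ 1 - γ 0) := by
  obtain ⟨w₀, hw₀⟩ := hloc 0 le_rfl zero_lt_one
  have hq0 : 0 < 1 - κ := by linarith
  have hq1 : 1 - κ < 1 := by linarith
  have claim : ∀ n : ℕ, ∀ s, 0 ≤ s → s ≤ 1 - (1 - κ) ^ (n + 1) → γ s = γ 0 + s • w₀ := by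
    intro n
    induction n with
    | zero =>
      intro s hs0 hs1
      have := hw₀ s (by rw [abs_of_nonneg hs0]; simpa using hs1) (by linarith)
      rwa [zero_add] at this
    | succ n ih =>
      intro s hs0 hs1
      obtain ⟨a, ha_def⟩ : ∃ a, a = 1 - (1 - κ) ^ (n + 1) := ⟨_, rfl⟩
      have hpow : 0 < (1 - κ) ^ (n + 1) := pow_pos hq0 _
      have hpow1 : (1 - κ) ^ (n + 1) ≤ 1 - κ := by
        calc (1 - κ) ^ (n + 1) = (1 - κ) ^ n * (1 - κ) := pow_succ _ _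
          _ ≤ 1 * (1 - κ) := by
              gcongr
              exact pow_le_one₀ hq0.le hq1.le
          _ = 1 - κ := one_mul _
      have ha0 : 0 < a := by rw [ha_def]; linarith
      have ha1 : a < 1 := by rw [ha_def]; linarith
      rw [← ha_def] at ih
      rcases le_total s a with hsa | hsa
      · exact ih s hs0 hsa
      · obtain ⟨w, hw⟩ := hloc a ha0.le ha1
        -- identify the velocity
        obtain ⟨t₁, ht₁_def⟩ : ∃ t₁, t₁ = min a (κ * (1 - a)) := ⟨_, rfl⟩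
        have ht₁pos : 0 < t₁ := by
          rw [ht₁_def]; exact lt_min ha0 (mul_pos hκ0 (by linarith))
        have ht₁a : t₁ ≤ a := by rw [ht₁_def]; exact min_le_left _ _
        have ht₁k : t₁ ≤ κ * (1 - a) := by rw [ht₁_def]; exact min_le_right _ _
        have e1 := hw (-t₁) (by rw [abs_neg, abs_of_pos ht₁pos]; exact ht₁k) (by linarith)
        have e2 := ih (a + -t₁) (by linarith) (by linarith)
        have e3 := ih a ha0.le le_rfl
        rw [e2, e3] at e1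
        have e4 : t₁ • w = t₁ • w₀ := by
          have : γ 0 + (a + -t₁) • w₀ = γ 0 + a • w₀ - t₁ • w₀ := by
            rw [add_smul, neg_smul]; abel
          rw [this, neg_smul] at e1
          have e5 : -(t₁ • w₀) = -(t₁ • w) := by
            have := congrArg (fun v => v - (γ 0 + a • w₀)) e1
            simpa [sub_eq_add_neg, add_assoc, add_comm, add_left_comm] using this
          exact (neg_injective e5).symm
        have hww : w = w₀ := by
          have := congrArg (fun v => t₁⁻¹ • v) e4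
          simpa [smul_smul, inv_mul_cancel₀ ht₁pos.ne'] using this
        have hst : s - a ≤ κ * (1 - a) := by
          have : (1 - κ) ^ (n + 1 + 1) = (1 - κ) ^ (n + 1) * (1 - κ) := pow_succ _ _
          rw [this] at hs1
          rw [ha_def]
          nlinarith
        have e6 := hw (s - a) (by rw [abs_of_nonneg (by linarith)]; exact hst) (by linarith)
        rw [add_sub_cancel, e3, hww] at e6
        rw [e6, add_assoc, ← add_smul]
        congr 2
        ring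
  have hlt : ∀ s, 0 ≤ s → s < 1 → γ s = γ 0 + s • w₀ := by
    intro s hs0 hs1
    obtain ⟨n, hn⟩ := exists_pow_lt_of_lt_one (by linarith : 0 < 1 - s) hq1
    have h2 : (1 - κ) ^ (n + 1) ≤ (1 - κ) ^ n := by
      calc (1 - κ) ^ (n + 1) = (1 - κ) ^ n * (1 - κ) := pow_succ _ _
        _ ≤ (1 - κ) ^ n * 1 := by
            gcongr
        _ = (1 - κ) ^ n := mul_one _
    exact claim n s hs0 (by linarith)
  have hend : γ 1 = γ 0 + w₀ := by
    by_contra hne
    have hpos : 0 < ‖γ 1 - (γ 0 + w₀)‖ := norm_pos_iff.2 (sub_ne_zero.2 hne)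
    obtain ⟨d, hd_def⟩ : ∃ d, d = ‖γ 1 - (γ 0 + w₀)‖ := ⟨_, rfl⟩
    rw [← hd_def] at hpos
    obtain ⟨M, hM_def⟩ : ∃ M, M = |C| + ‖w₀‖ + 1 := ⟨_, rfl⟩
    have hM : 0 < M := by rw [hM_def]; positivity
    obtain ⟨τ, hτ_def⟩ : ∃ τ, τ = min (1 / 2) (d / (2 * M)) := ⟨_, rfl⟩
    have hτ0 : 0 < τ := by rw [hτ_def]; exact lt_min (by norm_num) (by positivity)
    have hτ1 : τ ≤ 1 / 2 := by rw [hτ_def]; exact min_le_left _ _
    have hτ2 : τ * M ≤ d / 2 := by
      have : τ ≤ d / (2 * M) := by rw [hτ_def]; exact min_le_right _ _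
      calc τ * M ≤ d / (2 * M) * M := by gcongr
        _ = d / 2 := by field_simp
    have e1 := hlip (1 - τ) (by linarith) (by linarith)
    have e2 := hlt (1 - τ) (by linarith) (by linarith)
    have e3 : γ 1 - (γ 0 + w₀) = (γ 1 - γ (1 - τ)) - τ • w₀ := by
      rw [e2, sub_smul, one_smul]; abel
    have e4 : d ≤ C * (1 - (1 - τ)) + τ * ‖w₀‖ := by
      rw [hd_def, e3]
      calc ‖(γ 1 - γ (1 - τ)) - τ • w₀‖ ≤ ‖γ 1 - γ (1 - τ)‖ + ‖τ • w₀‖ := norm_sub_le _ _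
        _ ≤ C * (1 - (1 - τ)) + τ * ‖w₀‖ := by
            rw [norm_smul, Real.norm_of_nonneg hτ0.le]
            linarith
    have e5 : C * (1 - (1 - τ)) + τ * ‖w₀‖ ≤ τ * M := by
      rw [hM_def]
      have : C ≤ |C| := le_abs_self C
      nlinarith
    linarith
  intro s hs0 hs1
  have hw : γ 1 - γ 0 = w₀ := by rw [hend]; abel
  rw [hw]
  rcases hs1.lt_or_eq with h | h
  · exact hlt s hs0 h
  · rw [h, one_smul]; exact hend

section Face

variable (T : Z → Y) (hT1 : ∀ z, ‖z‖ = 1 → ‖T z‖ = 1)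
  (hTd : ∀ z w, ‖z‖ = 1 → ‖w‖ = 1 → ‖T z - T w‖ = ‖z - w‖)
  (hTs : ∀ y, ‖y‖ = 1 → ∃ z, ‖z‖ = 1 ∧ T z = y)
  {c : Z} {ξ : StrongDual ℝ Z} {ρ : ℝ}

theorem exists_norming (y : Y) (hy : ‖y‖ = 1) :
    ∃ ψ : StrongDual ℝ Y, (∀ w, ψ w ≤ ‖w‖) ∧ ψ y = 1 := by
  obtain ⟨ψ, hψ, hψe⟩ := exists_dual_vector'' ℝ y
  refine ⟨ψ, fun w => ?_, by rw [hψe, hy]; norm_num⟩
  calc ψ w ≤ ‖ψ w‖ := le_abs_self _
    _ ≤ ‖ψ‖ * ‖w‖ := ψ.le_opNorm w
    _ ≤ 1 * ‖w‖ := by gcongr
    _ = ‖w‖ := one_mul _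

include hT1 hTd hTs in
/-- The isometry is affine on the segment from a flat point to any point of its face. -/
theorem flat_segment (h : Flat c ξ ρ) {z : Z} (hz : ‖z‖ = 1) (hξz : ξ z = 1) :
    ∀ s : ℝ, 0 ≤ s → s ≤ 1 → T (c + s • (z - c)) = T c + s • (T z - T c) := by
  have hρ := h.pos
  have hρ1 := h.radius_le_one
  have hc := h.norm_eq
  have hu : ‖z - c‖ ≤ 2 := by
    calc ‖z - c‖ ≤ ‖z‖ + ‖c‖ := norm_sub_le _ _
      _ = 2 := by rw [hz, hc]; norm_num
  have hξu : ξ (z - c) = 0 := by rw [map_sub, hξz, h.self_eq, sub_self]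
  have hcs : ∀ s : ℝ, c + s • (z - c) = (1 - s) • c + s • z := by
    intro s; rw [smul_sub, sub_smul, one_smul]; abel
  have hflat : ∀ s : ℝ, 0 ≤ s → s < 1 → Flat (c + s • (z - c)) ξ ((1 - s) * ρ) := by
    intro s h0 h1
    rw [hcs]
    exact h.mix hz.le hξz h0 h1
  have hnorm : ∀ s : ℝ, 0 ≤ s → s ≤ 1 → ‖c + s • (z - c)‖ = 1 := by
    intro s h0 h1
    rcases h1.lt_or_eq with h2 | h2
    · exact (hflat s h0 h2).norm_eq
    · rw [h2, one_smul, add_sub_cancel]; exact hz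
  have key := local_affine_segment (fun s => T (c + s • (z - c))) (ρ / 48) (by linarith)
    (by linarith)
    (by
      intro s h0 h1
      have hfs := hflat s h0 h1
      obtain ⟨ψ, hψ, hψc⟩ := exists_norming (T (c + s • (z - c))) (hT1 _ hfs.norm_eq)
      obtain ⟨D, hD⟩ := flat_local_linear T hT1 hTd hTs hfs ψ hψ hψc
      refine ⟨(D ⟨z - c, LinearMap.mem_ker.2 hξu⟩ : Y), fun t ht _ => ?_⟩
      have hk : ‖t • (⟨z - c, LinearMap.mem_ker.2 hξu⟩ : LinearMap.ker (ξ : Z →ₗ[ℝ] ℝ))‖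
          < (1 - s) * ρ / 12 := by
        rw [norm_smul, Submodule.coe_norm, Real.norm_eq_abs]
        change |t| * ‖z - c‖ < _
        have h3 : 0 < (1 - s) * ρ := mul_pos (by linarith) hρ
        calc |t| * ‖z - c‖ ≤ (ρ / 48 * (1 - s)) * 2 := by
              gcongr
          _ < (1 - s) * ρ / 12 := by nlinarith
      have h4 := hD _ hk
      rw [map_smul, Submodule.coe_smul, Submodule.coe_smul] at h4
      change T (c + (s + t) • (z - c)) = T (c + s • (z - c)) + t • _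
      rw [← h4, add_smul, add_assoc])
    ‖z - c‖
    (by
      intro s h0 h1
      change ‖T (c + (1 : ℝ) • (z - c)) - T (c + s • (z - c))‖ ≤ _
      rw [hTd _ _ (hnorm 1 zero_le_one le_rfl) (hnorm s h0 h1), add_sub_add_left_eq_sub, ← sub_smul,
        norm_smul, Real.norm_of_nonneg (by linarith), mul_comm])
  intro s h0 h1
  have := key s h0 h1
  simpa using this

include hT1 hTd hTs in
/-- **Face theorem.** On the face of a flat point the isometry is the restriction of a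
surjective bounded linear map. -/
theorem face_linear (h : Flat c ξ ρ) :
    ∃ (ψ : StrongDual ℝ Y) (L : Z →ₗ[ℝ] Y), Flat (T c) ψ (ρ / 12) ∧ (∀ z, ψ (L z) = ξ z) ∧
      Function.Surjective L ∧ (∀ z, ‖L z‖ ≤ 3 * ‖z‖) ∧ ∀ z, ‖z‖ = 1 → ξ z = 1 → T z = L z := by
  have hρ := h.pos
  have hc := h.norm_eq
  obtain ⟨ψ, hψ, hψc⟩ := exists_norming (T c) (hT1 c hc)
  obtain ⟨D, hD⟩ := flat_local_linear T hT1 hTd hTs h ψ hψ hψc
  let K := kerProdEquiv c ξ h.self_eq
  let L : Z →ₗ[ℝ] Y :=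
    (LinearMap.coprod ((LinearMap.ker (ψ : Y →ₗ[ℝ] ℝ)).subtype ∘ₗ D.toLinearEquiv.toLinearMap)
      (LinearMap.toSpanSingleton ℝ Y (T c))) ∘ₗ K.toLinearMap
  have hL : ∀ z, L z = (D (K z).1 : Y) + (K z).2 • T c := by
    intro z
    simp [L, LinearMap.coprod_apply]
  have hK1 : ∀ z, (((K z).1 : LinearMap.ker (ξ : Z →ₗ[ℝ] ℝ)) : Z) = z - ξ z • c := fun z => rfl
  have hK2 : ∀ z, (K z).2 = ξ z := fun z => rfl
  have hDker : ∀ k, ψ (D k : Y) = 0 := fun k => LinearMap.mem_ker.1 (D k).2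
  refine ⟨ψ, L, flat_image T hT1 hTd hTs h ψ hψ hψc, ?_, ?_, ?_, ?_⟩
  · intro z
    rw [hL, map_add, map_smul, hDker, hψc, hK2, smul_eq_mul, mul_one, zero_add]
  · intro y
    have hmem : y - ψ y • T c ∈ LinearMap.ker (ψ : Y →ₗ[ℝ] ℝ) := by
      rw [LinearMap.mem_ker]
      simp [hψc]
    refine ⟨K.symm (D.symm ⟨y - ψ y • T c, hmem⟩, ψ y), ?_⟩
    rw [hL, K.apply_symm_apply, D.apply_symm_apply]
    simp
  · intro z
    rw [hL]
    have h1 : ‖(D (K z).1 : Y)‖ = ‖z - ξ z • c‖ := by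
      rw [← Submodule.coe_norm, D.norm_map, Submodule.coe_norm, hK1]
    have h2 : ‖z - ξ z • c‖ ≤ ‖z‖ + |ξ z| := by
      calc ‖z - ξ z • c‖ ≤ ‖z‖ + ‖ξ z • c‖ := norm_sub_le _ _
        _ = ‖z‖ + |ξ z| := by rw [norm_smul, hc, mul_one, Real.norm_eq_abs]
    have h3 := h.abs_le_norm z
    calc ‖(D (K z).1 : Y) + (K z).2 • T c‖ ≤ ‖(D (K z).1 : Y)‖ + ‖(K z).2 • T c‖ := norm_add_le _ _
      _ = ‖z - ξ z • c‖ + |ξ z| := by
          rw [h1, norm_smul, hT1 c hc, mul_one, hK2, Real.norm_eq_abs]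
      _ ≤ 3 * ‖z‖ := by linarith
  · intro z hz hξz
    have hseg := flat_segment T hT1 hTd hTs h hz hξz
    have hu : ‖z - c‖ ≤ 2 := by
      calc ‖z - c‖ ≤ ‖z‖ + ‖c‖ := norm_sub_le _ _
        _ = 2 := by rw [hz, hc]; norm_num
    have hξu : ξ (z - c) = 0 := by rw [map_sub, hξz, h.self_eq, sub_self]
    obtain ⟨s, hs_def⟩ : ∃ s, s = ρ / 48 := ⟨_, rfl⟩
    have hs0 : 0 < s := by rw [hs_def]; linarith
    have hs1 : s ≤ 1 := by rw [hs_def]; linarith [h.radius_le_one]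
    have hk : ‖s • (⟨z - c, LinearMap.mem_ker.2 hξu⟩ : LinearMap.ker (ξ : Z →ₗ[ℝ] ℝ))‖
        < ρ / 12 := by
      rw [norm_smul, Submodule.coe_norm, Real.norm_of_nonneg hs0.le]
      change s * ‖z - c‖ < _
      calc s * ‖z - c‖ ≤ s * 2 := by gcongr
        _ < ρ / 12 := by rw [hs_def]; linarith
    have h1 := hD _ hk
    rw [map_smul, Submodule.coe_smul, Submodule.coe_smul] at h1
    change T (c + s • (z - c)) = _ at h1
    rw [hseg s hs0.le hs1] at h1
    have h2 : s • (T z - T c) = s • (D ⟨z - c, LinearMap.mem_ker.2 hξu⟩ : Y) :=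
      add_left_cancel h1
    have h3 : T z - T c = (D ⟨z - c, LinearMap.mem_ker.2 hξu⟩ : Y) := by
      have := congrArg (fun v => s⁻¹ • v) h2
      simpa [smul_smul, inv_mul_cancel₀ hs0.ne'] using this
    have h4 : (K z).1 = ⟨z - c, LinearMap.mem_ker.2 hξu⟩ := by
      apply Subtype.ext
      rw [hK1, hξz, one_smul]
    rw [hL, h4, hK2, hξz, one_smul, ← h3]
    abel

end Face

end Vale.Agent.P084
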