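import Mathlib
import Vale.Agent.P084.FlatFace

/-!
The touching lemma for flat faces and an abstract extension theorem for spaces whose unit
sphere is (densely) covered by linked flat faces.
-/

namespace Vale.Agent.P084

variable {Z Y : Type*} [NormedAddCommGroup Z] [NormedSpace ℝ Z]
  [NormedAddCommGroup Y] [NormedSpace ℝ Y]

section Touch

variable (T : Z → Y) (hT1 : ∀ z, ‖z‖ = 1 → ‖T z‖ = 1)
  (hTd : ∀ z w, ‖z‖ = 1 → ‖w‖ = 1 → ‖T z - T w‖ = ‖z - w‖)
  (hTs : ∀ y, ‖y‖ = 1 → ∃ z, ‖z‖ = 1 ∧ T z = y)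

include hT1 hTd in
/-- The touching lemma: the antipodal case. -/
theorem touch_neg {b : Z} {ξ : StrongDual ℝ Z} {ρ : ℝ} (hb : Flat b ξ ρ)
    {ψ : StrongDual ℝ Y} {ρ' : ℝ} (hb' : Flat (T b) ψ ρ')
    {a z : Z} (ha : ‖a‖ = 1) (hξa : ξ a = -1) (hz : ‖z‖ = 1)
    (hseg : ∀ s : ℝ, 0 ≤ s → s ≤ 1 → ‖a + s • (z - a)‖ = 1 ∧
      T (a + s • (z - a)) = T a + s • (T z - T a)) : ψ (T z) = ξ z := by
  have hρ := hb.pos
  have hρ' := hb'.pos
  have hρ1 := hb.radius_le_one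
  have hm : Flat ((1 - 1 / 2 : ℝ) • b + (1 / 2 : ℝ) • (-a)) ξ ((1 - 1 / 2) * ρ) :=
    hb.mix (by rw [norm_neg, ha]) (by rw [map_neg, hξa, neg_neg]) (by norm_num) (by norm_num)
  have hba : ‖b - a‖ = 2 := by
    have h1 : b - a = (2 : ℝ) • ((1 - 1 / 2 : ℝ) • b + (1 / 2 : ℝ) • (-a)) := by
      rw [smul_add, smul_smul, smul_smul, smul_neg]
      norm_num
      abel
    rw [h1, norm_smul, hm.norm_eq]; norm_num
  have hTba : ‖T b + -(T a)‖ = 2 := by
    rw [← sub_eq_add_neg, hTd b a hb.norm_eq ha, hba]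
  have hψa : ψ (-(T a)) = 1 :=
    hb'.eq_one_of_cofacial (by rw [norm_neg]; exact hT1 a ha) hTba
  have hm' : Flat ((1 - 1 / 2 : ℝ) • T b + (1 / 2 : ℝ) • (-(T a))) ψ ((1 - 1 / 2) * ρ') :=
    hb'.mix (by rw [norm_neg, hT1 a ha]) hψa (by norm_num) (by norm_num)
  have hza : ‖z - a‖ ≤ 2 := by
    calc ‖z - a‖ ≤ ‖z‖ + ‖a‖ := norm_sub_le _ _
      _ = 2 := by rw [hz, ha]; norm_num
  have hTza : ‖T z - T a‖ ≤ 2 := by rw [hTd z a hz ha]; exact hza
  obtain ⟨s, hs_def⟩ : ∃ s, s = min ρ ρ' / 2 := ⟨_, rfl⟩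
  have hs0 : 0 < s := by rw [hs_def]; have := lt_min hρ hρ'; linarith
  have hsρ : s ≤ ρ / 2 := by rw [hs_def]; have := min_le_left ρ ρ'; linarith
  have hsρ' : s ≤ ρ' / 2 := by rw [hs_def]; have := min_le_right ρ ρ'; linarith
  have hs1 : s ≤ 1 := by linarith
  obtain ⟨hn, hT⟩ := hseg s hs0.le hs1
  have e1 : b - (a + s • (z - a))
      = (2 : ℝ) • (((1 - 1 / 2 : ℝ) • b + (1 / 2 : ℝ) • (-a)) + (-(s / 2)) • (z - a)) := by
    rw [smul_add, smul_add, smul_smul, smul_smul, smul_smul, smul_neg]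
    norm_num
    have : (2 * (s / 2)) = s := by ring
    rw [this]
    abel
  have e2 : T b - (T a + s • (T z - T a))
      = (2 : ℝ) • (((1 - 1 / 2 : ℝ) • T b + (1 / 2 : ℝ) • (-(T a))) + (-(s / 2)) • (T z - T a)) := by
    rw [smul_add, smul_add, smul_smul, smul_smul, smul_smul, smul_neg]
    norm_num
    have : (2 * (s / 2)) = s := by ring
    rw [this]
    abel
  have n1 : ‖(-(s / 2)) • (z - a)‖ ≤ (1 - 1 / 2) * ρ := by
    rw [norm_smul, norm_neg, Real.norm_of_nonneg (by linarith)]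
    nlinarith [norm_nonneg (z - a)]
  have n2 : ‖(-(s / 2)) • (T z - T a)‖ ≤ (1 - 1 / 2) * ρ' := by
    rw [norm_smul, norm_neg, Real.norm_of_nonneg (by linarith)]
    nlinarith [norm_nonneg (T z - T a)]
  have key := hTd b (a + s • (z - a)) hb.norm_eq hn
  rw [hT, e1, e2, norm_smul, norm_smul, hm.2 _ n1, hm'.2 _ n2, map_smul, map_smul, map_sub, map_sub,
    hξa, smul_eq_mul, smul_eq_mul] at key
  rw [map_neg] at hψa
  have h2 : (0 : ℝ) < ‖(2 : ℝ)‖ := by norm_num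
  have key2 := mul_left_cancel₀ h2.ne' key
  have key3 : s / 2 * (ψ (T z) - ψ (T a)) = s / 2 * (ξ z - -1) := by linarith
  have key4 := mul_left_cancel₀ (by linarith : s / 2 ≠ 0) key3
  linarith

include hT1 hTd in
/-- The functional of the image of the antipode of a flat point. -/
theorem flat_image_neg {b : Z} {ξ : StrongDual ℝ Z} {ρ : ℝ} (hb : Flat b ξ ρ)
    {ψ : StrongDual ℝ Y} {ρ' : ℝ} (hb' : Flat (T b) ψ ρ')
    {ψ₂ : StrongDual ℝ Y} {ρ₂ : ℝ} (hb₂ : Flat (T (-b)) ψ₂ ρ₂) : ψ₂ = -ψ := by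
  have hnb : ‖-b‖ = 1 := by rw [norm_neg]; exact hb.norm_eq
  have h1 : ‖T b + -(T (-b))‖ = 2 := by
    rw [← sub_eq_add_neg, hTd b (-b) hb.norm_eq hnb, sub_neg_eq_add, ← two_smul ℝ, norm_smul,
      hb.norm_eq]
    norm_num
  have h2 : ψ (-(T (-b))) = 1 :=
    hb'.eq_one_of_cofacial (by rw [norm_neg]; exact hT1 _ hnb) h1
  symm
  apply hb₂.unique
  · intro v
    have := hb'.le_norm (-v)
    rw [norm_neg, map_neg] at this
    exact this
  · rw [map_neg] at h2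
    exact h2

include hT1 hTd hTs in
/-- The touching lemma. -/
theorem touch_pm {b : Z} {ξ : StrongDual ℝ Z} {ρ : ℝ} (hb : Flat b ξ ρ)
    {ψ : StrongDual ℝ Y} {ρ' : ℝ} (hb' : Flat (T b) ψ ρ')
    {a z : Z} (ha : ‖a‖ = 1) (hξa : ξ a = 1 ∨ ξ a = -1) (hz : ‖z‖ = 1)
    (hseg : ∀ s : ℝ, 0 ≤ s → s ≤ 1 → ‖a + s • (z - a)‖ = 1 ∧
      T (a + s • (z - a)) = T a + s • (T z - T a)) : ψ (T z) = ξ z := by
  rcases hξa with h | h
  · have hnb := hb.neg
    obtain ⟨ψ₂, -, hb₂, -⟩ := face_linear T hT1 hTd hTs hnb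
    have h1 := flat_image_neg T hT1 hTd hb hb' hb₂
    have h2 := touch_neg T hT1 hTd hnb hb₂ ha
      (by change -(ξ a) = -1; rw [h]) hz hseg
    rw [h1] at h2
    change -(ψ (T z)) = -(ξ z) at h2
    linarith
  · exact touch_neg T hT1 hTd hb hb' ha h hz hseg

end Touch

/-- Two faces, given by their functionals, touch up to a sign. -/
def Touch (ξE ξP : StrongDual ℝ Z) : Prop :=
  ∃ a : Z, ‖a‖ = 1 ∧ ξP a = 1 ∧ (ξE a = 1 ∨ ξE a = -1)

section Abstract

variable (T : Z → Y) (hT1 : ∀ z, ‖z‖ = 1 → ‖T z‖ = 1)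
  (hTd : ∀ z w, ‖z‖ = 1 → ‖w‖ = 1 → ‖T z - T w‖ = ‖z - w‖)
  (hTs : ∀ y, ‖y‖ = 1 → ∃ z, ‖z‖ = 1 ∧ T z = y)

include hT1 hTd hTs in
/-- **Abstract extension theorem.**  If the faces of a family of flat points cover a dense subset
of the unit sphere, and the functional of each face is a linear combination of functionals of
faces touching both this face and any other prescribed face, then every surjective isometry
of the unit sphere onto the unit sphere of another space extends linearly. -/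
theorem flat_family_extension {I : Type*} [Nonempty I] (c : I → Z) (ξ : I → StrongDual ℝ Z)
    (ρ : I → ℝ) (hflat : ∀ P, Flat (c P) (ξ P) (ρ P))
    (hdense : ∀ z, ‖z‖ = 1 → ∀ δ > 0, ∃ P z', ‖z'‖ = 1 ∧ ξ P z' = 1 ∧ ‖z - z'‖ < δ)
    (hlink : ∀ E P, ξ E ∈ Submodule.span ℝ
      {χ | ∃ E', χ = ξ E' ∧ Touch (ξ E') (ξ E) ∧ Touch (ξ E') (ξ P)}) :
    ∃ Λ : Z ≃ₗᵢ[ℝ] Y, ∀ z, ‖z‖ = 1 → Λ z = T z := by
  choose ψ L hψflat hψL hLsurj hLbound hLT using
    fun P => face_linear T hT1 hTd hTs (hflat P)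
  -- step 1: touching faces
  have step1 : ∀ E P, Touch (ξ E) (ξ P) → ∀ z, ψ E (L P z) = ξ E z := by
    rintro E P ⟨a, ha, haP, haE⟩
    have hface : ∀ z, ‖z‖ = 1 → ξ P z = 1 → ψ E (L P z) = ξ E z := by
      intro z hz hzP
      rw [← hLT P z hz hzP]
      apply touch_pm T hT1 hTd hTs (hflat E) (hψflat E) ha haE hz
      intro s hs0 hs1
      have hξ : ξ P (a + s • (z - a)) = 1 := by
        rw [map_add, map_smul, map_sub, haP, hzP, sub_self, smul_zero, add_zero]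
      have hn : ‖a + s • (z - a)‖ = 1 := by
        apply le_antisymm
        · have : a + s • (z - a) = (1 - s) • a + s • z := by
            rw [smul_sub, sub_smul, one_smul]; abel
          rw [this]
          calc ‖(1 - s) • a + s • z‖ ≤ ‖(1 - s) • a‖ + ‖s • z‖ := norm_add_le _ _
            _ = 1 := by
                rw [norm_smul, norm_smul, ha, hz, Real.norm_of_nonneg hs0,
                  Real.norm_of_nonneg (by linarith)]
                ring
        · rw [← hξ]; exact (hflat P).le_norm _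
      refine ⟨hn, ?_⟩
      rw [hLT P _ hn hξ, hLT P a ha haP, hLT P z hz hzP, map_add, map_smul, map_sub]
    intro v
    have hP := hflat P
    have hc := hface (c P) hP.norm_eq hP.self_eq
    obtain ⟨v', hv'_def⟩ : ∃ v', v' = v - ξ P v • c P := ⟨_, rfl⟩
    have hξv' : ξ P v' = 0 := by
      rw [hv'_def, map_sub, map_smul, hP.self_eq, smul_eq_mul, mul_one, sub_self]
    have hv'0 : ψ E (L P v') = ξ E v' := by
      rcases eq_or_ne v' 0 with h0 | h0
      · rw [h0]; simp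
      have hpos : 0 < ‖v'‖ := norm_pos_iff.2 h0
      obtain ⟨t, ht_def⟩ : ∃ t, t = ρ P / ‖v'‖ := ⟨_, rfl⟩
      have ht : 0 < t := by rw [ht_def]; exact div_pos hP.pos hpos
      have htn : ‖t • v'‖ ≤ ρ P := by
        rw [norm_smul, Real.norm_of_nonneg ht.le, ht_def]
        apply le_of_eq
        field_simp
      have h1 : ‖c P + t • v'‖ = 1 := by
        rw [hP.2 _ htn, map_smul, hξv', smul_zero, add_zero]
      have h2 : ξ P (c P + t • v') = 1 := by
        rw [map_add, map_smul, hξv', smul_zero, add_zero, hP.self_eq]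
      have h3 := hface _ h1 h2
      rw [map_add, map_add, map_add, hc, map_smul, map_smul, map_smul, smul_eq_mul, smul_eq_mul]
        at h3
      exact mul_left_cancel₀ ht.ne' (add_left_cancel h3)
    have hv : v = v' + ξ P v • c P := by rw [hv'_def]; abel
    rw [hv, map_add, map_add, map_add, map_smul, map_smul, map_smul, hv'0, hc]
  -- step 2: all pairs of faces
  have step2 : ∀ E P, ∀ z, ψ E (L P z) = ξ E z := by
    intro E P
    have key : ∃ φ : StrongDual ℝ Y, (∀ z, φ (L E z) = ξ E z) ∧ (∀ z, φ (L P z) = ξ E z) := by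
      refine Submodule.span_induction
        (p := fun χ _ => ∃ φ : StrongDual ℝ Y, (∀ z, φ (L E z) = χ z) ∧ (∀ z, φ (L P z) = χ z))
        ?_ ?_ ?_ ?_ (hlink E P)
      · rintro χ ⟨E', rfl, h1, h2⟩
        exact ⟨ψ E', step1 E' E h1, step1 E' P h2⟩
      · exact ⟨0, fun z => rfl, fun z => rfl⟩
      · rintro χ₁ χ₂ - - ⟨φ₁, a1, b1⟩ ⟨φ₂, a2, b2⟩
        refine ⟨φ₁ + φ₂, fun z => ?_, fun z => ?_⟩
        · change φ₁ (L E z) + φ₂ (L E z) = χ₁ z + χ₂ z
          rw [a1, a2]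
        · change φ₁ (L P z) + φ₂ (L P z) = χ₁ z + χ₂ z
          rw [b1, b2]
      · rintro r χ - ⟨φ, a1, b1⟩
        refine ⟨r • φ, fun z => ?_, fun z => ?_⟩
        · change r • φ (L E z) = r • χ z
          rw [a1]
        · change r • φ (L P z) = r • χ z
          rw [b1]
    obtain ⟨φ, h1, h2⟩ := key
    have h3 : ∀ y, φ y = ψ E y := by
      intro y
      obtain ⟨z, rfl⟩ := hLsurj E y
      rw [h1, hψL]
    intro z
    rw [← h3, h2]
  -- step 3: the functionals separate the points of `Y`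
  have step3 : ∀ y : Y, (∀ E, ψ E y = 0) → y = 0 := by
    intro y hy
    by_contra hne
    have hpos : 0 < ‖y‖ := norm_pos_iff.2 hne
    have hq : ‖‖y‖⁻¹ • y‖ = 1 := by
      rw [norm_smul, norm_inv, norm_norm]
      exact inv_mul_cancel₀ hpos.ne'
    obtain ⟨z, hz, hTz⟩ := hTs _ hq
    obtain ⟨P, z', hz', hξz', hzz'⟩ := hdense z hz (1 / 2) (by norm_num)
    have h1 : ψ P (T z') = 1 := by rw [hLT P z' hz' hξz', hψL, hξz']
    have h2 : ψ P (T z' - T z) ≤ ‖T z' - T z‖ := (hψflat P).le_norm _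
    rw [hTd z' z hz' hz, norm_sub_rev, map_sub, h1, hTz, map_smul, hy P, smul_zero] at h2
    linarith
  have step4 : ∀ P Q z, L P z = L Q z := by
    intro P Q z
    apply sub_eq_zero.1
    apply step3
    intro E
    rw [map_sub, step2, step2, sub_self]
  obtain ⟨P₀⟩ := (inferInstance : Nonempty I)
  have hTΛ : ∀ z, ‖z‖ = 1 → L P₀ z = T z := by
    intro z hz
    by_contra hne
    have hpos : 0 < ‖L P₀ z - T z‖ := norm_pos_iff.2 (sub_ne_zero.2 hne)
    obtain ⟨Q, z', hz', hξz', hzz'⟩ := hdense z hz (‖L P₀ z - T z‖ / 4) (by linarith)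
    have h1 : L P₀ z' = T z' := by rw [step4 P₀ Q, hLT Q z' hz' hξz']
    have h2 : ‖L P₀ z - T z‖ ≤ ‖L P₀ (z - z')‖ + ‖T z' - T z‖ := by
      calc ‖L P₀ z - T z‖ = ‖L P₀ (z - z') + (T z' - T z)‖ := by
            rw [map_sub, h1]; congr 1; abel
        _ ≤ ‖L P₀ (z - z')‖ + ‖T z' - T z‖ := norm_add_le _ _
    have h3 := hLbound P₀ (z - z')
    rw [hTd z' z hz' hz, norm_sub_rev z' z] at h2
    linarith
  have hnorm : ∀ z, ‖L P₀ z‖ = ‖z‖ := by
    intro z
    rcases eq_or_ne z 0 with rfl | hz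
    · simp
    have hpos : 0 < ‖z‖ := norm_pos_iff.2 hz
    have hq : ‖‖z‖⁻¹ • z‖ = 1 := by
      rw [norm_smul, norm_inv, norm_norm]
      exact inv_mul_cancel₀ hpos.ne'
    have h1 : ‖L P₀ (‖z‖⁻¹ • z)‖ = 1 := by rw [hTΛ _ hq]; exact hT1 _ hq
    rw [map_smul, norm_smul, norm_inv, norm_norm] at h1
    have h2 : ‖z‖ * (‖z‖⁻¹ * ‖L P₀ z‖) = ‖z‖ * 1 := by rw [h1]
    rw [← mul_assoc, mul_inv_cancel₀ hpos.ne', one_mul, mul_one] at h2
    exact h2
  exact ⟨LinearIsometryEquiv.ofSurjective ⟨L P₀, hnorm⟩ (hLsurj P₀), fun z hz => hTΛ z hz⟩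

end Abstract

end Vale.Agent.P084
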