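import Mathlib
import Vale.Agent.P084.CombA
import Vale.Agent.P084.Touch

/-!
Combinatorial Banach spaces have the Mazur-Ulam property.
-/

namespace Vale.Agent.P084

variable {𝓕 : Set (Finset ℕ)}

theorem sum_abs_single (A : Finset ℕ) (j : ℕ) (α : ℝ) :
    ∑ i ∈ A, |(Finsupp.single j α) i| = if j ∈ A then |α| else 0 := by
  have : ∀ i ∈ A, |(Finsupp.single j α) i| = if j = i then |α| else 0 := by
    intro i _
    rw [Finsupp.single_apply]
    split_ifs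
    · rfl
    · exact abs_zero
  rw [Finset.sum_congr rfl this, Finset.sum_ite_eq]

theorem combNorm_single {j : ℕ} (hj : ∃ A ∈ 𝓕, j ∈ A) {α : ℝ} (hα : |α| = 1) :
    combNorm 𝓕 (Finsupp.single j α) = 1 := by
  obtain ⟨A, hA, hjA⟩ := hj
  apply le_antisymm
  · apply combNorm_le ⟨A, hA⟩
    intro B _
    rw [sum_abs_single]
    split_ifs
    · exact hα.le
    · exact zero_le_one
  · have := le_combNorm (Finsupp.single j α) hA
    rwa [sum_abs_single, if_pos hjA, hα] at this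

theorem combNorm_pair {j l : ℕ} (hj : ∃ A ∈ 𝓕, j ∈ A)
    (hjl : ∀ A ∈ 𝓕, j ∈ A → l ∈ A → False) {α β : ℝ} (hα : |α| = 1) (hβ : |β| = 1) :
    combNorm 𝓕 (Finsupp.single j α + Finsupp.single l β) = 1 := by
  obtain ⟨A, hA, hjA⟩ := hj
  have hle : ∀ B : Finset ℕ, ∑ i ∈ B, |(Finsupp.single j α + Finsupp.single l β) i|
      ≤ (if j ∈ B then |α| else 0) + (if l ∈ B then |β| else 0) := by
    intro B
    rw [← sum_abs_single, ← sum_abs_single, ← Finset.sum_add_distrib]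
    apply Finset.sum_le_sum
    intro i _
    rw [Finsupp.add_apply]
    exact abs_add_le _ _
  apply le_antisymm
  · apply combNorm_le ⟨A, hA⟩
    intro B hB
    refine le_trans (hle B) ?_
    by_cases h1 : j ∈ B
    · have h2 : l ∉ B := fun h => hjl B hB h1 h
      rw [if_pos h1, if_neg h2, hα, add_zero]
    · rw [if_neg h1, zero_add]
      split_ifs
      · exact hβ.le
      · exact zero_le_one
  · have h1 := le_combNorm (Finsupp.single j α + Finsupp.single l β) hA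
    have hlA : l ∉ A := fun h => hjl A hA hjA h
    have h2 : ∑ i ∈ A, |(Finsupp.single j α + Finsupp.single l β) i|
        = ∑ i ∈ A, |(Finsupp.single j α) i| := by
      apply Finset.sum_congr rfl
      intro i hi
      have : l ≠ i := fun h => hlA (h ▸ hi)
      rw [Finsupp.add_apply, Finsupp.single_apply (a := l), if_neg this, add_zero]
    rw [h2, sum_abs_single, if_pos hjA, hα] at h1
    exact h1

variable {Z Y : Type*} [NormedAddCommGroup Z] [NormedSpace ℝ Z]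
  [NormedAddCommGroup Y] [NormedSpace ℝ Y]

/-- Flatness can be checked on a dense subspace. -/
theorem flat_of_dense {V : Type*} [AddCommGroup V] [Module ℝ V] (ι : V →ₗ[ℝ] Z)
    (hι : DenseRange ι) (c : Z) (ξ : StrongDual ℝ Z) {ρ : ℝ} (hρ : 0 < ρ)
    (h : ∀ x, ‖ι x‖ ≤ ρ → ‖c + ι x‖ = 1 + ξ (ι x)) : Flat c ξ (ρ / 2) := by
  refine ⟨by linarith, fun v hv => ?_⟩
  by_contra hne
  have hpos : 0 < |‖c + v‖ - (1 + ξ v)| := abs_pos.2 (sub_ne_zero.2 hne)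
  obtain ⟨d, hd_def⟩ : ∃ d, d = |‖c + v‖ - (1 + ξ v)| := ⟨_, rfl⟩
  rw [← hd_def] at hpos
  have hM : 0 < 1 + ‖ξ‖ := by positivity
  obtain ⟨x, hx⟩ := hι.exists_dist_lt v (lt_min (by linarith : 0 < ρ / 2)
    (by positivity : 0 < d / (2 * (1 + ‖ξ‖))))
  rw [dist_eq_norm] at hx
  have hx1 : ‖v - ι x‖ < ρ / 2 := lt_of_lt_of_le hx (min_le_left _ _)
  have hx2 : ‖v - ι x‖ < d / (2 * (1 + ‖ξ‖)) := lt_of_lt_of_le hx (min_le_right _ _)
  have hxn : ‖ι x‖ ≤ ρ := by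
    have : ‖ι x‖ ≤ ‖v‖ + ‖v - ι x‖ := by
      calc ‖ι x‖ = ‖v - (v - ι x)‖ := by rw [sub_sub_cancel]
        _ ≤ ‖v‖ + ‖v - ι x‖ := norm_sub_le _ _
    linarith
  have e1 := h x hxn
  have e2 : |‖c + v‖ - ‖c + ι x‖| ≤ ‖v - ι x‖ := by
    have := abs_norm_sub_norm_le (c + v) (c + ι x)
    rwa [add_sub_add_left_eq_sub] at this
  have e3 : |ξ v - ξ (ι x)| ≤ ‖ξ‖ * ‖v - ι x‖ := by
    rw [← map_sub]
    exact ξ.le_opNorm _
  have e4 : d ≤ (1 + ‖ξ‖) * ‖v - ι x‖ := by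
    rw [hd_def]
    have : ‖c + v‖ - (1 + ξ v) = (‖c + v‖ - ‖c + ι x‖) - (ξ v - ξ (ι x)) := by rw [e1]; ring
    rw [this]
    calc |(‖c + v‖ - ‖c + ι x‖) - (ξ v - ξ (ι x))|
        ≤ |‖c + v‖ - ‖c + ι x‖| + |ξ v - ξ (ι x)| := abs_sub _ _
      _ ≤ (1 + ‖ξ‖) * ‖v - ι x‖ := by linarith
  have e5 : (1 + ‖ξ‖) * ‖v - ι x‖ < (1 + ‖ξ‖) * (d / (2 * (1 + ‖ξ‖))) := by gcongr
  have e6 : (1 + ‖ξ‖) * (d / (2 * (1 + ‖ξ‖))) = d / 2 := by field_simp
  linarith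

/-- Coordinate functionals. -/
theorem exists_coord (hcov : ∀ i, ∃ A ∈ 𝓕, i ∈ A) (ι : (ℕ →₀ ℝ) →ₗ[ℝ] Z)
    (hn : ∀ x, ‖ι x‖ = combNorm 𝓕 x) (i : ℕ) : ∃ φ : StrongDual ℝ Z, ∀ x, φ (ι x) = x i := by
  have habs : ∀ (x : ℕ →₀ ℝ) (j : ℕ), |x j| ≤ combNorm 𝓕 x := by
    intro x j
    obtain ⟨A, hA, hjA⟩ := hcov j
    exact abs_le_combNorm x hA hjA
  have hinj : Function.Injective ι := by
    rw [injective_iff_map_eq_zero]
    intro x hx
    ext j
    have h1 := habs x j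
    rw [← hn, hx, norm_zero] at h1
    exact abs_eq_zero.1 (le_antisymm h1 (abs_nonneg _))
  let E := LinearEquiv.ofInjective ι hinj
  let φ₀ : (LinearMap.range ι) →ₗ[ℝ] ℝ := (Finsupp.lapply i) ∘ₗ E.symm.toLinearMap
  have hφ₀ : ∀ x, φ₀ ⟨ι x, LinearMap.mem_range_self ι x⟩ = x i := by
    intro x
    have : E.symm ⟨ι x, LinearMap.mem_range_self ι x⟩ = x := by
      rw [LinearEquiv.symm_apply_eq]
      rfl
    change (E.symm ⟨ι x, LinearMap.mem_range_self ι x⟩) i = x i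
    rw [this]
  have hbound : ∀ r : LinearMap.range ι, ‖φ₀ r‖ ≤ 1 * ‖r‖ := by
    rintro ⟨_, x, rfl⟩
    rw [hφ₀, one_mul, Real.norm_eq_abs]
    change |x i| ≤ ‖ι x‖
    rw [hn]
    exact habs x i
  obtain ⟨φ, hφ, -⟩ := exists_extension_norm_eq (LinearMap.range ι) (φ₀.mkContinuous 1 hbound)
  refine ⟨φ, fun x => ?_⟩
  have := hφ ⟨ι x, LinearMap.mem_range_self ι x⟩
  rw [LinearMap.mkContinuous_apply, hφ₀] at this
  exact this

end Vale.Agent.P084
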