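import Mathlib
import Vale.Agent.P084.CombB

/-!
Combinatorial Banach spaces have the Mazur-Ulam property: the main theorem.
-/

namespace Vale.Agent.P084

variable {𝓕 : Set (Finset ℕ)}

variable {Z Y : Type*} [NormedAddCommGroup Z] [NormedSpace ℝ Z]
  [NormedAddCommGroup Y] [NormedSpace ℝ Y]

/-- From maps defined on the whole space to maps between the spheres. -/
theorem sphere_form
    (h : ∀ T : Z → Y, (∀ z, ‖z‖ = 1 → ‖T z‖ = 1) →
      (∀ z w, ‖z‖ = 1 → ‖w‖ = 1 → ‖T z - T w‖ = ‖z - w‖) →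
      (∀ y, ‖y‖ = 1 → ∃ z, ‖z‖ = 1 ∧ T z = y) → ∃ Λ : Z ≃ₗᵢ[ℝ] Y, ∀ z, ‖z‖ = 1 → Λ z = T z)
    (f : Metric.sphere (0 : Z) 1 → Metric.sphere (0 : Y) 1) (hf : Isometry f)
    (hs : Function.Surjective f) :
    ∃ Λ : Z ≃ₗᵢ[ℝ] Y, ∀ z : Metric.sphere (0 : Z) 1, Λ z = f z := by
  classical
  let T : Z → Y := fun z =>
    if h : ‖z‖ = 1 then (f ⟨z, mem_sphere_zero_iff_norm.2 h⟩ : Y) else 0
  have hT : ∀ (z : Z) (h : ‖z‖ = 1), T z = f ⟨z, mem_sphere_zero_iff_norm.2 h⟩ := by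
    intro z h
    simp only [T, dif_pos h]
  obtain ⟨Λ, hΛ⟩ := h T
    (fun z hz => by
      rw [hT z hz]
      exact mem_sphere_zero_iff_norm.1 (f _).2)
    (fun z w hz hw => by
      rw [hT z hz, hT w hw, ← dist_eq_norm, ← dist_eq_norm, ← Subtype.dist_eq, hf.dist_eq,
        Subtype.dist_eq])
    (fun y hy => by
      obtain ⟨z, hz⟩ := hs ⟨y, mem_sphere_zero_iff_norm.2 hy⟩
      refine ⟨z, mem_sphere_zero_iff_norm.1 z.2, ?_⟩
      rw [hT z (mem_sphere_zero_iff_norm.1 z.2)]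
      have : (⟨(z : Z), mem_sphere_zero_iff_norm.2 (mem_sphere_zero_iff_norm.1 z.2)⟩ :
          Metric.sphere (0 : Z) 1) = z := Subtype.ext rfl
      rw [this, hz])
  refine ⟨Λ, fun z => ?_⟩
  rw [hΛ z (mem_sphere_zero_iff_norm.1 z.2), hT z (mem_sphere_zero_iff_norm.1 z.2)]

/-- **Main theorem, function form.** -/
theorem comb_extension (hcov : ∀ i, ∃ A ∈ 𝓕, i ∈ A)
    (hmax : ∀ A ∈ 𝓕, ∃ F ∈ 𝓕, A ⊆ F ∧ ∀ G ∈ 𝓕, F ⊆ G → G = F)
    (ι : (ℕ →₀ ℝ) →ₗ[ℝ] Z) (hι : DenseRange ι) (hn : ∀ x, ‖ι x‖ = combNorm 𝓕 x)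
    (T : Z → Y) (hT1 : ∀ z, ‖z‖ = 1 → ‖T z‖ = 1)
    (hTd : ∀ z w, ‖z‖ = 1 → ‖w‖ = 1 → ‖T z - T w‖ = ‖z - w‖)
    (hTs : ∀ y, ‖y‖ = 1 → ∃ z, ‖z‖ = 1 ∧ T z = y) :
    ∃ Λ : Z ≃ₗᵢ[ℝ] Y, ∀ z, ‖z‖ = 1 → Λ z = T z := by
  classical
  choose e he using exists_coord hcov ι hn
  have hne : 𝓕.Nonempty := by
    obtain ⟨A, hA, -⟩ := hcov 0
    exact ⟨A, hA⟩
  -- every index lies in a maximal set
  have hcovmax : ∀ i, ∃ F ∈ 𝓕, i ∈ F ∧ ∀ G ∈ 𝓕, F ⊆ G → G = F := by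
    intro i
    obtain ⟨A, hA, hiA⟩ := hcov i
    obtain ⟨F, hF, hAF, hFm⟩ := hmax A hA
    exact ⟨F, hF, hAF hiA, hFm⟩
  let I := {P : Finset ℕ × (ℕ → ℝ) // P.1 ∈ 𝓕 ∧ (∀ G ∈ 𝓕, P.1 ⊆ G → G = P.1) ∧
    ∀ i, P.2 i = 1 ∨ P.2 i = -1}
  have hInonempty : Nonempty I := by
    obtain ⟨F, hF, -, hFm⟩ := hcovmax 0
    exact ⟨⟨(F, fun _ => 1), hF, hFm, fun _ => Or.inl rfl⟩⟩
  have hFne : ∀ P : I, P.1.1.Nonempty := by
    intro P
    by_contra hemp
    rw [Finset.not_nonempty_iff_eq_empty] at hemp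
    obtain ⟨A, hA, h0A⟩ := hcov 0
    have := P.2.2.1 A hA (by rw [hemp]; exact Finset.empty_subset _)
    rw [this, hemp] at h0A
    exact absurd h0A (Finset.notMem_empty 0)
  let ξ : I → StrongDual ℝ Z := fun P => ∑ i ∈ P.1.1, P.1.2 i • e i
  have hξ : ∀ (P : I) (x : ℕ →₀ ℝ), ξ P (ι x) = ∑ i ∈ P.1.1, P.1.2 i * x i := by
    intro P x
    simp only [ξ, sum_apply, smul_apply, he, smul_eq_mul]
  have hsq : ∀ (P : I) i, P.1.2 i * P.1.2 i = 1 := by
    intro P i; rcases P.2.2.2 i with h | h <;> rw [h] <;> norm_num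
  have habs : ∀ (P : I) i, |P.1.2 i| = 1 := by
    intro P i; rcases P.2.2.2 i with h | h <;> rw [h] <;> norm_num
  have hξsingle : ∀ (P : I) (j : ℕ) (α : ℝ),
      ξ P (ι (Finsupp.single j α)) = if j ∈ P.1.1 then P.1.2 j * α else 0 := by
    intro P j α
    rw [hξ]
    have : ∀ i ∈ P.1.1, P.1.2 i * (Finsupp.single j α) i = if j = i then P.1.2 i * α else 0 := by
      intro i _
      rw [Finsupp.single_apply]
      split_ifs
      · rfl
      · exact mul_zero _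
    rw [Finset.sum_congr rfl this, Finset.sum_ite_eq]
  refine flat_family_extension T hT1 hTd hTs (fun P : I => ι (combCenter P.1.1 P.1.2)) ξ
    (fun P => 1 / (2 * P.1.1.card) / 2) ?_ ?_ ?_
  · -- flatness
    intro P
    have hcard : (0 : ℝ) < P.1.1.card := by exact_mod_cast Finset.card_pos.2 (hFne P)
    apply flat_of_dense ι hι _ _ (by positivity)
    intro x hx
    rw [hn] at hx
    rw [← map_add, hn, hξ]
    exact comb_flat_c00 P.2.1 P.2.2.1 (hFne P) P.2.2.2 x hx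
  · -- density
    intro z hz δ hδ
    obtain ⟨x, hx⟩ := hι.exists_dist_lt z (lt_min (by linarith : 0 < δ / 3) (by norm_num : (0:ℝ) < 1 / 2))
    rw [dist_eq_norm, norm_sub_rev] at hx
    have hx1 : ‖ι x - z‖ ≤ min (δ / 3) (1 / 2) := hx.le
    obtain ⟨hpos, hq, -, hqz⟩ := normalize_near hz hx1
      (lt_of_le_of_lt (min_le_right _ _) (by norm_num))
    obtain ⟨x', hx'_def⟩ : ∃ x', x' = ‖ι x‖⁻¹ • x := ⟨_, rfl⟩
    have hιx' : ι x' = ‖ι x‖⁻¹ • ι x := by rw [hx'_def, map_smul]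
    rw [← hιx'] at hq hqz
    obtain ⟨A, hA, hAeq⟩ := combNorm_attained hne x'
    obtain ⟨F, hF, hAF, hFm⟩ := hmax A hA
    rw [← hn, hq] at hAeq
    have hFsum : ∑ i ∈ F, |x' i| = 1 := by
      apply le_antisymm
      · rw [← hq, hn]; exact le_combNorm x' hF
      · rw [← hAeq]
        exact Finset.sum_le_sum_of_subset_of_nonneg hAF (fun _ _ _ => abs_nonneg _)
    refine ⟨⟨(F, fun i => if 0 ≤ x' i then 1 else -1), hF, hFm, fun i => ?_⟩, ι x', hq, ?_, ?_⟩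
    · change (if 0 ≤ x' i then (1 : ℝ) else -1) = 1 ∨ (if 0 ≤ x' i then (1 : ℝ) else -1) = -1
      split_ifs
      · exact Or.inl rfl
      · exact Or.inr rfl
    · rw [hξ]
      refine Eq.trans ?_ hFsum
      apply Finset.sum_congr rfl
      intro i _
      change (if 0 ≤ x' i then (1 : ℝ) else -1) * x' i = |x' i|
      split_ifs with h
      · rw [one_mul, abs_of_nonneg h]
      · rw [abs_of_neg (not_le.1 h)]; ring
    · rw [norm_sub_rev]
      have := min_le_left (δ / 3) (1 / 2 : ℝ)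
      linarith
  · -- linking
    intro E P
    apply Submodule.sum_mem
    intro l hl
    -- the choice of a maximal set containing `l`
    obtain ⟨G, hG, hlG, hGm, hGP⟩ : ∃ G ∈ 𝓕, l ∈ G ∧ (∀ G' ∈ 𝓕, G ⊆ G' → G' = G) ∧
        ((∃ j, j ∈ G ∧ j ∈ P.1.1) ∨ ∀ A ∈ 𝓕, l ∈ A → ∀ j ∈ P.1.1, j ∉ A) := by
      by_cases hcase : ∃ A ∈ 𝓕, l ∈ A ∧ ∃ j ∈ P.1.1, j ∈ A
      · obtain ⟨A, hA, hlA, j, hjP, hjA⟩ := hcase
        obtain ⟨G, hG, hAG, hGm⟩ := hmax A hA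
        exact ⟨G, hG, hAG hlA, hGm, Or.inl ⟨j, hAG hjA, hjP⟩⟩
      · obtain ⟨G, hG, hlG, hGm⟩ := hcovmax l
        refine ⟨G, hG, hlG, hGm, Or.inr ?_⟩
        intro A hA hlA j hjP hjA
        exact hcase ⟨A, hA, hlA, j, hjP, hjA⟩
    -- the touching property for arbitrary signs on `G`
    have htouch : ∀ θ : ℕ → ℝ, ∀ hθ : (∀ i, θ i = 1 ∨ θ i = -1),
        Touch (ξ ⟨(G, θ), hG, hGm, hθ⟩) (ξ E) ∧ Touch (ξ ⟨(G, θ), hG, hGm, hθ⟩) (ξ P) := by
      intro θ hθ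
      have hprod : ∀ (Q : I) i, θ i * Q.1.2 i = 1 ∨ θ i * Q.1.2 i = -1 := by
        intro Q i
        rcases hθ i with h1 | h1 <;> rcases Q.2.2.2 i with h2 | h2 <;> rw [h1, h2] <;> norm_num
      constructor
      · refine ⟨ι (Finsupp.single l (E.1.2 l)), ?_, ?_, ?_⟩
        · rw [hn]; exact combNorm_single (hcov l) (habs E l)
        · rw [hξsingle, if_pos hl, hsq]
        · rw [hξsingle, if_pos hlG]
          exact hprod E l
      · rcases hGP with ⟨j, hjG, hjP⟩ | hsep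
        · refine ⟨ι (Finsupp.single j (P.1.2 j)), ?_, ?_, ?_⟩
          · rw [hn]; exact combNorm_single (hcov j) (habs P j)
          · rw [hξsingle, if_pos hjP, hsq]
          · rw [hξsingle, if_pos hjG]
            exact hprod P j
        · obtain ⟨j, hjP⟩ := hFne P
          have hθabs : |θ l| = 1 := by rcases hθ l with h | h <;> rw [h] <;> norm_num
          have hθsq : θ l * θ l = 1 := by rcases hθ l with h | h <;> rw [h] <;> norm_num
          have hlP : l ∉ P.1.1 := fun h => hsep P.1.1 P.2.1 h l h h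
          have hjG : j ∉ G := hsep G hG hlG j hjP
          refine ⟨ι (Finsupp.single j (P.1.2 j) + Finsupp.single l (θ l)), ?_, ?_, ?_⟩
          · rw [hn]
            exact combNorm_pair (hcov j) (fun A hA hjA hlA => hsep A hA hlA j hjP hjA) (habs P j)
              hθabs
          · rw [map_add, map_add, hξsingle, hξsingle, if_pos hjP, if_neg hlP, hsq, add_zero]
          · left
            rw [map_add, map_add, hξsingle, hξsingle, if_neg hjG, if_pos hlG, zero_add]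
            exact hθsq
    -- the two sign patterns
    have hθ₁ : ∀ i, E.1.2 i = 1 ∨ E.1.2 i = -1 := E.2.2.2
    have hθ₂ : ∀ i, Function.update E.1.2 l (-(E.1.2 l)) i = 1 ∨
        Function.update E.1.2 l (-(E.1.2 l)) i = -1 := by
      intro i
      by_cases hi : i = l
      · rw [hi, Function.update_self]
        rcases E.2.2.2 l with h | h <;> rw [h] <;> norm_num
      · rw [Function.update_of_ne hi]
        exact E.2.2.2 i
    have hdecomp : E.1.2 l • e l = (1 / 2 : ℝ) • ξ ⟨(G, E.1.2), hG, hGm, hθ₁⟩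
        - (1 / 2 : ℝ) • ξ ⟨(G, Function.update E.1.2 l (-(E.1.2 l))), hG, hGm, hθ₂⟩ := by
      have h1 : ξ ⟨(G, E.1.2), hG, hGm, hθ₁⟩
          - ξ ⟨(G, Function.update E.1.2 l (-(E.1.2 l))), hG, hGm, hθ₂⟩
          = (2 : ℝ) • (E.1.2 l • e l) := by
        change ∑ i ∈ G, E.1.2 i • e i - ∑ i ∈ G, Function.update E.1.2 l (-(E.1.2 l)) i • e i = _
        rw [← Finset.sum_sub_distrib]
        have : ∀ i ∈ G, E.1.2 i • e i - Function.update E.1.2 l (-(E.1.2 l)) i • e i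
            = if l = i then (2 : ℝ) • (E.1.2 i • e i) else 0 := by
          intro i _
          split_ifs with h
          · rw [← h, Function.update_self]; module
          · rw [Function.update_of_ne (Ne.symm h), sub_self]
        rw [Finset.sum_congr rfl this, Finset.sum_ite_eq, if_pos hlG]
      have h2 : ξ ⟨(G, E.1.2), hG, hGm, hθ₁⟩
          = ξ ⟨(G, Function.update E.1.2 l (-(E.1.2 l))), hG, hGm, hθ₂⟩
            + (2 : ℝ) • (E.1.2 l • e l) := by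
        rw [← h1]; abel
      rw [h2]; module
    rw [hdecomp]
    apply Submodule.sub_mem
    · apply Submodule.smul_mem
      apply Submodule.subset_span
      exact ⟨_, rfl, (htouch _ hθ₁).1, (htouch _ hθ₁).2⟩
    · apply Submodule.smul_mem
      apply Submodule.subset_span
      exact ⟨_, rfl, (htouch _ hθ₂).1, (htouch _ hθ₂).2⟩

/-- **Main theorem.**  Combinatorial Banach spaces have the Mazur-Ulam property. -/
theorem comb_mup (hcov : ∀ i, ∃ A ∈ 𝓕, i ∈ A)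
    (hmax : ∀ A ∈ 𝓕, ∃ F ∈ 𝓕, A ⊆ F ∧ ∀ G ∈ 𝓕, F ⊆ G → G = F)
    (ι : (ℕ →₀ ℝ) →ₗ[ℝ] Z) (hι : DenseRange ι) (hn : ∀ x, ‖ι x‖ = combNorm 𝓕 x)
    (f : Metric.sphere (0 : Z) 1 → Metric.sphere (0 : Y) 1) (hf : Isometry f)
    (hs : Function.Surjective f) :
    ∃ Λ : Z ≃ₗᵢ[ℝ] Y, ∀ z : Metric.sphere (0 : Z) 1, Λ z = f z :=
  sphere_form (fun T hT1 hTd hTs => comb_extension hcov hmax ι hι hn T hT1 hTd hTs) f hf hs

end Vale.Agent.P084
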