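import Mathlib
import Vale.Agent.P084.CombA

/-!
Existence of the combinatorial Banach space of a family of finite sets, and the fact that in a
compact family every member is contained in a maximal member.
-/

namespace Vale.Agent.P084

open scoped ENNReal

theorem comb_exists (𝓕 : Set (Finset ℕ)) :
    ∃ (Z : Type) (_ : NormedAddCommGroup Z) (_ : NormedSpace ℝ Z) (_ : CompleteSpace Z)
      (ι : (ℕ →₀ ℝ) →ₗ[ℝ] Z), DenseRange ι ∧ ∀ x, ‖ι x‖ = combNorm 𝓕 x := by
  let E : 𝓕 → Type := fun F => PiLp 1 (fun _ : F.1 => ℝ)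
  have hterm : ∀ (x : ℕ →₀ ℝ) (F : 𝓕),
      ‖(WithLp.toLp 1 (fun i : F.1 => x i) : E F)‖ = ∑ i ∈ F.1, |x i| := by
    intro x F
    rw [PiLp.norm_eq_sum (by norm_num)]
    simp only [ENNReal.toReal_one, Real.rpow_one, ne_eq, one_ne_zero, not_false_eq_true, div_self]
    exact Finset.sum_coe_sort F.1 (fun i => |x i|)
  have hmem : ∀ x : ℕ →₀ ℝ,
      Memℓp (fun F : 𝓕 => (WithLp.toLp 1 (fun i : F.1 => x i) : E F)) ∞ := by
    intro x
    apply memℓp_infty
    have := comb_bdd (𝓕 := 𝓕) x
    simpa only [hterm] using this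
  let J : (ℕ →₀ ℝ) →ₗ[ℝ] lp E ∞ :=
    { toFun := fun x => ⟨fun F => WithLp.toLp 1 (fun i : F.1 => x i), hmem x⟩
      map_add' := fun x y => by
        apply Subtype.ext
        funext F
        rfl
      map_smul' := fun c x => by
        apply Subtype.ext
        funext F
        rfl }
  have hJ : ∀ x, ‖J x‖ = combNorm 𝓕 x := by
    intro x
    rw [lp.norm_eq_ciSup]
    unfold combNorm
    apply iSup_congr
    intro F
    exact hterm x F
  refine ⟨UniformSpace.Completion (LinearMap.range J), inferInstance, inferInstance, inferInstance,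
    (UniformSpace.Completion.toComplₗᵢ (𝕜 := ℝ) (E := LinearMap.range J)).toLinearMap ∘ₗ
      J.rangeRestrict, ?_, ?_⟩
  · have h1 : DenseRange ((↑) : LinearMap.range J → UniformSpace.Completion (LinearMap.range J)) :=
      UniformSpace.Completion.denseRange_coe
    have h2 : Function.Surjective J.rangeRestrict := LinearMap.surjective_rangeRestrict J
    exact h1.comp h2.denseRange (UniformSpace.Completion.continuous_coe _)
  · intro x
    change ‖((J.rangeRestrict x : LinearMap.range J) :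
      UniformSpace.Completion (LinearMap.range J))‖ = _
    rw [UniformSpace.Completion.norm_coe, ← hJ x]
    rfl

/-- In a family of finite sets whose set of indicator functions is closed in `ℕ → Bool`,
every member is contained in a maximal member. -/
theorem max_of_closed (𝓕 : Set (Finset ℕ))
    (hcl : IsClosed ((fun (F : Finset ℕ) (i : ℕ) => decide (i ∈ F)) '' 𝓕)) :
    ∀ A ∈ 𝓕, ∃ F ∈ 𝓕, A ⊆ F ∧ ∀ G ∈ 𝓕, F ⊆ G → G = F := by
  classical
  intro A hA
  by_contra hno
  push Not at hno
  -- a strictly increasing step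
  have hstep : ∀ F : {F : Finset ℕ // F ∈ 𝓕 ∧ A ⊆ F},
      ∃ G : {F : Finset ℕ // F ∈ 𝓕 ∧ A ⊆ F}, F.1 ⊂ G.1 := by
    intro F
    obtain ⟨G, hG, hFG, hne⟩ := hno F.1 F.2.1 F.2.2
    exact ⟨⟨G, hG, F.2.2.trans hFG⟩, Finset.ssubset_iff_subset_ne.2 ⟨hFG, fun h => hne h.symm⟩⟩
  choose step hstep' using hstep
  let C : ℕ → {F : Finset ℕ // F ∈ 𝓕 ∧ A ⊆ F} := fun n => Nat.rec ⟨A, hA, subset_rfl⟩
    (fun _ F => step F) n
  have hCsucc : ∀ n, (C n).1 ⊂ (C (n + 1)).1 := fun n => hstep' (C n)
  have hCmono : ∀ n m, n ≤ m → (C n).1 ⊆ (C m).1 := by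
    intro n m hnm
    induction hnm with
    | refl => exact subset_rfl
    | step _ ih => exact ih.trans (hCsucc _).1
  have hCcard : ∀ n, n ≤ (C n).1.card := by
    intro n
    induction n with
    | zero => exact Nat.zero_le _
    | succ n ih =>
      have := Finset.card_lt_card (hCsucc n)
      omega
  have hlim : Filter.Tendsto (fun n => (fun (i : ℕ) => decide (i ∈ (C n).1))) Filter.atTop
      (nhds (fun i => decide (∃ n, i ∈ (C n).1))) := by
    rw [tendsto_pi_nhds]
    intro i
    apply tendsto_const_nhds.congr'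
    by_cases hi : ∃ n, i ∈ (C n).1
    · obtain ⟨n₀, hn₀⟩ := hi
      filter_upwards [Filter.eventually_ge_atTop n₀] with n hn
      have h1 : i ∈ (C n).1 := hCmono n₀ n hn hn₀
      have h2 : ∃ n, i ∈ (C n).1 := ⟨n₀, hn₀⟩
      simp [h1, h2]
    · filter_upwards with n
      have h1 : i ∉ (C n).1 := fun h => hi ⟨n, h⟩
      simp [h1, hi]
  have hmem := hcl.mem_of_tendsto hlim
    (Filter.Eventually.of_forall fun n => ⟨(C n).1, (C n).2.1, rfl⟩)
  obtain ⟨F, -, hFeq⟩ := hmem
  have hsub : ∀ n, (C n).1 ⊆ F := by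
    intro n i hi
    have := congrFun hFeq i
    have h2 : ∃ n, i ∈ (C n).1 := ⟨n, hi⟩
    simpa [h2] using this
  have h1 := Finset.card_le_card (hsub (F.card + 1))
  have h2 := hCcard (F.card + 1)
  omega

end Vale.Agent.P084
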