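import Mathlib

/-!
The norms of the convexified combinatorial Banach spaces, and the Schreier families of all orders.
-/

namespace Vale.Agent.P084

/-- The `p`-convexified combinatorial norm given by a family `𝓕` of finite subsets of `ℕ`, on
finitely supported sequences: the supremum over `F ∈ 𝓕` of `(∑ i ∈ F, |x i| ^ p) ^ (1 / p)`. -/
noncomputable def combNormP (𝓕 : Set (Finset ℕ)) (p : ℝ) (x : ℕ →₀ ℝ) : ℝ :=
  ⨆ F : 𝓕, (∑ i ∈ F.1, |x i| ^ p) ^ (1 / p)

/-- The Schreier families of all countable orders.  The index `i : ℕ` stands for the positive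
integer `i + 1`.
* order zero: the sets with at most one element;
* successor step: the unions of `n` successive members `E 0 < E 1 < ...` of the previous family
  with `n ≤ min` of the union;
* limit step: for a sequence of earlier families `𝓖 0, 𝓖 1, ...` the sets `F` which belong to
  `𝓖 n` for some `n` with `n + 1 ≤ min F`. -/
inductive IsSchreierFamily : Set (Finset ℕ) → Prop
  | zero : IsSchreierFamily {F | F.card ≤ 1}
  | succ (𝓖 : Set (Finset ℕ)) (h : IsSchreierFamily 𝓖) :
      IsSchreierFamily {F | ∃ (n : ℕ) (E : Fin n → Finset ℕ), (∀ j, E j ∈ 𝓖) ∧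
        (∀ j j', j < j' → ∀ a ∈ E j, ∀ b ∈ E j', a < b) ∧ (∀ j, ∀ i ∈ E j, n ≤ i + 1) ∧
        F = Finset.univ.biUnion E}
  | limit (𝓖 : ℕ → Set (Finset ℕ)) (h : ∀ n, IsSchreierFamily (𝓖 n)) :
      IsSchreierFamily {F | ∃ n, F ∈ 𝓖 n ∧ ∀ i ∈ F, n ≤ i}

end Vale.Agent.P084
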