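import Mathlib
import Vale.Agent.P084.CombPDef
import Vale.Agent.P084.Summand

/-!
Convexified combinatorial spaces of families with an isolated singleton have the Mazur-Ulam
property: the corresponding coordinate spans a one-dimensional M-summand.
-/

namespace Vale.Agent.P084

variable {𝓕 : Set (Finset ℕ)}

theorem combP_bdd (p : ℝ) (hp : 0 < p) (x : ℕ →₀ ℝ) :
    BddAbove (Set.range fun F : 𝓕 => (∑ i ∈ F.1, |x i| ^ p) ^ (1 / p)) := by
  refine ⟨(∑ i ∈ x.support, |x i| ^ p) ^ (1 / p), ?_⟩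
  rintro _ ⟨F, rfl⟩
  have hnn : ∀ i, 0 ≤ |x i| ^ p := fun i => Real.rpow_nonneg (abs_nonneg _) _
  apply Real.rpow_le_rpow (Finset.sum_nonneg fun i _ => hnn i) _ (by positivity)
  have h1 : ∑ i ∈ F.1, |x i| ^ p = ∑ i ∈ F.1.filter (fun i => i ∈ x.support), |x i| ^ p := by
    rw [Finset.sum_filter]
    apply Finset.sum_congr rfl
    intro i _
    split_ifs with h
    · rfl
    · rw [Finsupp.notMem_support_iff.1 h, abs_zero, Real.zero_rpow hp.ne']
  rw [h1]
  apply Finset.sum_le_sum_of_subset_of_nonneg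
  · intro i hi
    exact (Finset.mem_filter.1 hi).2
  · intro i _ _
    exact hnn i

theorem abs_le_combNormP (hcov : ∀ i, ∃ A ∈ 𝓕, i ∈ A) (p : ℝ) (hp : 0 < p) (x : ℕ →₀ ℝ)
    (i : ℕ) : |x i| ≤ combNormP 𝓕 p x := by
  obtain ⟨A, hA, hi⟩ := hcov i
  have h1 := le_ciSup (combP_bdd (𝓕 := 𝓕) p hp x) ⟨A, hA⟩
  refine le_trans ?_ h1
  have hnn : ∀ j, 0 ≤ |x j| ^ p := fun j => Real.rpow_nonneg (abs_nonneg _) _
  have h2 : |x i| ^ p ≤ ∑ j ∈ A, |x j| ^ p :=
    Finset.single_le_sum (f := fun j => |x j| ^ p) (fun j _ => hnn j) hi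
  calc |x i| = (|x i| ^ p) ^ (1 / p) := by
        rw [one_div, Real.rpow_rpow_inv (abs_nonneg _) hp.ne']
    _ ≤ (∑ j ∈ A, |x j| ^ p) ^ (1 / p) := Real.rpow_le_rpow (hnn i) h2 (by positivity)

/-- The isolated coordinate splits off as an M-summand. -/
theorem combNormP_split (hcov : ∀ i, ∃ A ∈ 𝓕, i ∈ A) (i₀ : ℕ)
    (hiso : ∀ F ∈ 𝓕, i₀ ∈ F → F = {i₀}) (p : ℝ) (hp : 0 < p) (x : ℕ →₀ ℝ) :
    combNormP 𝓕 p x = max (combNormP 𝓕 p (x.erase i₀)) |x i₀| := by
  have hnn : ∀ (y : ℕ →₀ ℝ) i, 0 ≤ |y i| ^ p := fun y i => Real.rpow_nonneg (abs_nonneg _) _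
  have : Nonempty 𝓕 := by
    obtain ⟨A, hA, -⟩ := hcov 0
    exact ⟨⟨A, hA⟩⟩
  apply le_antisymm
  · apply ciSup_le
    intro F
    by_cases h0 : i₀ ∈ F.1
    · have hF := hiso F.1 F.2 h0
      rw [hF, Finset.sum_singleton, one_div, Real.rpow_rpow_inv (abs_nonneg _) hp.ne']
      exact le_max_right _ _
    · refine le_trans ?_ (le_max_left _ _)
      have h1 : ∑ i ∈ F.1, |x i| ^ p = ∑ i ∈ F.1, |(x.erase i₀) i| ^ p := by
        apply Finset.sum_congr rfl
        intro i hi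
        have : i ≠ i₀ := fun h => h0 (h ▸ hi)
        rw [Finsupp.erase_ne this]
      rw [h1]
      exact le_ciSup (combP_bdd p hp (x.erase i₀)) F
  · apply max_le
    · apply ciSup_le
      intro F
      refine le_trans ?_ (le_ciSup (combP_bdd p hp x) F)
      apply Real.rpow_le_rpow (Finset.sum_nonneg fun i _ => hnn _ i) _ (by positivity)
      apply Finset.sum_le_sum
      intro i _
      by_cases hi : i = i₀
      · rw [hi, Finsupp.erase_same, abs_zero, Real.zero_rpow hp.ne']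
        exact hnn x i₀
      · rw [Finsupp.erase_ne hi]
    · exact abs_le_combNormP hcov p hp x i₀

variable {Z Y : Type*} [NormedAddCommGroup Z] [NormedSpace ℝ Z]
  [NormedAddCommGroup Y] [NormedSpace ℝ Y]

/-- Every normed space containing the finitely supported sequences, normed by the convexified
combinatorial norm of a family with an isolated singleton, as a dense subspace has the
Mazur-Ulam property. -/
theorem combP_mup (hcov : ∀ i, ∃ A ∈ 𝓕, i ∈ A) (i₀ : ℕ)
    (hiso : ∀ F ∈ 𝓕, i₀ ∈ F → F = {i₀}) (p : ℝ) (hp : 0 < p)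
    (ι : (ℕ →₀ ℝ) →ₗ[ℝ] Z) (hι : DenseRange ι)
    (hn : ∀ x, ‖ι x‖ = combNormP 𝓕 p x)
    (f : Metric.sphere (0 : Z) 1 → Metric.sphere (0 : Y) 1) (hf : Isometry f)
    (hs : Function.Surjective f) :
    ∃ Λ : Z ≃ₗᵢ[ℝ] Y, ∀ z : Metric.sphere (0 : Z) 1, Λ z = f z := by
  have hinj : Function.Injective ι := by
    rw [injective_iff_map_eq_zero]
    intro x hx
    ext i
    have h1 := abs_le_combNormP hcov p hp x i
    rw [← hn, hx, norm_zero] at h1
    exact abs_eq_zero.1 (le_antisymm h1 (abs_nonneg _))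
  let E := LinearEquiv.ofInjective ι hinj
  let φ₀ : (LinearMap.range ι) →ₗ[ℝ] ℝ := (Finsupp.lapply i₀) ∘ₗ E.symm.toLinearMap
  have hφ₀ : ∀ x, φ₀ ⟨ι x, LinearMap.mem_range_self ι x⟩ = x i₀ := by
    intro x
    have : E.symm ⟨ι x, LinearMap.mem_range_self ι x⟩ = x := by
      rw [LinearEquiv.symm_apply_eq]
      rfl
    change (E.symm ⟨ι x, LinearMap.mem_range_self ι x⟩) i₀ = x i₀
    rw [this]
  have hbound : ∀ r : LinearMap.range ι, ‖φ₀ r‖ ≤ 1 * ‖r‖ := by
    rintro ⟨_, x, rfl⟩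
    rw [hφ₀, one_mul, Real.norm_eq_abs]
    change |x i₀| ≤ ‖ι x‖
    rw [hn]
    exact abs_le_combNormP hcov p hp x i₀
  obtain ⟨φ, hφ, -⟩ := exists_extension_norm_eq (LinearMap.range ι) (φ₀.mkContinuous 1 hbound)
  have hφι : ∀ x, φ (ι x) = x i₀ := by
    intro x
    have := hφ ⟨ι x, LinearMap.mem_range_self ι x⟩
    rw [LinearMap.mkContinuous_apply, hφ₀] at this
    exact this
  refine mup_of_M_summand (ι (Finsupp.single i₀ 1)) φ (by rw [hφι]; simp) ?_ f hf hs
  intro z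
  refine hι.induction_on (p := fun z => ‖z‖ = max ‖z - φ z • ι (Finsupp.single i₀ 1)‖ |φ z|) z ?_ ?_
  · apply isClosed_eq continuous_norm
    fun_prop
  · intro x
    have h1 : ι x - φ (ι x) • ι (Finsupp.single i₀ 1) = ι (x.erase i₀) := by
      rw [hφι, ← map_smul, ← map_sub, Finsupp.smul_single, smul_eq_mul, mul_one,
        Finsupp.erase_eq_sub_single]
    rw [h1, hφι, hn, hn]
    exact combNormP_split hcov i₀ hiso p hp x

open scoped ENNReal

theorem combP_exists (𝓕 : Set (Finset ℕ)) (p : ℝ) (hp : 1 ≤ p) :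
    ∃ (Z : Type) (_ : NormedAddCommGroup Z) (_ : NormedSpace ℝ Z) (_ : CompleteSpace Z)
      (ι : (ℕ →₀ ℝ) →ₗ[ℝ] Z), DenseRange ι ∧ ∀ x, ‖ι x‖ = combNormP 𝓕 p x := by
  have hp0 : 0 < p := by linarith
  have hP : Fact (1 ≤ ENNReal.ofReal p) := ⟨by
    rw [← ENNReal.ofReal_one]; exact ENNReal.ofReal_le_ofReal hp⟩
  have hPr : (ENNReal.ofReal p).toReal = p := ENNReal.toReal_ofReal hp0.le
  let E : 𝓕 → Type := fun F => PiLp (ENNReal.ofReal p) (fun _ : F.1 => ℝ)
  have hterm : ∀ (x : ℕ →₀ ℝ) (F : 𝓕),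
      ‖(WithLp.toLp (ENNReal.ofReal p) (fun i : F.1 => x i) : E F)‖
        = (∑ i ∈ F.1, |x i| ^ p) ^ (1 / p) := by
    intro x F
    rw [PiLp.norm_eq_sum (by rw [hPr]; exact hp0), hPr]
    congr 1
    exact Finset.sum_coe_sort F.1 (fun i => |x i| ^ p)
  have hmem : ∀ x : ℕ →₀ ℝ,
      Memℓp (fun F : 𝓕 => (WithLp.toLp (ENNReal.ofReal p) (fun i : F.1 => x i) : E F)) ∞ := by
    intro x
    apply memℓp_infty
    have := combP_bdd (𝓕 := 𝓕) p hp0 x
    simpa only [hterm] using this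
  let J : (ℕ →₀ ℝ) →ₗ[ℝ] lp E ∞ :=
    { toFun := fun x => ⟨fun F => WithLp.toLp (ENNReal.ofReal p) (fun i : F.1 => x i), hmem x⟩
      map_add' := fun x y => by
        apply Subtype.ext
        funext F
        rfl
      map_smul' := fun c x => by
        apply Subtype.ext
        funext F
        rfl }
  have hJ : ∀ x, ‖J x‖ = combNormP 𝓕 p x := by
    intro x
    rw [lp.norm_eq_ciSup]
    unfold combNormP
    apply iSup_congr
    intro F
    exact hterm x F
  refine ⟨UniformSpace.Completion (LinearMap.range J), inferInstance, inferInstance, inferInstance,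
    (UniformSpace.Completion.toComplₗᵢ (𝕜 := ℝ) (E := LinearMap.range J)).toLinearMap ∘ₗ
      J.rangeRestrict, ?_, ?_⟩
  · have h1 : DenseRange ((↑) : LinearMap.range J → UniformSpace.Completion (LinearMap.range J)) :=
      UniformSpace.Completion.denseRange_coe
    have h2 : Function.Surjective J.rangeRestrict := LinearMap.surjective_rangeRestrict J
    exact h1.comp h2.denseRange (UniformSpace.Completion.continuous_coe _)
  · intro x
    change ‖((J.rangeRestrict x : LinearMap.range J) :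
      UniformSpace.Completion (LinearMap.range J))‖ = _
    rw [UniformSpace.Completion.norm_coe, ← hJ x]
    rfl

/-- Every Schreier family contains all singletons, and `{0}` is its only member containing `0`. -/
theorem IsSchreierFamily.props {𝓕 : Set (Finset ℕ)} (h : IsSchreierFamily 𝓕) :
    (∀ i : ℕ, {i} ∈ 𝓕) ∧ ∀ F ∈ 𝓕, 0 ∈ F → F = {0} := by
  induction h with
  | zero =>
    refine ⟨fun i => ?_, fun F hF h0 => ?_⟩
    · change ({i} : Finset ℕ).card ≤ 1
      rw [Finset.card_singleton]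
    · have h1 : F.card ≤ 1 := hF
      obtain ⟨a, ha⟩ := Finset.card_eq_one.1 (le_antisymm h1 (Finset.card_pos.2 ⟨0, h0⟩))
      rw [ha] at h0 ⊢
      rw [Finset.mem_singleton.1 h0]
  | succ 𝓖 _ ih =>
    refine ⟨fun i => ?_, fun F hF h0 => ?_⟩
    · refine ⟨1, fun _ => {i}, fun _ => ih.1 i, ?_, ?_, ?_⟩
      · intro j j' hjj'
        exact absurd hjj' (by rw [Subsingleton.elim j j']; exact lt_irrefl _)
      · intro j k hk
        omega
      · ext k
        simp
    · obtain ⟨n, E, hE, -, hmin, rfl⟩ := hF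
      rw [Finset.mem_biUnion] at h0
      obtain ⟨j, -, hj⟩ := h0
      have hn := hmin j 0 hj
      have hn1 : n = 1 := by
        have := j.2
        omega
      subst hn1
      have hj0 : E j = {0} := ih.2 _ (hE j) hj
      ext k
      rw [Finset.mem_biUnion]
      constructor
      · rintro ⟨j', -, hk⟩
        rw [Subsingleton.elim j' j, hj0] at hk
        exact hk
      · intro hk
        exact ⟨j, Finset.mem_univ _, by rw [hj0]; exact hk⟩
  | limit 𝓖 _ ih =>
    refine ⟨fun i => ⟨0, (ih 0).1 i, fun _ _ => Nat.zero_le _⟩, fun F hF h0 => ?_⟩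
    obtain ⟨n, hFn, -⟩ := hF
    exact (ih n).2 F hFn h0

end Vale.Agent.P084
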