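import Mathlib
import Vale.Agent.P084.Touch

/-!
An abstract extension theorem: if along every half-line issuing from a point of the unit sphere
the norm initially coincides with the functional of a flat face, then every surjective isometry
of the unit sphere onto the unit sphere of another space extends linearly.
-/

namespace Vale.Agent.P084

variable {Z Y : Type*} [NormedAddCommGroup Z] [NormedSpace ℝ Z]
  [NormedAddCommGroup Y] [NormedSpace ℝ Y]

section Cover

variable (T : Z → Y) (hT1 : ∀ z, ‖z‖ = 1 → ‖T z‖ = 1)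
  (hTd : ∀ z w, ‖z‖ = 1 → ‖w‖ = 1 → ‖T z - T w‖ = ‖z - w‖)
  (hTs : ∀ y, ‖y‖ = 1 → ∃ z, ‖z‖ = 1 ∧ T z = y)

include hT1 hTd hTs in
/-- The functional of the image of a flat face, composed with the linear map of a touching
flat face, is the functional of the face. -/
theorem touch_linear {cE : Z} {ξE : StrongDual ℝ Z} {ρE : ℝ} (hE : Flat cE ξE ρE)
    {ψE : StrongDual ℝ Y} {ρE' : ℝ} (hE' : Flat (T cE) ψE ρE')
    {cP : Z} {ξP : StrongDual ℝ Z} {ρP : ℝ} (hP : Flat cP ξP ρP)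
    (L : Z →ₗ[ℝ] Y) (hLT : ∀ z, ‖z‖ = 1 → ξP z = 1 → T z = L z)
    (htouch : Touch ξE ξP) : ∀ z, ψE (L z) = ξE z := by
  obtain ⟨a, ha, haP, haE⟩ := htouch
  have hface : ∀ z, ‖z‖ = 1 → ξP z = 1 → ψE (L z) = ξE z := by
    intro z hz hzP
    rw [← hLT z hz hzP]
    apply touch_pm T hT1 hTd hTs hE hE' ha haE hz
    intro s hs0 hs1
    have hξ : ξP (a + s • (z - a)) = 1 := by
      rw [map_add, map_smul, map_sub, haP, hzP, sub_self, smul_zero, add_zero]
    have hn : ‖a + s • (z - a)‖ = 1 := by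
      apply le_antisymm
      · have : a + s • (z - a) = (1 - s) • a + s • z := by
          rw [smul_sub, sub_smul, one_smul]; abel
        rw [this]
        calc ‖(1 - s) • a + s • z‖ ≤ ‖(1 - s) • a‖ + ‖s • z‖ := norm_add_le _ _
          _ = 1 := by
              rw [norm_smul, norm_smul, ha, hz, Real.norm_of_nonneg hs0,
                Real.norm_of_nonneg (by linarith)]
              ring
      · rw [← hξ]; exact hP.le_norm _
    refine ⟨hn, ?_⟩
    rw [hLT _ hn hξ, hLT a ha haP, hLT z hz hzP, map_add, map_smul, map_sub]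
  intro v
  have hc := hface cP hP.norm_eq hP.self_eq
  obtain ⟨v', hv'_def⟩ : ∃ v', v' = v - ξP v • cP := ⟨_, rfl⟩
  have hξv' : ξP v' = 0 := by
    rw [hv'_def, map_sub, map_smul, hP.self_eq, smul_eq_mul, mul_one, sub_self]
  have hv'0 : ψE (L v') = ξE v' := by
    rcases eq_or_ne v' 0 with h0 | h0
    · rw [h0]; simp
    have hpos : 0 < ‖v'‖ := norm_pos_iff.2 h0
    obtain ⟨t, ht_def⟩ : ∃ t, t = ρP / ‖v'‖ := ⟨_, rfl⟩
    have ht : 0 < t := by rw [ht_def]; exact div_pos hP.pos hpos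
    have htn : ‖t • v'‖ ≤ ρP := by
      rw [norm_smul, Real.norm_of_nonneg ht.le, ht_def]
      apply le_of_eq
      field_simp
    have h1 : ‖cP + t • v'‖ = 1 := by
      rw [hP.2 _ htn, map_smul, hξv', smul_zero, add_zero]
    have h2 : ξP (cP + t • v') = 1 := by
      rw [map_add, map_smul, hξv', smul_zero, add_zero, hP.self_eq]
    have h3 := hface _ h1 h2
    rw [map_add, map_add, map_add, hc, map_smul, map_smul, map_smul, smul_eq_mul, smul_eq_mul]
      at h3
    exact mul_left_cancel₀ ht.ne' (add_left_cancel h3)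
  have hv : v = v' + ξP v • cP := by rw [hv'_def]; abel
  rw [hv, map_add, map_add, map_add, map_smul, map_smul, map_smul, hv'0, hc]

include hT1 hTd hTs in
/-- **Abstract extension theorem for flatly covered spheres.** -/
theorem flat_cover_extension (x₀ : Z) (hx₀ : ‖x₀‖ = 1)
    (hH : ∀ x k : Z, ‖x‖ = 1 → ∃ (c : Z) (ξ : StrongDual ℝ Z) (ρ ε : ℝ), Flat c ξ ρ ∧ 0 < ε ∧
      ∀ t, 0 ≤ t → t ≤ ε → ‖x + t • k‖ = ξ (x + t • k)) :
    ∃ Λ : Z ≃ₗᵢ[ℝ] Y, ∀ z, ‖z‖ = 1 → Λ z = T z := by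
  obtain ⟨I, hI⟩ : ∃ I : Type _, I = {p : Z × StrongDual ℝ Z × ℝ // Flat p.1 p.2.1 p.2.2} :=
    ⟨_, rfl⟩
  subst hI
  obtain ⟨ξ, hξ_def⟩ : ∃ ξ : {p : Z × StrongDual ℝ Z × ℝ // Flat p.1 p.2.1 p.2.2} →
      StrongDual ℝ Z, ξ = fun P => P.1.2.1 := ⟨_, rfl⟩
  have hflat : ∀ P : {p : Z × StrongDual ℝ Z × ℝ // Flat p.1 p.2.1 p.2.2},
      Flat P.1.1 (ξ P) P.1.2.2 := by
    intro P; rw [hξ_def]; exact P.2
  choose ψ L hψflat hψL hLsurj hLbound hLT using
    fun P => face_linear T hT1 hTd hTs (hflat P)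
  have step1 : ∀ E P, Touch (ξ E) (ξ P) → ∀ z, ψ E (L P z) = ξ E z := fun E P h =>
    touch_linear T hT1 hTd hTs (hflat E) (hψflat E) (hflat P) (L P) (hLT P) h
  -- the hypothesis in terms of the index type
  have hH' : ∀ x k : Z, ‖x‖ = 1 → ∃ E, ∃ ε : ℝ, 0 < ε ∧
      ∀ t, 0 ≤ t → t ≤ ε → ‖x + t • k‖ = ξ E (x + t • k) := by
    intro x k hx
    obtain ⟨c, χ, ρ, ε, h1, h2, h3⟩ := hH x k hx
    refine ⟨⟨(c, χ, ρ), h1⟩, ε, h2, ?_⟩
    rw [hξ_def]
    exact h3
  -- faces with a common point (up to a sign) have the same linear map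
  have stepA : ∀ P Q, (∃ a, ‖a‖ = 1 ∧ ξ P a = 1 ∧ (ξ Q a = 1 ∨ ξ Q a = -1)) →
      ∀ z, L P z = L Q z := by
    rintro P Q ⟨a, ha, haP, haQ⟩ z
    obtain ⟨z', hz'⟩ := hLsurj P (L Q z)
    by_contra hne
    obtain ⟨k, hk_def⟩ : ∃ k, k = z' - z := ⟨_, rfl⟩
    have hk : k ≠ 0 := by
      intro h
      apply hne
      rw [hk_def] at h
      rw [← hz', sub_eq_zero.1 h]
    have hkpos : 0 < ‖k‖ := norm_pos_iff.2 hk
    have hker : ∀ E, Touch (ξ E) (ξ P) → Touch (ξ E) (ξ Q) → ξ E k = 0 := by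
      intro E h1 h2
      have e1 := step1 E P h1 z'
      have e2 := step1 E Q h2 z
      rw [hz'] at e1
      rw [hk_def, map_sub, ← e1, ← e2, sub_self]
    -- touching at a common point
    have htouch : ∀ E b, ‖b‖ = 1 → ξ P b = 1 → (ξ Q b = 1 ∨ ξ Q b = -1) → ξ E b = 1 →
        ξ E k = 0 := by
      intro E b hb hbP hbQ hbE
      apply hker E ⟨b, hb, hbP, Or.inl hbE⟩
      rcases hbQ with h | h
      · exact ⟨b, hb, h, Or.inl hbE⟩
      · exact ⟨-b, by rw [norm_neg, hb], by rw [map_neg, h, neg_neg],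
          Or.inr (by rw [map_neg, hbE])⟩
    have hPk : ξ P k = 0 := htouch P a ha haP haQ haP
    have hQk : ξ Q k = 0 := by
      apply hker Q ⟨a, ha, haP, haQ⟩
      exact ⟨_, (hflat Q).norm_eq, (hflat Q).self_eq, Or.inl (hflat Q).self_eq⟩
    obtain ⟨S, hS_def⟩ : ∃ S : Set ℝ, S = {t | 0 ≤ t ∧ ‖a + t • k‖ = 1} := ⟨_, rfl⟩
    have hS0 : (0 : ℝ) ∈ S := by
      rw [hS_def]
      exact ⟨le_refl _, by rw [zero_smul, add_zero, ha]⟩
    have hSb : BddAbove S := by
      refine ⟨2 / ‖k‖, ?_⟩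
      intro t ht
      rw [hS_def] at ht
      obtain ⟨ht0, ht1⟩ := ht
      have h1 : ‖t • k‖ ≤ ‖a + t • k‖ + ‖a‖ := by
        calc ‖t • k‖ = ‖(a + t • k) - a‖ := by congr 1; abel
          _ ≤ ‖a + t • k‖ + ‖a‖ := norm_sub_le _ _
      rw [ht1, ha, norm_smul, Real.norm_of_nonneg ht0] at h1
      rw [le_div_iff₀ hkpos]
      linarith
    have hSc : IsClosed S := by
      rw [hS_def]
      apply IsClosed.inter
      · exact isClosed_Ici
      · apply isClosed_eq
        · fun_prop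
        · exact continuous_const
    have hmem : sSup S ∈ S := hSc.csSup_mem ⟨0, hS0⟩ hSb
    obtain ⟨τ, hτ_def⟩ : ∃ τ, τ = sSup S := ⟨_, rfl⟩
    rw [← hτ_def, hS_def] at hmem
    obtain ⟨hτ0, hτ1⟩ := hmem
    obtain ⟨E, ε, hε, hEε⟩ := hH' (a + τ • k) k hτ1
    have hE0 : ξ E (a + τ • k) = 1 := by
      have := hEε 0 (le_refl _) hε.le
      rw [zero_smul, add_zero, hτ1] at this
      exact this.symm
    have hEk : ξ E k = 0 := by
      apply htouch E (a + τ • k) hτ1 _ _ hE0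
      · rw [map_add, map_smul, hPk, smul_zero, add_zero, haP]
      · rw [map_add, map_smul, hQk, smul_zero, add_zero]
        exact haQ
    have h2 := hEε ε hε.le (le_refl _)
    rw [map_add, hE0, map_smul, hEk, smul_zero, add_zero] at h2
    have h3 : τ + ε ∈ S := by
      rw [hS_def]
      refine ⟨by linarith, ?_⟩
      rw [add_smul, ← add_assoc]
      exact h2
    have h4 := le_csSup hSb h3
    rw [← hτ_def] at h4
    linarith
  -- the hypothesis for nonzero vectors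
  have hHv : ∀ v k : Z, v ≠ 0 → ∃ E, ∃ ε : ℝ, 0 < ε ∧
      ∀ t, 0 ≤ t → t ≤ ε → ‖v + t • k‖ = ξ E (v + t • k) := by
    intro v k hv
    have hpos : 0 < ‖v‖ := norm_pos_iff.2 hv
    have hq : ‖‖v‖⁻¹ • v‖ = 1 := by
      rw [norm_smul, norm_inv, norm_norm]
      exact inv_mul_cancel₀ hpos.ne'
    obtain ⟨E, ε, hε, h⟩ := hH' (‖v‖⁻¹ • v) (‖v‖⁻¹ • k) hq
    refine ⟨E, ε, hε, fun t h0 h1 => ?_⟩
    have h2 := h t h0 h1
    have h3 : ‖v‖⁻¹ • v + t • ‖v‖⁻¹ • k = ‖v‖⁻¹ • (v + t • k) := by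
      rw [smul_add, smul_comm]
    rw [h3, norm_smul, norm_inv, norm_norm, map_smul, smul_eq_mul] at h2
    exact mul_left_cancel₀ (inv_ne_zero hpos.ne') h2
  have same : ∀ P Q (v : Z), v ≠ 0 → ξ P v = ‖v‖ → ξ Q v = ‖v‖ → L P = L Q := by
    intro P Q v hv hP hQ
    have hpos : 0 < ‖v‖ := norm_pos_iff.2 hv
    have hq : ‖‖v‖⁻¹ • v‖ = 1 := by
      rw [norm_smul, norm_inv, norm_norm]
      exact inv_mul_cancel₀ hpos.ne'
    ext z
    apply stepA P Q ⟨‖v‖⁻¹ • v, hq, ?_, Or.inl ?_⟩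
    · rw [map_smul, hP, smul_eq_mul]
      exact inv_mul_cancel₀ hpos.ne'
    · rw [map_smul, hQ, smul_eq_mul]
      exact inv_mul_cancel₀ hpos.ne'
  have hPf : ∀ v : Z, ∃ P, v ≠ 0 → ξ P v = ‖v‖ := by
    intro v
    by_cases hv : v = 0
    · obtain ⟨E, -⟩ := hH' x₀ 0 hx₀
      exact ⟨E, fun h => absurd hv h⟩
    · obtain ⟨E, ε, hε, h⟩ := hHv v 0 hv
      refine ⟨E, fun _ => ?_⟩
      have := h 0 le_rfl hε.le
      simpa using this.symm
  choose Pf hPf using hPf
  have path : ∀ x y : Z, (∀ s : ℝ, x + s • (y - x) ≠ 0) → L (Pf x) = L (Pf y) := by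
    intro x y hxy
    have hloc : IsLocallyConstant (fun s : ℝ => L (Pf (x + s • (y - x)))) := by
      rw [IsLocallyConstant.iff_eventually_eq]
      intro s
      obtain ⟨E1, ε1, hε1, h1⟩ := hHv (x + s • (y - x)) (y - x) (hxy s)
      obtain ⟨E2, ε2, hε2, h2⟩ := hHv (x + s • (y - x)) (-(y - x)) (hxy s)
      rw [Metric.eventually_nhds_iff]
      refine ⟨min ε1 ε2, lt_min hε1 hε2, fun s' hs' => ?_⟩
      rw [Real.dist_eq] at hs'
      have hs1 := lt_of_lt_of_le hs' (min_le_left _ _)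
      have hs2 := lt_of_lt_of_le hs' (min_le_right _ _)
      rw [abs_lt] at hs1 hs2
      rcases le_total s s' with hle | hle
      · have e1 := h1 (s' - s) (by linarith) (by linarith)
        have e0 := h1 0 le_rfl hε1.le
        have e2 : x + s • (y - x) + (s' - s) • (y - x) = x + s' • (y - x) := by
          rw [sub_smul]; abel
        rw [e2] at e1
        rw [zero_smul, add_zero] at e0
        change L (Pf (x + s' • (y - x))) = L (Pf (x + s • (y - x)))
        rw [same _ E1 _ (hxy s') (hPf _ (hxy s')) e1.symm,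
          same _ E1 _ (hxy s) (hPf _ (hxy s)) e0.symm]
      · have e1 := h2 (s - s') (by linarith) (by linarith)
        have e0 := h2 0 le_rfl hε2.le
        have e2 : x + s • (y - x) + (s - s') • (-(y - x)) = x + s' • (y - x) := by
          rw [smul_neg, sub_smul]; abel
        rw [e2] at e1
        rw [zero_smul, add_zero] at e0
        change L (Pf (x + s' • (y - x))) = L (Pf (x + s • (y - x)))
        rw [same _ E2 _ (hxy s') (hPf _ (hxy s')) e1.symm,
          same _ E2 _ (hxy s) (hPf _ (hxy s)) e0.symm]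
    have := hloc.apply_eq_of_preconnectedSpace 0 1
    simpa using this
  have hne0 : ∀ x : Z, ‖x‖ = 1 → x ≠ 0 := by
    intro x hx h
    rw [h, norm_zero] at hx
    exact zero_ne_one hx
  have hall : ∀ x y : Z, ‖x‖ = 1 → ‖y‖ = 1 → L (Pf x) = L (Pf y) := by
    intro x y hx hy
    by_cases hxy : y = -x
    · ext z
      apply stepA (Pf x) (Pf y) ⟨x, hx, ?_, Or.inr ?_⟩
      · rw [hPf x (hne0 x hx), hx]
      · have h1 := hPf y (hne0 y hy)
        rw [hy] at h1
        have h2 : x = -y := by rw [hxy, neg_neg]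
        rw [h2, map_neg, h1]
    · apply path
      intro s hs
      apply hxy
      have h1 : (1 - s) • x = -(s • y) := by
        have : x + s • (y - x) = (1 - s) • x + s • y := by
          rw [smul_sub, sub_smul, one_smul]; abel
        rw [this] at hs
        exact eq_neg_of_add_eq_zero_left hs
      have h2 : |1 - s| = |s| := by
        have := congrArg norm h1
        rw [norm_neg, norm_smul, norm_smul, hx, hy, mul_one, mul_one] at this
        exact this
      have h3 : s = 1 / 2 := by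
        rcases abs_eq_abs.1 h2 with h | h <;> linarith
      rw [h3] at h1
      have h4 : (2 : ℝ) • ((1 - 1 / 2 : ℝ) • x) = (2 : ℝ) • (-((1 / 2 : ℝ) • y)) := by rw [h1]
      rw [smul_smul, smul_neg, smul_smul] at h4
      norm_num at h4
      rw [h4, neg_neg]
  have hTΛ : ∀ z, ‖z‖ = 1 → L (Pf x₀) z = T z := by
    intro z hz
    rw [hall x₀ z hx₀ hz]
    refine (hLT (Pf z) z hz ?_).symm
    rw [hPf z (hne0 z hz), hz]
  have hnorm : ∀ z, ‖L (Pf x₀) z‖ = ‖z‖ := by
    intro z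
    rcases eq_or_ne z 0 with rfl | hz
    · simp
    have hpos : 0 < ‖z‖ := norm_pos_iff.2 hz
    have hq : ‖‖z‖⁻¹ • z‖ = 1 := by
      rw [norm_smul, norm_inv, norm_norm]
      exact inv_mul_cancel₀ hpos.ne'
    have h1 : ‖L (Pf x₀) (‖z‖⁻¹ • z)‖ = 1 := by rw [hTΛ _ hq]; exact hT1 _ hq
    rw [map_smul, norm_smul, norm_inv, norm_norm] at h1
    have h2 : ‖z‖ * (‖z‖⁻¹ * ‖L (Pf x₀) z‖) = ‖z‖ * 1 := by rw [h1]
    rw [← mul_assoc, mul_inv_cancel₀ hpos.ne', one_mul, mul_one] at h2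
    exact h2
  exact ⟨LinearIsometryEquiv.ofSurjective ⟨L (Pf x₀), hnorm⟩ (hLsurj (Pf x₀)),
    fun z hz => hTΛ z hz⟩

end Cover

end Vale.Agent.P084
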