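import Mathlib
import Vale.Agent.P084.Flat

/-!
Norms which are affine on an initial piece of every half-line: in a complete space the flat
faces cover the unit sphere (two Baire category arguments).
-/

namespace Vale.Agent.P084

variable {X : Type*} [NormedAddCommGroup X] [NormedSpace ℝ X]

/-- The norm is affine on an initial piece of every half-line. -/
def LocAffine (X : Type*) [NormedAddCommGroup X] [NormedSpace ℝ X] : Prop :=
  ∀ z w : X, ∃ ε : ℝ, 0 < ε ∧ ∃ m : ℝ, ∀ t, 0 ≤ t → t ≤ ε → ‖z + t • w‖ = ‖z‖ + t * m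

/-- If the norm is affine on all short segments whose position and direction are close to a given
one, then it is affine (in the midpoint sense) on a ball. -/
theorem midpoint_affine_of_lines (z w : X) (δ τ : ℝ) (hδ : 0 < δ) (hτ : 0 < τ) (hτ1 : τ ≤ 1)
    (h : ∀ z' w' : X, ‖z' - z‖ < δ → ‖w' - w‖ < δ → ∀ t t', 0 ≤ t → t ≤ τ → 0 ≤ t' → t' ≤ τ →
      ‖z' + t • w'‖ + ‖z' + t' • w'‖ = 2 * ‖z' + ((t + t') / 2) • w'‖) :
    ∃ η : ℝ, 0 < η ∧ ∀ p q : X, ‖p - (z + (τ / 2) • w)‖ < η → ‖q - (z + (τ / 2) • w)‖ < η →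
      ‖p‖ + ‖q‖ = 2 * ‖(1 / 2 : ℝ) • (p + q)‖ := by
  have seg : ∀ (e w' : X) (a : ℝ), 0 ≤ a → a ≤ τ / 2 → ‖w' - w‖ < δ / 2 →
      ‖e - (z + (τ / 2) • w)‖ < δ / 2 → ‖e - a • w'‖ + ‖e + a • w'‖ = 2 * ‖e‖ := by
    intro e w' a ha0 ha1 hw' he
    have h1 : ‖(e - (τ / 2) • w') - z‖ < δ := by
      have e1 : (e - (τ / 2) • w') - z = (e - (z + (τ / 2) • w)) - (τ / 2) • (w' - w) := by
        module
      rw [e1]
      calc ‖(e - (z + (τ / 2) • w)) - (τ / 2) • (w' - w)‖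
          ≤ ‖e - (z + (τ / 2) • w)‖ + ‖(τ / 2) • (w' - w)‖ := norm_sub_le _ _
        _ = ‖e - (z + (τ / 2) • w)‖ + τ / 2 * ‖w' - w‖ := by
            rw [norm_smul, Real.norm_of_nonneg (by linarith)]
        _ < δ := by nlinarith [norm_nonneg (w' - w)]
    have h2 := h (e - (τ / 2) • w') w' h1 (by linarith) (τ / 2 - a) (τ / 2 + a) (by linarith)
      (by linarith) (by linarith) (by linarith)
    have e2 : e - (τ / 2) • w' + (τ / 2 - a) • w' = e - a • w' := by module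
    have e3 : e - (τ / 2) • w' + (τ / 2 + a) • w' = e + a • w' := by module
    have e4 : e - (τ / 2) • w' + ((τ / 2 - a + (τ / 2 + a)) / 2) • w' = e := by module
    rw [e2, e3, e4] at h2
    exact h2
  obtain ⟨l, hl_def⟩ : ∃ l, l = min (τ / 2) (δ / (4 * (‖w‖ + 1))) := ⟨_, rfl⟩
  have hw0 := norm_nonneg w
  have hl0 : 0 < l := by
    rw [hl_def]
    apply lt_min (by linarith)
    positivity
  have hl1 : l ≤ τ / 2 := by rw [hl_def]; exact min_le_left _ _
  have hl2 : l * ‖w‖ ≤ δ / 4 := by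
    have h1 : l ≤ δ / (4 * (‖w‖ + 1)) := by rw [hl_def]; exact min_le_right _ _
    rw [le_div_iff₀ (by positivity)] at h1
    nlinarith
  refine ⟨min (δ / 8) (l * δ / 4), lt_min (by linarith) (by positivity), ?_⟩
  intro p q hp hq
  have hp1 := lt_of_lt_of_le hp (min_le_left _ _)
  have hp2 := lt_of_lt_of_le hp (min_le_right _ _)
  have hq1 := lt_of_lt_of_le hq (min_le_left _ _)
  have hq2 := lt_of_lt_of_le hq (min_le_right _ _)
  obtain ⟨m, hm_def⟩ : ∃ m, m = (1 / 2 : ℝ) • (p + q) := ⟨_, rfl⟩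
  obtain ⟨u, hu_def⟩ : ∃ u, u = (l⁻¹ / 2) • (q - p) := ⟨_, rfl⟩
  have hlu : l • u = (1 / 2 : ℝ) • (q - p) := by
    rw [hu_def, smul_smul]
    congr 1
    field_simp
  have hpm : p = m - l • u := by rw [hlu, hm_def]; module
  have hqm : q = m + l • u := by rw [hlu, hm_def]; module
  have hmz : ‖m - (z + (τ / 2) • w)‖ < δ / 8 := by
    have e1 : m - (z + (τ / 2) • w)
        = (1 / 2 : ℝ) • ((p - (z + (τ / 2) • w)) + (q - (z + (τ / 2) • w))) := by
      rw [hm_def]; module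
    rw [e1, norm_smul, Real.norm_of_nonneg (by norm_num)]
    have := norm_add_le (p - (z + (τ / 2) • w)) (q - (z + (τ / 2) • w))
    linarith
  have hlun : ‖l • u‖ < l * δ / 4 := by
    have e1 : l • u = (1 / 2 : ℝ) • ((q - (z + (τ / 2) • w)) - (p - (z + (τ / 2) • w))) := by
      rw [hlu]; module
    rw [e1, norm_smul, Real.norm_of_nonneg (by norm_num)]
    have := norm_sub_le (q - (z + (τ / 2) • w)) (p - (z + (τ / 2) • w))
    linarith
  have hun : ‖u‖ < δ / 4 := by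
    rw [norm_smul, Real.norm_of_nonneg hl0.le] at hlun
    have : l * ‖u‖ < l * (δ / 4) := by linarith
    exact lt_of_mul_lt_mul_left this hl0.le
  have hb : ‖(l / 2) • (w - u)‖ < 3 * δ / 16 := by
    rw [norm_smul, Real.norm_of_nonneg (by linarith)]
    have h1 := norm_sub_le w u
    have h2 : l ≤ 1 / 2 := by linarith
    nlinarith [norm_nonneg u, norm_nonneg (w - u)]
  have s1 := seg (m - (l / 2) • (w - u)) (w + u) (l / 2) (by linarith) (by linarith)
    (by rw [add_sub_cancel_left]; linarith)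
    (by
      have e1 : m - (l / 2) • (w - u) - (z + (τ / 2) • w)
          = (m - (z + (τ / 2) • w)) - (l / 2) • (w - u) := by abel
      rw [e1]
      have := norm_sub_le (m - (z + (τ / 2) • w)) ((l / 2) • (w - u))
      linarith)
  have s2 := seg (m + (l / 2) • (w - u)) (w + u) (l / 2) (by linarith) (by linarith)
    (by rw [add_sub_cancel_left]; linarith)
    (by
      have e1 : m + (l / 2) • (w - u) - (z + (τ / 2) • w)
          = (m - (z + (τ / 2) • w)) + (l / 2) • (w - u) := by abel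
      rw [e1]
      have := norm_add_le (m - (z + (τ / 2) • w)) ((l / 2) • (w - u))
      linarith)
  have s3 := seg m (w - u) (l / 2) (by linarith) (by linarith)
    (by
      have e1 : w - u - w = -u := by abel
      rw [e1, norm_neg]; linarith)
    (by linarith)
  have s4 := seg m w l hl0.le hl1 (by rw [sub_self, norm_zero]; linarith) (by linarith)
  have e1 : m - (l / 2) • (w - u) - (l / 2) • (w + u) = m - l • w := by module
  have e2 : m - (l / 2) • (w - u) + (l / 2) • (w + u) = q := by rw [hqm]; module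
  have e3 : m + (l / 2) • (w - u) - (l / 2) • (w + u) = p := by rw [hpm]; module
  have e4 : m + (l / 2) • (w - u) + (l / 2) • (w + u) = m + l • w := by module
  rw [e1, e2] at s1
  rw [e3, e4] at s2
  rw [← hm_def]
  linarith

theorem two_mul_norm_mid_le (z w : X) (t t' : ℝ) :
    2 * ‖z + ((t + t') / 2) • w‖ ≤ ‖z + t • w‖ + ‖z + t' • w‖ := by
  have e1 : (2 : ℝ) • (z + ((t + t') / 2) • w) = (z + t • w) + (z + t' • w) := by module
  have h1 : ‖(2 : ℝ) • (z + ((t + t') / 2) • w)‖ = 2 * ‖z + ((t + t') / 2) • w‖ := by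
    rw [norm_smul, Real.norm_of_nonneg (by norm_num)]
  rw [← h1, e1]
  exact norm_add_le _ _

/-- First Baire category argument: every ball contains a ball on which the norm is affine. -/
theorem exists_midpoint_affine_ball [CompleteSpace X] (hP : LocAffine X) (z₀ : X) (r₀ : ℝ)
    (hr : 0 < r₀) :
    ∃ c : X, ∃ ρ : ℝ, 0 < ρ ∧ ‖c - z₀‖ < r₀ ∧ ∀ p q : X, ‖p - c‖ < ρ → ‖q - c‖ < ρ →
      ‖p‖ + ‖q‖ = 2 * ‖(1 / 2 : ℝ) • (p + q)‖ := by
  by_contra hNF
  obtain ⟨G, hG_def⟩ : ∃ G : ℕ → Set (X × X), G = fun (n : ℕ) => {zw : X × X | ∃ t t' : ℝ, 0 ≤ t ∧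
      t ≤ 1 / ((n : ℝ) + 1) ∧ 0 ≤ t' ∧ t' ≤ 1 / ((n : ℝ) + 1) ∧
      2 * ‖zw.1 + ((t + t') / 2) • zw.2‖ < ‖zw.1 + t • zw.2‖ + ‖zw.1 + t' • zw.2‖} := ⟨_, rfl⟩
  obtain ⟨U, hU_def⟩ : ∃ U : Set (X × X), U = Metric.ball ((z₀, 0) : X × X) (r₀ / 2) := ⟨_, rfl⟩
  have hUo : IsOpen U := by rw [hU_def]; exact Metric.isOpen_ball
  have hUne : U.Nonempty := ⟨(z₀, 0), by rw [hU_def]; exact Metric.mem_ball_self (by linarith)⟩
  have hGo : ∀ n, IsOpen (G n) := by
    intro n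
    rw [isOpen_iff_mem_nhds]
    intro zw hzw
    rw [hG_def] at hzw
    obtain ⟨t, t', h1, h2, h3, h4, h5⟩ := hzw
    have ho : IsOpen {zw : X × X | 2 * ‖zw.1 + ((t + t') / 2) • zw.2‖
        < ‖zw.1 + t • zw.2‖ + ‖zw.1 + t' • zw.2‖} := by
      apply isOpen_lt <;> fun_prop
    apply Filter.mem_of_superset (ho.mem_nhds h5)
    intro zw' hzw'
    rw [hG_def]
    exact ⟨t, t', h1, h2, h3, h4, hzw'⟩
  have hHo : ∀ n, IsOpen (G n ∪ (closure U)ᶜ) := fun n =>
    (hGo n).union isClosed_closure.isOpen_compl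
  have hHd : ∀ n, Dense (G n ∪ (closure U)ᶜ) := by
    intro n
    rw [Metric.dense_iff]
    intro zw r hr'
    by_cases hzw : zw ∈ closure U
    · rw [Metric.mem_closure_iff] at hzw
      obtain ⟨b, hbU, hb⟩ := hzw (r / 2) (by linarith)
      by_contra hcon
      apply hNF
      have hτ : (0 : ℝ) < 1 / ((n : ℝ) + 1) := by positivity
      have hτ1 : 1 / ((n : ℝ) + 1) ≤ 1 := by
        rw [div_le_one (by positivity)]
        have : (0 : ℝ) ≤ n := Nat.cast_nonneg n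
        linarith
      obtain ⟨η, hη, hη2⟩ := midpoint_affine_of_lines b.1 b.2 (r / 2) (1 / ((n : ℝ) + 1))
        (by linarith) hτ hτ1 (by
          intro z' w' hz' hw' t t' h1 h2 h3 h4
          apply le_antisymm _ (two_mul_norm_mid_le z' w' t t')
          by_contra hlt
          rw [not_le] at hlt
          apply hcon
          refine ⟨(z', w'), ?_, Or.inl ?_⟩
          · rw [Metric.mem_ball]
            have h5 : dist ((z', w') : X × X) b < r / 2 := by
              rw [Prod.dist_eq, dist_eq_norm, dist_eq_norm]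
              exact max_lt hz' hw'
            have h6 := dist_triangle ((z', w') : X × X) b zw
            rw [dist_comm b zw] at h6
            linarith
          · rw [hG_def]
            exact ⟨t, t', h1, h2, h3, h4, hlt⟩)
      refine ⟨b.1 + (1 / ((n : ℝ) + 1) / 2) • b.2, η, hη, ?_, hη2⟩
      rw [hU_def, Metric.mem_ball, Prod.dist_eq, dist_eq_norm, dist_eq_norm, max_lt_iff] at hbU
      obtain ⟨hb1, hb2⟩ := hbU
      rw [sub_zero] at hb2
      have e1 : b.1 + (1 / ((n : ℝ) + 1) / 2) • b.2 - z₀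
          = (b.1 - z₀) + (1 / ((n : ℝ) + 1) / 2) • b.2 := by abel
      rw [e1]
      calc ‖(b.1 - z₀) + (1 / ((n : ℝ) + 1) / 2) • b.2‖
          ≤ ‖b.1 - z₀‖ + ‖(1 / ((n : ℝ) + 1) / 2) • b.2‖ := norm_add_le _ _
        _ = ‖b.1 - z₀‖ + 1 / ((n : ℝ) + 1) / 2 * ‖b.2‖ := by
            rw [norm_smul, Real.norm_of_nonneg (by positivity)]
        _ < r₀ := by nlinarith [norm_nonneg b.2]
    · exact ⟨zw, Metric.mem_ball_self hr', Or.inr hzw⟩
  have hdense := dense_iInter_of_isOpen_nat hHo hHd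
  obtain ⟨zw, hzw2, hzw1⟩ := hdense.inter_open_nonempty U hUo hUne
  rw [Set.mem_iInter] at hzw1
  have hzwG : ∀ n, zw ∈ G n := by
    intro n
    rcases hzw1 n with h | h
    · exact h
    · exact absurd (subset_closure hzw2) h
  obtain ⟨ε, hε, m, hm⟩ := hP zw.1 zw.2
  obtain ⟨n, hn⟩ := exists_nat_one_div_lt hε
  have h1 := hzwG n
  rw [hG_def] at h1
  obtain ⟨t, t', h1, h2, h3, h4, h5⟩ := h1
  rw [hm t h1 (by linarith), hm t' h3 (by linarith), hm ((t + t') / 2) (by linarith)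
    (by linarith)] at h5
  linarith

theorem exists_norming_vec (y : X) :
    ∃ ψ : StrongDual ℝ X, (∀ w, ψ w ≤ ‖w‖) ∧ ψ y = ‖y‖ := by
  obtain ⟨ψ, hψ, hψe⟩ := exists_dual_vector'' ℝ y
  refine ⟨ψ, fun w => ?_, by rw [hψe]; rfl⟩
  calc ψ w ≤ ‖ψ w‖ := le_abs_self _
    _ ≤ ‖ψ‖ * ‖w‖ := ψ.le_opNorm w
    _ ≤ 1 * ‖w‖ := by gcongr
    _ = ‖w‖ := one_mul _

/-- Every ball contains a positive multiple of a flat point. -/
theorem exists_flat_near [CompleteSpace X] (hP : LocAffine X) (x₁ : X) (hx₁ : x₁ ≠ 0) (z₀ : X)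
    (r₀ : ℝ) (hr : 0 < r₀) :
    ∃ (c : X) (ξ : StrongDual ℝ X) (ρ : ℝ), c ≠ 0 ∧ ‖c - z₀‖ < r₀ ∧ Flat (‖c‖⁻¹ • c) ξ ρ := by
  obtain ⟨c, ρ, hρ, hc, haff⟩ := exists_midpoint_affine_ball hP z₀ r₀ hr
  have hsym : ∀ v : X, ‖v‖ < ρ → ‖c + v‖ + ‖c - v‖ = 2 * ‖c‖ := by
    intro v hv
    have h1 := haff (c + v) (c - v) (by rwa [add_sub_cancel_left])
      (by rw [sub_sub_cancel_left, norm_neg]; exact hv)
    have e1 : (1 / 2 : ℝ) • (c + v + (c - v)) = c := by module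
    rw [e1] at h1
    exact h1
  have hc0 : c ≠ 0 := by
    intro h0
    have hpos : 0 < ‖x₁‖ := norm_pos_iff.2 hx₁
    have hn : ‖(ρ / 2 / ‖x₁‖) • x₁‖ = ρ / 2 := by
      rw [norm_smul, Real.norm_of_nonneg (by positivity)]
      field_simp
    have h1 := hsym ((ρ / 2 / ‖x₁‖) • x₁) (by rw [hn]; linarith)
    rw [h0, zero_add, zero_sub, norm_neg, hn, norm_zero] at h1
    linarith
  have hpos : 0 < ‖c‖ := norm_pos_iff.2 hc0
  obtain ⟨ξ, hξ, hξc⟩ := exists_norming_vec c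
  have hloc : ∀ v : X, ‖v‖ < ρ → ‖c + v‖ = ‖c‖ + ξ v := by
    intro v hv
    have h1 := hsym v hv
    have h2 := hξ (c + v)
    have h3 := hξ (c - v)
    rw [map_add, hξc] at h2
    rw [map_sub, hξc] at h3
    linarith
  refine ⟨c, ξ, ρ / (2 * ‖c‖), hc0, hc, by positivity, ?_⟩
  intro v hv
  have hv2 : ‖‖c‖ • v‖ < ρ := by
    rw [norm_smul, norm_norm]
    rw [le_div_iff₀ (by positivity)] at hv
    nlinarith
  have h1 := hloc _ hv2
  have e1 : ‖c‖⁻¹ • c + v = ‖c‖⁻¹ • (c + ‖c‖ • v) := by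
    rw [smul_add, smul_smul, inv_mul_cancel₀ hpos.ne', one_smul]
  rw [e1, norm_smul, norm_inv, norm_norm, h1, map_smul, smul_eq_mul]
  field_simp

/-- Second Baire category argument: every point of the unit sphere lies in a flat face. -/
theorem exists_flat_face [CompleteSpace X] (hP : LocAffine X) (x : X) (hx : ‖x‖ = 1) :
    ∃ (c : X) (ξ : StrongDual ℝ X) (ρ : ℝ), Flat c ξ ρ ∧ ξ x = 1 := by
  have hx0 : x ≠ 0 := by
    intro h
    rw [h, norm_zero] at hx
    exact zero_ne_one hx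
  obtain ⟨A, hA_def⟩ : ∃ A : ℕ → Set X, A = fun (n : ℕ) => {y : X |
      ‖x + (1 / ((n : ℝ) + 1)) • y‖ + 1 = 2 * ‖x + (1 / ((n : ℝ) + 1) / 2) • y‖} := ⟨_, rfl⟩
  have hAc : ∀ n, IsClosed (A n) := by
    intro n
    rw [hA_def]
    apply isClosed_eq <;> fun_prop
  have hAu : ⋃ n, A n = Set.univ := by
    rw [Set.eq_univ_iff_forall]
    intro y
    obtain ⟨ε, hε, m, hm⟩ := hP x y
    obtain ⟨n, hn⟩ := exists_nat_one_div_lt hε
    rw [Set.mem_iUnion]
    refine ⟨n, ?_⟩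
    rw [hA_def]
    have hτ : (0 : ℝ) < 1 / ((n : ℝ) + 1) := by positivity
    change ‖x + (1 / ((n : ℝ) + 1)) • y‖ + 1 = 2 * ‖x + (1 / ((n : ℝ) + 1) / 2) • y‖
    rw [hm _ hτ.le hn.le, hm _ (by linarith) (by linarith), hx]
    ring
  obtain ⟨n, y₀, hy₀⟩ := nonempty_interior_of_iUnion_of_closed hAc hAu
  rw [mem_interior_iff_mem_nhds, Metric.mem_nhds_iff] at hy₀
  obtain ⟨r, hr, hball⟩ := hy₀
  have hn1 : (0 : ℝ) < (n : ℝ) + 1 := by positivity
  obtain ⟨c, ξ, ρ, hc0, hc, hflat⟩ := exists_flat_near hP x hx0 (x + (1 / ((n : ℝ) + 1)) • y₀)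
    (r / ((n : ℝ) + 1)) (by positivity)
  have hy : ((n : ℝ) + 1) • (c - x) ∈ A n := by
    apply hball
    rw [Metric.mem_ball, dist_eq_norm]
    have e1 : ((n : ℝ) + 1) • (c - x) - y₀
        = ((n : ℝ) + 1) • (c - (x + (1 / ((n : ℝ) + 1)) • y₀)) := by
      rw [smul_sub, smul_sub, smul_add, smul_smul, mul_one_div_cancel hn1.ne', one_smul]
      abel
    rw [e1, norm_smul, Real.norm_of_nonneg hn1.le]
    rw [lt_div_iff₀ hn1] at hc
    linarith
  rw [hA_def] at hy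
  change ‖x + (1 / ((n : ℝ) + 1)) • (((n : ℝ) + 1) • (c - x))‖ + 1
    = 2 * ‖x + (1 / ((n : ℝ) + 1) / 2) • (((n : ℝ) + 1) • (c - x))‖ at hy
  have e2 : x + (1 / ((n : ℝ) + 1)) • (((n : ℝ) + 1) • (c - x)) = c := by
    rw [smul_smul, one_div_mul_cancel hn1.ne', one_smul]
    abel
  have e3 : x + (1 / ((n : ℝ) + 1) / 2) • (((n : ℝ) + 1) • (c - x)) = (1 / 2 : ℝ) • (x + c) := by
    rw [smul_smul]
    have : 1 / ((n : ℝ) + 1) / 2 * ((n : ℝ) + 1) = 1 / 2 := by field_simp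
    rw [this]
    module
  rw [e2, e3, norm_smul, Real.norm_of_nonneg (by norm_num)] at hy
  obtain ⟨χ, hχ, hχe⟩ := exists_norming_vec (x + c)
  have h1 := hχ x
  have h2 := hχ c
  rw [map_add] at hχe
  rw [hx] at h1
  have h3 : χ x = 1 := by linarith
  have h4 : χ c = ‖c‖ := by linarith
  have hpos : 0 < ‖c‖ := norm_pos_iff.2 hc0
  have h5 : χ = ξ := by
    apply hflat.unique hχ
    rw [map_smul, h4, smul_eq_mul]
    exact inv_mul_cancel₀ hpos.ne'
  exact ⟨_, ξ, ρ, hflat, by rw [← h5]; exact h3⟩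

/-- Along every half-line issuing from a point of the unit sphere the norm initially coincides
with the functional of a flat face. -/
theorem flat_direction [CompleteSpace X] (hP : LocAffine X) (x k : X) (hx : ‖x‖ = 1) :
    ∃ (c : X) (ξ : StrongDual ℝ X) (ρ ε : ℝ), Flat c ξ ρ ∧ 0 < ε ∧
      ∀ t, 0 ≤ t → t ≤ ε → ‖x + t • k‖ = ξ (x + t • k) := by
  obtain ⟨ε, hε, m, hm⟩ := hP x k
  have h1 := hm ε hε.le le_rfl
  have h2 := hm (ε / 2) (by linarith) (by linarith)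
  rw [hx] at h1 h2
  have h3 := norm_nonneg (x + ε • k)
  have hpos : 0 < ‖x + (ε / 2) • k‖ := by rw [h2]; linarith
  have hq : ‖‖x + (ε / 2) • k‖⁻¹ • (x + (ε / 2) • k)‖ = 1 := by
    rw [norm_smul, norm_inv, norm_norm]
    exact inv_mul_cancel₀ hpos.ne'
  obtain ⟨c, ξ, ρ, hflat, hξ⟩ := exists_flat_face hP _ hq
  rw [map_smul, smul_eq_mul, inv_mul_eq_one₀ hpos.ne'] at hξ
  have h4 := hflat.le_norm x
  have h5 := hflat.le_norm (x + ε • k)
  rw [hx] at h4
  rw [h1, map_add, map_smul, smul_eq_mul] at h5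
  rw [h2, map_add, map_smul, smul_eq_mul] at hξ
  have h6 : ξ x = 1 := by linarith
  have h7 : ε * ξ k = ε * m := by linarith
  have h8 : ξ k = m := mul_left_cancel₀ hε.ne' h7
  refine ⟨c, ξ, ρ, ε, hflat, hε, fun t ht0 ht1 => ?_⟩
  rw [hm t ht0 ht1, hx, map_add, map_smul, smul_eq_mul, h6, h8]

end Vale.Agent.P084
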