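import Mathlib
import Vale.Agent.P084.PolyB

/-!
In a polyhedral space (the unit ball of every finite-dimensional subspace is a polytope) the norm
is affine on an initial piece of every half-line.
-/

namespace Vale.Agent.P084

variable {X : Type*} [NormedAddCommGroup X] [NormedSpace ℝ X]

theorem polytope_support (V : Submodule ℝ X) (s : Finset X)
    (hs : (V : Set X) ∩ Metric.closedBall 0 1 = convexHull ℝ (s : Set X)) (y : X) (hy : y ∈ V) :
    ∃ (I : Finset X) (c : X → ℝ), I ⊆ s ∧ (∑ i ∈ I, c i • i = y) ∧ (∑ i ∈ I, c i = ‖y‖) ∧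
      ∀ f : StrongDual ℝ X, (∀ w, f w ≤ ‖w‖) → f y = ‖y‖ → ∀ i ∈ I, f i = 1 := by
  classical
  rcases eq_or_ne y 0 with rfl | hy0
  · exact ⟨∅, 0, Finset.empty_subset _, by simp, by simp, by simp⟩
  have hpos : 0 < ‖y‖ := norm_pos_iff.2 hy0
  have hq : ‖‖y‖⁻¹ • y‖ = 1 := by
    rw [norm_smul, norm_inv, norm_norm]
    exact inv_mul_cancel₀ hpos.ne'
  have hmem : ‖y‖⁻¹ • y ∈ convexHull ℝ (s : Set X) := by
    rw [← hs]
    refine ⟨V.smul_mem _ hy, ?_⟩
    rw [mem_closedBall_zero_iff, hq]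
  rw [Finset.mem_convexHull'] at hmem
  obtain ⟨w, hw0, hw1, hwy⟩ := hmem
  have hsn : ∀ i ∈ s, ‖i‖ ≤ 1 := by
    intro i hi
    have h1 : i ∈ convexHull ℝ (s : Set X) := subset_convexHull ℝ _ hi
    rw [← hs] at h1
    exact mem_closedBall_zero_iff.1 h1.2
  have hfil1 : ∑ i ∈ s.filter (fun i => 0 < w i), w i • i = ∑ i ∈ s, w i • i := by
    apply Finset.sum_filter_of_ne
    intro i hi hne
    apply lt_of_le_of_ne (hw0 i hi)
    intro h
    apply hne
    rw [← h, zero_smul]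
  have hfil2 : ∑ i ∈ s.filter (fun i => 0 < w i), w i = ∑ i ∈ s, w i := by
    apply Finset.sum_filter_of_ne
    intro i hi hne
    exact lt_of_le_of_ne (hw0 i hi) (Ne.symm hne)
  refine ⟨s.filter (fun i => 0 < w i), fun i => ‖y‖ * w i, Finset.filter_subset _ _, ?_, ?_, ?_⟩
  · simp_rw [mul_smul]
    rw [← Finset.smul_sum, hfil1, hwy, smul_smul, mul_inv_cancel₀ hpos.ne', one_smul]
  · rw [← Finset.mul_sum, hfil2, hw1, mul_one]
  · intro f hf hfy i hi
    rw [Finset.mem_filter] at hi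
    have h1 : f (‖y‖⁻¹ • y) = 1 := by
      rw [map_smul, hfy, smul_eq_mul]
      exact inv_mul_cancel₀ hpos.ne'
    rw [← hwy, map_sum] at h1
    have h2 : ∑ j ∈ s, w j * (1 - f j) = 0 := by
      simp_rw [mul_sub, mul_one]
      rw [Finset.sum_sub_distrib, hw1, ← h1]
      simp
    have h3 : ∀ j ∈ s, 0 ≤ w j * (1 - f j) := by
      intro j hj
      apply mul_nonneg (hw0 j hj)
      have := hf j
      have := hsn j hj
      linarith
    have h4 := (Finset.sum_eq_zero_iff_of_nonneg h3).1 h2 i hi.1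
    rcases mul_eq_zero.1 h4 with h | h
    · exact absurd h hi.2.ne'
    · linarith

/-- A polyhedral space has a norm which is affine on an initial piece of every half-line. -/
theorem locAffine_of_polyhedral
    (h : ∀ V : Submodule ℝ X, FiniteDimensional ℝ V → ∃ s : Finset X,
      (V : Set X) ∩ Metric.closedBall 0 1 = convexHull ℝ (s : Set X)) : LocAffine X := by
  classical
  intro z w
  obtain ⟨s, hs⟩ := h (Submodule.span ℝ {z, w})
    (FiniteDimensional.span_of_finite ℝ (Set.toFinite {z, w}))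
  have hzV : z ∈ Submodule.span ℝ {z, w} := Submodule.subset_span (by simp)
  have hwV : w ∈ Submodule.span ℝ {z, w} := Submodule.subset_span (by simp)
  have hyV : ∀ n : ℕ, z + (1 / ((n : ℝ) + 1)) • w ∈ Submodule.span ℝ {z, w} := fun n =>
    Submodule.add_mem _ hzV (Submodule.smul_mem _ _ hwV)
  choose I c hI hsum hc hf using fun n => polytope_support _ s hs _ (hyV n)
  choose f hfle hfy using fun n : ℕ => exists_norming_vec (z + (1 / ((n : ℝ) + 1)) • w)
  obtain ⟨J, hJ⟩ := Finite.exists_infinite_fiber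
    (fun n : ℕ => (⟨I n, Finset.mem_powerset.2 (hI n)⟩ : {K // K ∈ s.powerset}))
  have hinf := Set.infinite_coe_iff.1 hJ
  have hfib : ∀ n, n ∈ (fun n : ℕ => (⟨I n, Finset.mem_powerset.2 (hI n)⟩ :
      {K // K ∈ s.powerset})) ⁻¹' {J} → I n = J.1 := by
    intro n hn
    exact congrArg Subtype.val hn
  obtain ⟨n₁, hn₁⟩ := hinf.nonempty
  have key : ∀ l, I l = J.1 →
      f n₁ (z + (1 / ((l : ℝ) + 1)) • w) = ‖z + (1 / ((l : ℝ) + 1)) • w‖ := by
    intro l hl
    conv_lhs => rw [← hsum l]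
    rw [map_sum, ← hc l]
    apply Finset.sum_congr rfl
    intro i hi
    rw [map_smul, smul_eq_mul, hf n₁ (f n₁) (hfle n₁) (hfy n₁) i
      (by rw [hfib n₁ hn₁, ← hl]; exact hi), mul_one]
  have hz : f n₁ z = ‖z‖ := by
    by_contra hne
    have hlt : f n₁ z < ‖z‖ := lt_of_le_of_ne (hfle n₁ z) hne
    have hw0 := norm_nonneg w
    obtain ⟨N, hN⟩ := exists_nat_one_div_lt
      (show 0 < (‖z‖ - f n₁ z) / (2 * ‖w‖ + 1) by
        apply div_pos (by linarith) (by linarith))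
    obtain ⟨l, hl, hNl⟩ := hinf.exists_gt N
    have h1 := key l (hfib l hl)
    have hτ : (0 : ℝ) < 1 / ((l : ℝ) + 1) := by positivity
    have hτ2 : 1 / ((l : ℝ) + 1) < (‖z‖ - f n₁ z) / (2 * ‖w‖ + 1) := by
      refine lt_trans ?_ hN
      apply one_div_lt_one_div_of_lt (by positivity)
      have : (N : ℝ) < l := by exact_mod_cast hNl
      linarith
    rw [lt_div_iff₀ (by linarith)] at hτ2
    rw [map_add, map_smul, smul_eq_mul] at h1
    have h2 := hfle n₁ w
    have h3 : ‖z‖ ≤ ‖z + (1 / ((l : ℝ) + 1)) • w‖ + ‖(1 / ((l : ℝ) + 1)) • w‖ := by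
      calc ‖z‖ = ‖(z + (1 / ((l : ℝ) + 1)) • w) - (1 / ((l : ℝ) + 1)) • w‖ := by
            rw [add_sub_cancel_right]
        _ ≤ _ := norm_sub_le _ _
    rw [norm_smul, Real.norm_of_nonneg hτ.le] at h3
    nlinarith
  have hε : (0 : ℝ) < 1 / ((n₁ : ℝ) + 1) := by positivity
  obtain ⟨ε, hε_def⟩ : ∃ ε, ε = 1 / ((n₁ : ℝ) + 1) := ⟨_, rfl⟩
  rw [← hε_def] at hε
  have hend := hfy n₁
  rw [← hε_def, map_add, map_smul, smul_eq_mul, hz] at hend
  refine ⟨ε, hε, f n₁ w, fun t ht0 ht1 => ?_⟩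
  apply le_antisymm
  · have e1 : z + t • w = (1 - t / ε) • z + (t / ε) • (z + ε • w) := by
      rw [smul_add, smul_smul, div_mul_cancel₀ _ hε.ne', sub_smul, one_smul]
      abel
    have h0 : 0 ≤ t / ε := div_nonneg ht0 hε.le
    have h1 : t / ε ≤ 1 := (div_le_one hε).2 ht1
    rw [e1]
    calc ‖(1 - t / ε) • z + (t / ε) • (z + ε • w)‖
        ≤ ‖(1 - t / ε) • z‖ + ‖(t / ε) • (z + ε • w)‖ := norm_add_le _ _
      _ = (1 - t / ε) * ‖z‖ + t / ε * ‖z + ε • w‖ := by
          rw [norm_smul, norm_smul, Real.norm_of_nonneg h0, Real.norm_of_nonneg (by linarith)]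
      _ = ‖z‖ + t * f n₁ w := by
          rw [← hend]
          field_simp
          ring
  · have := hfle n₁ (z + t • w)
    rw [map_add, map_smul, smul_eq_mul, hz] at this
    exact this

end Vale.Agent.P084
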