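import Mathlib
import Vale.Agent.P084.PolyA
import Vale.Agent.P084.PolyC
import Vale.Agent.P084.CombC

/-!
Every polyhedral Banach space has the Mazur-Ulam property.
-/

namespace Vale.Agent.P084

variable {X Y : Type*} [NormedAddCommGroup X] [NormedSpace ℝ X] [CompleteSpace X] [Nontrivial X]
  [NormedAddCommGroup Y] [NormedSpace ℝ Y]

theorem locAffine_mup (hP : LocAffine X)
    (f : Metric.sphere (0 : X) 1 → Metric.sphere (0 : Y) 1) (hf : Isometry f)
    (hs : Function.Surjective f) :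
    ∃ Λ : X ≃ₗᵢ[ℝ] Y, ∀ z : Metric.sphere (0 : X) 1, Λ z = f z := by
  obtain ⟨x₀, hx₀⟩ := exists_norm_eq X (zero_le_one (α := ℝ))
  exact sphere_form (fun T hT1 hTd hTs =>
    flat_cover_extension T hT1 hTd hTs x₀ hx₀ (fun x k hx => flat_direction hP x k hx)) f hf hs

theorem polyhedral_mup
    (h : ∀ V : Submodule ℝ X, FiniteDimensional ℝ V → ∃ s : Finset X,
      (V : Set X) ∩ Metric.closedBall 0 1 = convexHull ℝ (s : Set X))
    (f : Metric.sphere (0 : X) 1 → Metric.sphere (0 : Y) 1) (hf : Isometry f)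
    (hs : Function.Surjective f) :
    ∃ Λ : X ≃ₗᵢ[ℝ] Y, ∀ z : Metric.sphere (0 : X) 1, Λ z = f z :=
  locAffine_mup (locAffine_of_polyhedral h) f hf hs

end Vale.Agent.P084
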