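import Mathlib

/-!
The Schreier family and the norms of the Schreier space and of its convexifications.
-/

namespace Vale.Agent.P084

/-- Schreier sets: the finite sets `F` of positive integers with `|F| ≤ min F`.
The index `i : ℕ` stands for the positive integer `i + 1`. -/
def IsSchreier (F : Finset ℕ) : Prop := ∀ i ∈ F, F.card ≤ i + 1

/-- The norm of the `p`-convexified Schreier space on finitely supported sequences:
the supremum over all Schreier sets `F` of `(∑ i ∈ F, |x i| ^ p) ^ (1 / p)`.
For `p = 1` this is the norm of the Schreier space. -/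
noncomputable def schreierNorm (p : ℝ) (x : ℕ →₀ ℝ) : ℝ :=
  ⨆ F : {F : Finset ℕ // IsSchreier F}, (∑ i ∈ F.1, |x i| ^ p) ^ (1 / p)

end Vale.Agent.P084
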