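import Mathlib
import Vale.Agent.P084.SchreierDef
import Vale.Agent.P084.Summand

/-!
The Schreier space and its convexifications have the Mazur-Ulam property: the first
coordinate spans a one-dimensional M-summand.
-/

namespace Vale.Agent.P084

theorem schreier_bdd (p : ℝ) (hp : 0 < p) (x : ℕ →₀ ℝ) :
    BddAbove (Set.range fun F : {F : Finset ℕ // IsSchreier F} =>
      (∑ i ∈ F.1, |x i| ^ p) ^ (1 / p)) := by
  refine ⟨(∑ i ∈ x.support, |x i| ^ p) ^ (1 / p), ?_⟩
  rintro _ ⟨F, rfl⟩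
  have hnn : ∀ i, 0 ≤ |x i| ^ p := fun i => Real.rpow_nonneg (abs_nonneg _) _
  apply Real.rpow_le_rpow (Finset.sum_nonneg fun i _ => hnn i) _ (by positivity)
  have h1 : ∑ i ∈ F.1, |x i| ^ p = ∑ i ∈ F.1.filter (fun i => i ∈ x.support), |x i| ^ p := by
    rw [Finset.sum_filter]
    apply Finset.sum_congr rfl
    intro i _
    split_ifs with h
    · rfl
    · rw [Finsupp.notMem_support_iff.1 h, abs_zero, Real.zero_rpow hp.ne']
  rw [h1]
  apply Finset.sum_le_sum_of_subset_of_nonneg
  · intro i hi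
    exact (Finset.mem_filter.1 hi).2
  · intro i _ _
    exact hnn i

theorem isSchreier_singleton (i : ℕ) : IsSchreier {i} := by
  intro j hj
  rw [Finset.card_singleton]
  omega

theorem schreier_term_singleton (p : ℝ) (hp : 0 < p) (x : ℕ →₀ ℝ) (i : ℕ) :
    (∑ j ∈ ({i} : Finset ℕ), |x j| ^ p) ^ (1 / p) = |x i| := by
  rw [Finset.sum_singleton, one_div, Real.rpow_rpow_inv (abs_nonneg _) hp.ne']

theorem abs_le_schreierNorm (p : ℝ) (hp : 0 < p) (x : ℕ →₀ ℝ) (i : ℕ) :
    |x i| ≤ schreierNorm p x := by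
  have := le_ciSup (schreier_bdd p hp x) ⟨{i}, isSchreier_singleton i⟩
  rwa [schreier_term_singleton p hp x i] at this

theorem schreier_zero_mem {F : Finset ℕ} (hF : IsSchreier F) (h0 : 0 ∈ F) : F = {0} := by
  have h1 : F.card ≤ 1 := hF 0 h0
  obtain ⟨a, ha⟩ := Finset.card_eq_one.1 (le_antisymm h1 (Finset.card_pos.2 ⟨0, h0⟩))
  rw [ha] at h0 ⊢
  rw [Finset.mem_singleton.1 h0]

/-- The first coordinate splits off as an M-summand. -/
theorem schreierNorm_split (p : ℝ) (hp : 0 < p) (x : ℕ →₀ ℝ) :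
    schreierNorm p x = max (schreierNorm p (x.erase 0)) |x 0| := by
  have hnn : ∀ (y : ℕ →₀ ℝ) i, 0 ≤ |y i| ^ p := fun y i => Real.rpow_nonneg (abs_nonneg _) _
  have : Nonempty {F : Finset ℕ // IsSchreier F} := ⟨⟨{0}, isSchreier_singleton 0⟩⟩
  apply le_antisymm
  · apply ciSup_le
    intro F
    by_cases h0 : 0 ∈ F.1
    · have hF := schreier_zero_mem F.2 h0
      rw [hF, schreier_term_singleton p hp x 0]
      exact le_max_right _ _
    · refine le_trans ?_ (le_max_left _ _)
      have h1 : ∑ i ∈ F.1, |x i| ^ p = ∑ i ∈ F.1, |(x.erase 0) i| ^ p := by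
        apply Finset.sum_congr rfl
        intro i hi
        have : i ≠ 0 := fun h => h0 (h ▸ hi)
        rw [Finsupp.erase_ne this]
      rw [h1]
      exact le_ciSup (schreier_bdd p hp (x.erase 0)) F
  · apply max_le
    · apply ciSup_le
      intro F
      refine le_trans ?_ (le_ciSup (schreier_bdd p hp x) F)
      apply Real.rpow_le_rpow (Finset.sum_nonneg fun i _ => hnn _ i) _ (by positivity)
      apply Finset.sum_le_sum
      intro i _
      by_cases hi : i = 0
      · rw [hi, Finsupp.erase_same, abs_zero, Real.zero_rpow hp.ne']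
        exact hnn x 0
      · rw [Finsupp.erase_ne hi]
    · exact abs_le_schreierNorm p hp x 0

variable {Z Y : Type*} [NormedAddCommGroup Z] [NormedSpace ℝ Z]
  [NormedAddCommGroup Y] [NormedSpace ℝ Y]

/-- Every normed space containing the finitely supported sequences, normed by the
(convexified) Schreier norm, as a dense subspace has the Mazur-Ulam property. -/
theorem schreier_mup (p : ℝ) (hp : 0 < p) (ι : (ℕ →₀ ℝ) →ₗ[ℝ] Z) (hι : DenseRange ι)
    (hn : ∀ x, ‖ι x‖ = schreierNorm p x)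
    (f : Metric.sphere (0 : Z) 1 → Metric.sphere (0 : Y) 1) (hf : Isometry f)
    (hs : Function.Surjective f) :
    ∃ Λ : Z ≃ₗᵢ[ℝ] Y, ∀ z : Metric.sphere (0 : Z) 1, Λ z = f z := by
  have hinj : Function.Injective ι := by
    rw [injective_iff_map_eq_zero]
    intro x hx
    ext i
    have h1 := abs_le_schreierNorm p hp x i
    rw [← hn, hx, norm_zero] at h1
    exact abs_eq_zero.1 (le_antisymm h1 (abs_nonneg _))
  let E := LinearEquiv.ofInjective ι hinj
  let φ₀ : (LinearMap.range ι) →ₗ[ℝ] ℝ := (Finsupp.lapply 0) ∘ₗ E.symm.toLinearMap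
  have hφ₀ : ∀ x, φ₀ ⟨ι x, LinearMap.mem_range_self ι x⟩ = x 0 := by
    intro x
    have : E.symm ⟨ι x, LinearMap.mem_range_self ι x⟩ = x := by
      rw [LinearEquiv.symm_apply_eq]
      rfl
    change (E.symm ⟨ι x, LinearMap.mem_range_self ι x⟩) 0 = x 0
    rw [this]
  have hbound : ∀ r : LinearMap.range ι, ‖φ₀ r‖ ≤ 1 * ‖r‖ := by
    rintro ⟨_, x, rfl⟩
    rw [hφ₀, one_mul, Real.norm_eq_abs]
    change |x 0| ≤ ‖ι x‖
    rw [hn]
    exact abs_le_schreierNorm p hp x 0
  obtain ⟨φ, hφ, -⟩ := exists_extension_norm_eq (LinearMap.range ι) (φ₀.mkContinuous 1 hbound)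
  have hφι : ∀ x, φ (ι x) = x 0 := by
    intro x
    have := hφ ⟨ι x, LinearMap.mem_range_self ι x⟩
    rw [LinearMap.mkContinuous_apply, hφ₀] at this
    exact this
  refine mup_of_M_summand (ι (Finsupp.single 0 1)) φ (by rw [hφι]; simp) ?_ f hf hs
  intro z
  refine hι.induction_on (p := fun z => ‖z‖ = max ‖z - φ z • ι (Finsupp.single 0 1)‖ |φ z|) z ?_ ?_
  · apply isClosed_eq continuous_norm
    fun_prop
  · intro x
    have h1 : ι x - φ (ι x) • ι (Finsupp.single 0 1) = ι (x.erase 0) := by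
      rw [hφι, ← map_smul, ← map_sub, Finsupp.smul_single, smul_eq_mul, mul_one,
        Finsupp.erase_eq_sub_single]
    rw [h1, hφι, hn, hn]
    exact schreierNorm_split p hp x

end Vale.Agent.P084
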