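import Mathlib
import Vale.Agent.P084.SchreierDef
import Vale.Agent.P084.Schreier

/-!
Existence of the (convexified) Schreier space as a Banach space.
-/

namespace Vale.Agent.P084

open scoped ENNReal

theorem schreier_exists (p : ℝ) (hp : 1 ≤ p) :
    ∃ (Z : Type) (_ : NormedAddCommGroup Z) (_ : NormedSpace ℝ Z) (_ : CompleteSpace Z)
      (ι : (ℕ →₀ ℝ) →ₗ[ℝ] Z), DenseRange ι ∧ ∀ x, ‖ι x‖ = schreierNorm p x := by
  have hp0 : 0 < p := by linarith
  have hP : Fact (1 ≤ ENNReal.ofReal p) := ⟨by
    rw [← ENNReal.ofReal_one]; exact ENNReal.ofReal_le_ofReal hp⟩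
  have hPr : (ENNReal.ofReal p).toReal = p := ENNReal.toReal_ofReal hp0.le
  let I := {F : Finset ℕ // IsSchreier F}
  let E : I → Type := fun F => PiLp (ENNReal.ofReal p) (fun _ : F.1 => ℝ)
  have hterm : ∀ (x : ℕ →₀ ℝ) (F : I),
      ‖(WithLp.toLp (ENNReal.ofReal p) (fun i : F.1 => x i) : E F)‖
        = (∑ i ∈ F.1, |x i| ^ p) ^ (1 / p) := by
    intro x F
    rw [PiLp.norm_eq_sum (by rw [hPr]; exact hp0), hPr]
    congr 1
    exact Finset.sum_coe_sort F.1 (fun i => |x i| ^ p)
  have hmem : ∀ x : ℕ →₀ ℝ,
      Memℓp (fun F : I => (WithLp.toLp (ENNReal.ofReal p) (fun i : F.1 => x i) : E F)) ∞ := by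
    intro x
    apply memℓp_infty
    have := schreier_bdd p hp0 x
    simpa only [hterm] using this
  let J : (ℕ →₀ ℝ) →ₗ[ℝ] lp E ∞ :=
    { toFun := fun x => ⟨fun F => WithLp.toLp (ENNReal.ofReal p) (fun i : F.1 => x i), hmem x⟩
      map_add' := fun x y => by
        apply Subtype.ext
        funext F
        rfl
      map_smul' := fun c x => by
        apply Subtype.ext
        funext F
        rfl }
  have hJ : ∀ x, ‖J x‖ = schreierNorm p x := by
    intro x
    rw [lp.norm_eq_ciSup]
    unfold schreierNorm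
    apply iSup_congr
    intro F
    exact hterm x F
  refine ⟨UniformSpace.Completion (LinearMap.range J), inferInstance, inferInstance, inferInstance,
    (UniformSpace.Completion.toComplₗᵢ (𝕜 := ℝ) (E := LinearMap.range J)).toLinearMap ∘ₗ
      J.rangeRestrict, ?_, ?_⟩
  · have h1 : DenseRange ((↑) : LinearMap.range J → UniformSpace.Completion (LinearMap.range J)) :=
      UniformSpace.Completion.denseRange_coe
    have h2 : Function.Surjective J.rangeRestrict := LinearMap.surjective_rangeRestrict J
    exact h1.comp h2.denseRange (UniformSpace.Completion.continuous_coe _)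
  · intro x
    change ‖((J.rangeRestrict x : LinearMap.range J) :
      UniformSpace.Completion (LinearMap.range J))‖ = _
    rw [UniformSpace.Completion.norm_coe, ← hJ x]
    rfl

end Vale.Agent.P084
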