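import Mathlib
import Vale.Agent.P084.CombP

/-!
The classical Schreier family is the Schreier family of order one.
-/

namespace Vale.Agent.P084

theorem isSchreierFamily_classical : IsSchreierFamily {F | ∀ i ∈ F, F.card ≤ i + 1} := by
  have key : {F : Finset ℕ | ∀ i ∈ F, F.card ≤ i + 1} =
      {F | ∃ (n : ℕ) (E : Fin n → Finset ℕ), (∀ j, E j ∈ {G : Finset ℕ | G.card ≤ 1}) ∧
        (∀ j j', j < j' → ∀ a ∈ E j, ∀ b ∈ E j', a < b) ∧ (∀ j, ∀ i ∈ E j, n ≤ i + 1) ∧
        F = Finset.univ.biUnion E} := by
    ext F
    constructor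
    · intro hF
      refine ⟨F.card, fun j => {F.orderEmbOfFin rfl j}, ?_, ?_, ?_, ?_⟩
      · intro j
        change ({F.orderEmbOfFin rfl j} : Finset ℕ).card ≤ 1
        rw [Finset.card_singleton]
      · intro j j' hjj' a ha b hb
        rw [Finset.mem_singleton] at ha hb
        rw [ha, hb]
        exact (F.orderEmbOfFin rfl).strictMono hjj'
      · intro j i hi
        rw [Finset.mem_singleton] at hi
        rw [hi]
        exact hF _ (Finset.orderEmbOfFin_mem F rfl j)
      · ext k
        rw [Finset.mem_biUnion]
        constructor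
        · intro hk
          have h1 : k ∈ Set.range (F.orderEmbOfFin rfl) := by
            rw [Finset.range_orderEmbOfFin]
            exact hk
          obtain ⟨j, hj⟩ := h1
          exact ⟨j, Finset.mem_univ _, by rw [Finset.mem_singleton, hj]⟩
        · rintro ⟨j, -, hk⟩
          rw [Finset.mem_singleton] at hk
          rw [hk]
          exact Finset.orderEmbOfFin_mem F rfl j
    · rintro ⟨n, E, hE, -, hmin, rfl⟩ i hi
      rw [Finset.mem_biUnion] at hi
      obtain ⟨j, -, hj⟩ := hi
      refine le_trans ?_ (hmin j i hj)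
      calc (Finset.univ.biUnion E).card ≤ ∑ j : Fin n, (E j).card := Finset.card_biUnion_le
        _ ≤ ∑ _j : Fin n, 1 := Finset.sum_le_sum fun j _ => hE j
        _ = n := by simp
  rw [key]
  exact IsSchreierFamily.succ _ IsSchreierFamily.zero

end Vale.Agent.P084
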