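import Mathlib

/-!
The norms of the combinatorial Tsirelson spaces.
-/

namespace Vale.Agent.P084

/-- A finite sequence `E 0 < E 1 < ...` of `d` successive nonempty finite sets of natural numbers
is admissible for the family `𝓕` if the set of the minima of the sets `E j` belongs to `𝓕`. -/
def Admissible (𝓕 : Set (Finset ℕ)) (d : ℕ) (E : Fin d → Finset ℕ) : Prop :=
  (∀ j j', j < j' → ∀ a ∈ E j, ∀ b ∈ E j', a < b) ∧
    ∃ m : Fin d → ℕ, (∀ j, m j ∈ E j ∧ ∀ i ∈ E j, m j ≤ i) ∧ Finset.univ.image m ∈ 𝓕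

/-- The approximating norms of the Tsirelson norm (Figiel-Johnson): `tsN θ 𝓕 0 x` is the
supremum norm and `tsN θ 𝓕 (m + 1) x` is the maximum of `tsN θ 𝓕 m x` and of `θ` times the
supremum, over all admissible sequences `E`, of `∑ j, tsN θ 𝓕 m (E j x)`, where `E j x` is
the restriction of `x` to `E j`. -/
noncomputable def tsN (θ : ℝ) (𝓕 : Set (Finset ℕ)) : ℕ → (ℕ →₀ ℝ) → ℝ
  | 0, x => ⨆ i, |x i|
  | m + 1, x => max (tsN θ 𝓕 m x)
      (θ * ⨆ A : (Σ d, {E : Fin d → Finset ℕ // Admissible 𝓕 d E}),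
        ∑ j, tsN θ 𝓕 m (x.filter (· ∈ A.2.1 j)))

/-- The norm of the combinatorial Tsirelson space `T[θ, 𝓕]` on finitely supported sequences. -/
noncomputable def tsNorm (θ : ℝ) (𝓕 : Set (Finset ℕ)) (x : ℕ →₀ ℝ) : ℝ :=
  ⨆ m, tsN θ 𝓕 m x

end Vale.Agent.P084
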