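import Mathlib
import Vale.Agent.P084.TsDef

/-!
Basic properties of the Tsirelson norms: bounds and seminorm properties.
-/

namespace Vale.Agent.P084

/-- The sum norm on finitely supported sequences. -/
noncomputable def l1 (x : ℕ →₀ ℝ) : ℝ := ∑ i ∈ x.support, |x i|

theorem l1_nonneg (x : ℕ →₀ ℝ) : 0 ≤ l1 x := Finset.sum_nonneg fun _ _ => abs_nonneg _

theorem abs_le_l1 (x : ℕ →₀ ℝ) (i : ℕ) : |x i| ≤ l1 x := by
  by_cases hi : i ∈ x.support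
  · exact Finset.single_le_sum (f := fun j => |x j|) (fun j _ => abs_nonneg _) hi
  · rw [Finsupp.notMem_support_iff.1 hi, abs_zero]
    exact l1_nonneg x

theorem l1_filter (x : ℕ →₀ ℝ) (E : Finset ℕ) :
    l1 (x.filter (· ∈ E)) = ∑ i ∈ x.support.filter (· ∈ E), |x i| := by
  unfold l1
  rw [Finsupp.support_filter]
  apply Finset.sum_congr rfl
  intro i hi
  rw [Finsupp.filter_apply_pos _ _ (Finset.mem_filter.1 hi).2]

theorem sum_l1_filter_le (x : ℕ →₀ ℝ) {d : ℕ} (E : Fin d → Finset ℕ)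
    (hE : ∀ j j', j < j' → ∀ a ∈ E j, ∀ b ∈ E j', a < b) :
    ∑ j, l1 (x.filter (· ∈ E j)) ≤ l1 x := by
  simp_rw [l1_filter]
  have hdisj : Set.PairwiseDisjoint (↑(Finset.univ : Finset (Fin d)))
      (fun j => x.support.filter (· ∈ E j)) := by
    intro j _ j' _ hne
    rw [Function.onFun, Finset.disjoint_left]
    intro a ha ha'
    have h1 := (Finset.mem_filter.1 ha).2
    have h2 := (Finset.mem_filter.1 ha').2
    rcases lt_or_gt_of_ne hne with h | h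
    · exact lt_irrefl a (hE j j' h a h1 a h2)
    · exact lt_irrefl a (hE j' j h a h2 a h1)
  rw [← Finset.sum_biUnion hdisj]
  unfold l1
  apply Finset.sum_le_sum_of_subset_of_nonneg
  · intro i hi
    rw [Finset.mem_biUnion] at hi
    obtain ⟨j, -, hj⟩ := hi
    exact (Finset.mem_filter.1 hj).1
  · intro i _ _
    exact abs_nonneg _

variable {θ : ℝ} {𝓕 : Set (Finset ℕ)}

theorem bdd_abs (x : ℕ →₀ ℝ) : BddAbove (Set.range fun i => |x i|) :=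
  ⟨l1 x, by rintro _ ⟨i, rfl⟩; exact abs_le_l1 x i⟩

theorem tsN_bounds (h0 : 0 ≤ θ) (h1 : θ ≤ 1) (m : ℕ) (x : ℕ →₀ ℝ) :
    0 ≤ tsN θ 𝓕 m x ∧ tsN θ 𝓕 m x ≤ l1 x := by
  induction m generalizing x with
  | zero =>
    exact ⟨Real.iSup_nonneg fun i => abs_nonneg _, ciSup_le fun i => abs_le_l1 x i⟩
  | succ m ih =>
    refine ⟨le_max_of_le_left (ih x).1, max_le (ih x).2 ?_⟩
    have h2 : (⨆ A : (Σ d, {E : Fin d → Finset ℕ // Admissible 𝓕 d E}),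
        ∑ j, tsN θ 𝓕 m (x.filter (· ∈ A.2.1 j))) ≤ l1 x := by
      apply Real.iSup_le _ (l1_nonneg x)
      intro A
      calc ∑ j, tsN θ 𝓕 m (x.filter (· ∈ A.2.1 j)) ≤ ∑ j, l1 (x.filter (· ∈ A.2.1 j)) :=
            Finset.sum_le_sum fun j _ => (ih _).2
        _ ≤ l1 x := sum_l1_filter_le x _ A.2.2.1
    have h3 : 0 ≤ (⨆ A : (Σ d, {E : Fin d → Finset ℕ // Admissible 𝓕 d E}),
        ∑ j, tsN θ 𝓕 m (x.filter (· ∈ A.2.1 j))) :=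
      Real.iSup_nonneg fun A => Finset.sum_nonneg fun j _ => (ih _).1
    nlinarith [l1_nonneg x]

theorem tsN_nonneg (h0 : 0 ≤ θ) (h1 : θ ≤ 1) (m : ℕ) (x : ℕ →₀ ℝ) : 0 ≤ tsN θ 𝓕 m x :=
  (tsN_bounds h0 h1 m x).1

theorem tsN_le_l1 (h0 : 0 ≤ θ) (h1 : θ ≤ 1) (m : ℕ) (x : ℕ →₀ ℝ) : tsN θ 𝓕 m x ≤ l1 x :=
  (tsN_bounds h0 h1 m x).2

theorem bdd_adm (h0 : 0 ≤ θ) (h1 : θ ≤ 1) (m : ℕ) (x : ℕ →₀ ℝ) :
    BddAbove (Set.range fun A : (Σ d, {E : Fin d → Finset ℕ // Admissible 𝓕 d E}) =>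
      ∑ j, tsN θ 𝓕 m (x.filter (· ∈ A.2.1 j))) := by
  refine ⟨l1 x, ?_⟩
  rintro _ ⟨A, rfl⟩
  calc ∑ j, tsN θ 𝓕 m (x.filter (· ∈ A.2.1 j)) ≤ ∑ j, l1 (x.filter (· ∈ A.2.1 j)) :=
        Finset.sum_le_sum fun j _ => tsN_le_l1 h0 h1 m _
    _ ≤ l1 x := sum_l1_filter_le x _ A.2.2.1

theorem adm_nonneg (h0 : 0 ≤ θ) (h1 : θ ≤ 1) (m : ℕ) (x : ℕ →₀ ℝ) :
    0 ≤ (⨆ A : (Σ d, {E : Fin d → Finset ℕ // Admissible 𝓕 d E}),
        ∑ j, tsN θ 𝓕 m (x.filter (· ∈ A.2.1 j))) :=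
  Real.iSup_nonneg fun A => Finset.sum_nonneg fun j _ => tsN_nonneg h0 h1 m _

theorem bdd_tsN (h0 : 0 ≤ θ) (h1 : θ ≤ 1) (x : ℕ →₀ ℝ) :
    BddAbove (Set.range fun m => tsN θ 𝓕 m x) :=
  ⟨l1 x, by rintro _ ⟨m, rfl⟩; exact tsN_le_l1 h0 h1 m x⟩

theorem tsN_add_le (h0 : 0 ≤ θ) (h1 : θ ≤ 1) (m : ℕ) (x y : ℕ →₀ ℝ) :
    tsN θ 𝓕 m (x + y) ≤ tsN θ 𝓕 m x + tsN θ 𝓕 m y := by
  induction m generalizing x y with
  | zero =>
    apply ciSup_le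
    intro i
    calc |(x + y) i| ≤ |x i| + |y i| := by rw [Finsupp.add_apply]; exact abs_add_le _ _
      _ ≤ _ := add_le_add (le_ciSup (bdd_abs x) i) (le_ciSup (bdd_abs y) i)
  | succ m ih =>
    apply max_le
    · exact (ih x y).trans (add_le_add (le_max_left _ _) (le_max_left _ _))
    · have h2 : (⨆ A : (Σ d, {E : Fin d → Finset ℕ // Admissible 𝓕 d E}),
          ∑ j, tsN θ 𝓕 m ((x + y).filter (· ∈ A.2.1 j))) ≤
          (⨆ A : (Σ d, {E : Fin d → Finset ℕ // Admissible 𝓕 d E}),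
            ∑ j, tsN θ 𝓕 m (x.filter (· ∈ A.2.1 j))) +
          (⨆ A : (Σ d, {E : Fin d → Finset ℕ // Admissible 𝓕 d E}),
            ∑ j, tsN θ 𝓕 m (y.filter (· ∈ A.2.1 j))) := by
        apply Real.iSup_le _ (add_nonneg (adm_nonneg h0 h1 m x) (adm_nonneg h0 h1 m y))
        intro A
        calc ∑ j, tsN θ 𝓕 m ((x + y).filter (· ∈ A.2.1 j))
            ≤ ∑ j, (tsN θ 𝓕 m (x.filter (· ∈ A.2.1 j)) + tsN θ 𝓕 m (y.filter (· ∈ A.2.1 j))) := by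
              apply Finset.sum_le_sum
              intro j _
              rw [Finsupp.filter_add]
              exact ih _ _
          _ = ∑ j, tsN θ 𝓕 m (x.filter (· ∈ A.2.1 j)) + ∑ j, tsN θ 𝓕 m (y.filter (· ∈ A.2.1 j)) :=
              Finset.sum_add_distrib
          _ ≤ _ := add_le_add (le_ciSup (bdd_adm h0 h1 m x) A) (le_ciSup (bdd_adm h0 h1 m y) A)
      calc θ * _ ≤ θ * (_ + _) := mul_le_mul_of_nonneg_left h2 h0
        _ = θ * _ + θ * _ := mul_add _ _ _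
        _ ≤ _ := add_le_add (le_max_right _ _) (le_max_right _ _)

theorem tsN_smul (m : ℕ) (c : ℝ) (x : ℕ →₀ ℝ) :
    tsN θ 𝓕 m (c • x) = |c| * tsN θ 𝓕 m x := by
  induction m generalizing x with
  | zero =>
    change (⨆ i, |(c • x) i|) = |c| * ⨆ i, |x i|
    rw [Real.mul_iSup_of_nonneg (abs_nonneg c)]
    apply iSup_congr
    intro i
    rw [Finsupp.smul_apply, smul_eq_mul, abs_mul]
  | succ m ih =>
    change max (tsN θ 𝓕 m (c • x)) (θ * ⨆ A : (Σ d, {E : Fin d → Finset ℕ // Admissible 𝓕 d E}),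
        ∑ j, tsN θ 𝓕 m ((c • x).filter (· ∈ A.2.1 j))) =
      |c| * max (tsN θ 𝓕 m x) (θ * ⨆ A : (Σ d, {E : Fin d → Finset ℕ // Admissible 𝓕 d E}),
        ∑ j, tsN θ 𝓕 m (x.filter (· ∈ A.2.1 j)))
    rw [mul_max_of_nonneg _ _ (abs_nonneg c), ih x, mul_left_comm,
      Real.mul_iSup_of_nonneg (abs_nonneg c)]
    congr 2
    apply iSup_congr
    intro A
    rw [Finset.mul_sum]
    apply Finset.sum_congr rfl
    intro j _
    rw [Finsupp.filter_smul, ih]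

theorem tsN_le_tsNorm (h0 : 0 ≤ θ) (h1 : θ ≤ 1) (m : ℕ) (x : ℕ →₀ ℝ) :
    tsN θ 𝓕 m x ≤ tsNorm θ 𝓕 x := le_ciSup (bdd_tsN h0 h1 x) m

theorem tsNorm_nonneg (h0 : 0 ≤ θ) (h1 : θ ≤ 1) (x : ℕ →₀ ℝ) : 0 ≤ tsNorm θ 𝓕 x :=
  Real.iSup_nonneg fun m => tsN_nonneg h0 h1 m x

theorem abs_le_tsNorm (h0 : 0 ≤ θ) (h1 : θ ≤ 1) (x : ℕ →₀ ℝ) (i : ℕ) :
    |x i| ≤ tsNorm θ 𝓕 x :=
  (le_ciSup (bdd_abs x) i).trans (tsN_le_tsNorm h0 h1 0 x)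

theorem tsNorm_add_le (h0 : 0 ≤ θ) (h1 : θ ≤ 1) (x y : ℕ →₀ ℝ) :
    tsNorm θ 𝓕 (x + y) ≤ tsNorm θ 𝓕 x + tsNorm θ 𝓕 y :=
  ciSup_le fun m => (tsN_add_le h0 h1 m x y).trans
    (add_le_add (tsN_le_tsNorm h0 h1 m x) (tsN_le_tsNorm h0 h1 m y))

theorem tsNorm_smul (c : ℝ) (x : ℕ →₀ ℝ) : tsNorm θ 𝓕 (c • x) = |c| * tsNorm θ 𝓕 x := by
  unfold tsNorm
  rw [Real.mul_iSup_of_nonneg (abs_nonneg c)]
  exact iSup_congr fun m => tsN_smul m c x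

theorem eq_zero_of_tsNorm (h0 : 0 ≤ θ) (h1 : θ ≤ 1) (x : ℕ →₀ ℝ) (h : tsNorm θ 𝓕 x = 0) :
    x = 0 := by
  ext i
  have := abs_le_tsNorm (𝓕 := 𝓕) h0 h1 x i
  rw [h] at this
  exact abs_eq_zero.1 (le_antisymm this (abs_nonneg _))

end Vale.Agent.P084
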