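import Mathlib
import Vale.Agent.P084.TsA

/-!
If `{0}` is the only member of `𝓕` containing `0`, the first coordinate splits off the
Tsirelson norm as an M-summand.
-/

namespace Vale.Agent.P084

variable {θ : ℝ} {𝓕 : Set (Finset ℕ)}

theorem tsN_zero_vec (h0 : 0 ≤ θ) (h1 : θ ≤ 1) (m : ℕ) : tsN θ 𝓕 m 0 = 0 := by
  apply le_antisymm _ (tsN_nonneg h0 h1 m 0)
  have := tsN_le_l1 (𝓕 := 𝓕) h0 h1 m 0
  simpa [l1] using this

theorem le_tsN_succ (h0 : 0 ≤ θ) (h1 : θ ≤ 1) (m : ℕ) (x : ℕ →₀ ℝ)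
    (A : (Σ d, {E : Fin d → Finset ℕ // Admissible 𝓕 d E})) :
    θ * ∑ j, tsN θ 𝓕 m (x.filter (· ∈ A.2.1 j)) ≤ tsN θ 𝓕 (m + 1) x :=
  (mul_le_mul_of_nonneg_left (le_ciSup (bdd_adm h0 h1 m x) A) h0).trans (le_max_right _ _)

theorem admissible_single (hsing : ∀ i : ℕ, {i} ∈ 𝓕) (G : Finset ℕ) (hG : G.Nonempty) :
    Admissible 𝓕 1 (fun _ => G) := by
  refine ⟨?_, fun _ => G.min' hG, fun _ => ⟨G.min'_mem hG, fun i hi => G.min'_le i hi⟩, ?_⟩
  · intro j j' hjj'
    exact absurd hjj' (by rw [Subsingleton.elim j j']; exact lt_irrefl _)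
  · have : Finset.univ.image (fun _ : Fin 1 => G.min' hG) = {G.min' hG} := by
      ext k
      simp
    rw [this]
    exact hsing _

theorem restrict_le_succ (h0 : 0 ≤ θ) (h1 : θ ≤ 1) (hsing : ∀ i : ℕ, {i} ∈ 𝓕) (m : ℕ)
    (y : ℕ →₀ ℝ) (G : Finset ℕ) (hG : G.Nonempty) :
    θ * tsN θ 𝓕 m (y.filter (· ∈ G)) ≤ tsN θ 𝓕 (m + 1) y := by
  have := le_tsN_succ h0 h1 m y ⟨1, ⟨fun _ => G, admissible_single hsing G hG⟩⟩
  simpa using this

theorem filter_erase (x : ℕ →₀ ℝ) (G : Finset ℕ) :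
    (x.filter (· ∈ G)).erase 0 = (x.erase 0).filter (· ∈ G) := by
  ext i
  by_cases hi : i = 0
  · subst hi
    by_cases h : 0 ∈ G
    · rw [Finsupp.erase_same, Finsupp.filter_apply_pos _ _ h, Finsupp.erase_same]
    · rw [Finsupp.erase_same, Finsupp.filter_apply_neg _ _ h]
  · rw [Finsupp.erase_ne hi]
    by_cases h : i ∈ G
    · rw [Finsupp.filter_apply_pos _ _ h, Finsupp.filter_apply_pos _ _ h, Finsupp.erase_ne hi]
    · rw [Finsupp.filter_apply_neg _ _ h, Finsupp.filter_apply_neg _ _ h]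

theorem filter_eq_of_notMem (x : ℕ →₀ ℝ) (G : Finset ℕ) (h : 0 ∉ G) :
    x.filter (· ∈ G) = (x.erase 0).filter (· ∈ G) := by
  ext i
  by_cases hi : i ∈ G
  · have : i ≠ 0 := fun h0 => h (h0 ▸ hi)
    rw [Finsupp.filter_apply_pos _ _ hi, Finsupp.filter_apply_pos _ _ hi, Finsupp.erase_ne this]
  · rw [Finsupp.filter_apply_neg _ _ hi, Finsupp.filter_apply_neg _ _ hi]

/-- An admissible sequence one of whose sets contains `0` has length one. -/
theorem admissible_zero (hiso : ∀ F ∈ 𝓕, 0 ∈ F → F = {0}) {d : ℕ} {E : Fin d → Finset ℕ}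
    (hE : Admissible 𝓕 d E) {j₀ : Fin d} (hj₀ : 0 ∈ E j₀) : ∀ j, j = j₀ := by
  obtain ⟨hsucc, μ, hμ, hmem⟩ := hE
  have h1 : μ j₀ = 0 := Nat.le_zero.1 ((hμ j₀).2 0 hj₀)
  have h2 : (0 : ℕ) ∈ Finset.univ.image μ := Finset.mem_image.2 ⟨j₀, Finset.mem_univ _, h1⟩
  have h3 := hiso _ hmem h2
  intro j
  by_contra hne
  have h4 : μ j ∈ Finset.univ.image μ := Finset.mem_image.2 ⟨j, Finset.mem_univ _, rfl⟩
  rw [h3, Finset.mem_singleton] at h4
  have h5 : (0 : ℕ) ∈ E j := h4 ▸ (hμ j).1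
  rcases lt_or_gt_of_ne hne with h | h
  · exact lt_irrefl 0 (hsucc j j₀ h 0 h5 0 hj₀)
  · exact lt_irrefl 0 (hsucc j₀ j h 0 hj₀ 0 h5)

theorem tsN_split (h0 : 0 ≤ θ) (h1 : θ ≤ 1) (hsing : ∀ i : ℕ, {i} ∈ 𝓕)
    (hiso : ∀ F ∈ 𝓕, 0 ∈ F → F = {0}) (m : ℕ) (x : ℕ →₀ ℝ) :
    tsN θ 𝓕 m x = max (tsN θ 𝓕 m (x.erase 0)) |x 0| := by
  induction m generalizing x with
  | zero =>
    apply le_antisymm
    · apply ciSup_le
      intro i
      by_cases hi : i = 0
      · rw [hi]; exact le_max_right _ _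
      · refine le_trans ?_ (le_max_left _ _)
        have := le_ciSup (bdd_abs (x.erase 0)) i
        rwa [Finsupp.erase_ne hi] at this
    · apply max_le
      · apply ciSup_le
        intro i
        by_cases hi : i = 0
        · rw [hi, Finsupp.erase_same, abs_zero]
          exact Real.iSup_nonneg fun i => abs_nonneg _
        · rw [Finsupp.erase_ne hi]
          exact le_ciSup (bdd_abs x) i
      · exact le_ciSup (bdd_abs x) 0
  | succ m ih =>
    apply le_antisymm
    · apply max_le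
      · rw [ih x]
        exact max_le_max (le_max_left _ _) le_rfl
      · rw [Real.mul_iSup_of_nonneg h0]
        apply Real.iSup_le _ (le_max_of_le_right (abs_nonneg _))
        rintro ⟨d, E, hE⟩
        by_cases hz : ∃ j₀, 0 ∈ E j₀
        · obtain ⟨j₀, hj₀⟩ := hz
          have hall := admissible_zero hiso hE hj₀
          have hsum : ∑ j, tsN θ 𝓕 m (x.filter (· ∈ E j)) = tsN θ 𝓕 m (x.filter (· ∈ E j₀)) := by
            rw [Finset.sum_eq_single j₀]
            · intro j _ hne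
              exact absurd (hall j) hne
            · intro h
              exact absurd (Finset.mem_univ _) h
          change θ * ∑ j, tsN θ 𝓕 m (x.filter (· ∈ E j)) ≤ _
          rw [hsum, ih, filter_erase, Finsupp.filter_apply_pos _ _ hj₀,
            mul_max_of_nonneg _ _ h0]
          apply max_le_max
          · exact restrict_le_succ h0 h1 hsing m _ _ ⟨0, hj₀⟩
          · nlinarith [abs_nonneg (x 0)]
        · push Not at hz
          refine le_trans ?_ (le_max_left _ _)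
          have := le_tsN_succ h0 h1 m (x.erase 0) ⟨d, ⟨E, hE⟩⟩
          refine le_trans (le_of_eq ?_) this
          change θ * ∑ j, tsN θ 𝓕 m (x.filter (· ∈ E j)) =
            θ * ∑ j, tsN θ 𝓕 m ((x.erase 0).filter (· ∈ E j))
          congr 1
          apply Finset.sum_congr rfl
          intro j _
          rw [filter_eq_of_notMem x _ (hz j)]
    · apply max_le
      · apply max_le
        · refine le_trans ?_ (le_max_left _ _)
          rw [ih x]
          exact le_max_left _ _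
        · rw [Real.mul_iSup_of_nonneg h0]
          apply Real.iSup_le _ (tsN_nonneg h0 h1 _ _)
          intro A
          refine le_trans ?_ (le_tsN_succ h0 h1 m x A)
          apply mul_le_mul_of_nonneg_left _ h0
          apply Finset.sum_le_sum
          intro j _
          rw [ih (x.filter (· ∈ A.2.1 j)), filter_erase]
          exact le_max_left _ _
      · refine le_trans ?_ (le_max_left _ _)
        rw [ih x]
        exact le_max_right _ _

theorem tsNorm_split (h0 : 0 ≤ θ) (h1 : θ ≤ 1) (hsing : ∀ i : ℕ, {i} ∈ 𝓕)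
    (hiso : ∀ F ∈ 𝓕, 0 ∈ F → F = {0}) (x : ℕ →₀ ℝ) :
    tsNorm θ 𝓕 x = max (tsNorm θ 𝓕 (x.erase 0)) |x 0| := by
  apply le_antisymm
  · apply ciSup_le
    intro m
    rw [tsN_split h0 h1 hsing hiso m x]
    exact max_le_max (tsN_le_tsNorm h0 h1 m _) le_rfl
  · apply max_le
    · apply ciSup_le
      intro m
      refine le_trans ?_ (tsN_le_tsNorm h0 h1 m x)
      rw [tsN_split h0 h1 hsing hiso m x]
      exact le_max_left _ _
    · exact abs_le_tsNorm h0 h1 x 0

end Vale.Agent.P084
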