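import Mathlib
import Vale.Agent.P084.TsB
import Vale.Agent.P084.Summand

/-!
Sequence spaces in which one coordinate splits off as an M-summand have the Mazur-Ulam property;
existence of the completion of the finitely supported sequences under a given norm.
-/

namespace Vale.Agent.P084

variable {Z Y : Type*} [NormedAddCommGroup Z] [NormedSpace ℝ Z]
  [NormedAddCommGroup Y] [NormedSpace ℝ Y]

theorem seq_mup (N : (ℕ →₀ ℝ) → ℝ) (i₀ : ℕ) (habs : ∀ x i, |x i| ≤ N x)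
    (hsplit : ∀ x, N x = max (N (x.erase i₀)) |x i₀|)
    (ι : (ℕ →₀ ℝ) →ₗ[ℝ] Z) (hι : DenseRange ι) (hn : ∀ x, ‖ι x‖ = N x)
    (f : Metric.sphere (0 : Z) 1 → Metric.sphere (0 : Y) 1) (hf : Isometry f)
    (hs : Function.Surjective f) :
    ∃ Λ : Z ≃ₗᵢ[ℝ] Y, ∀ z : Metric.sphere (0 : Z) 1, Λ z = f z := by
  have hinj : Function.Injective ι := by
    rw [injective_iff_map_eq_zero]
    intro x hx
    ext i
    have h1 := habs x i
    rw [← hn, hx, norm_zero] at h1
    exact abs_eq_zero.1 (le_antisymm h1 (abs_nonneg _))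
  let E := LinearEquiv.ofInjective ι hinj
  let φ₀ : (LinearMap.range ι) →ₗ[ℝ] ℝ := (Finsupp.lapply i₀) ∘ₗ E.symm.toLinearMap
  have hφ₀ : ∀ x, φ₀ ⟨ι x, LinearMap.mem_range_self ι x⟩ = x i₀ := by
    intro x
    have : E.symm ⟨ι x, LinearMap.mem_range_self ι x⟩ = x := by
      rw [LinearEquiv.symm_apply_eq]
      rfl
    change (E.symm ⟨ι x, LinearMap.mem_range_self ι x⟩) i₀ = x i₀
    rw [this]
  have hbound : ∀ r : LinearMap.range ι, ‖φ₀ r‖ ≤ 1 * ‖r‖ := by
    rintro ⟨_, x, rfl⟩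
    rw [hφ₀, one_mul, Real.norm_eq_abs]
    change |x i₀| ≤ ‖ι x‖
    rw [hn]
    exact habs x i₀
  obtain ⟨φ, hφ, -⟩ := exists_extension_norm_eq (LinearMap.range ι) (φ₀.mkContinuous 1 hbound)
  have hφι : ∀ x, φ (ι x) = x i₀ := by
    intro x
    have := hφ ⟨ι x, LinearMap.mem_range_self ι x⟩
    rw [LinearMap.mkContinuous_apply, hφ₀] at this
    exact this
  refine mup_of_M_summand (ι (Finsupp.single i₀ 1)) φ (by rw [hφι]; simp) ?_ f hf hs
  intro z
  refine hι.induction_on (p := fun z => ‖z‖ = max ‖z - φ z • ι (Finsupp.single i₀ 1)‖ |φ z|) z ?_ ?_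
  · apply isClosed_eq continuous_norm
    fun_prop
  · intro x
    have h1 : ι x - φ (ι x) • ι (Finsupp.single i₀ 1) = ι (x.erase i₀) := by
      rw [hφι, ← map_smul, ← map_sub, Finsupp.smul_single, smul_eq_mul, mul_one,
        Finsupp.erase_eq_sub_single]
    rw [h1, hφι, hn, hn]
    exact hsplit x

theorem exists_completion (N : (ℕ →₀ ℝ) → ℝ) (hadd : ∀ x y, N (x + y) ≤ N x + N y)
    (hsmul : ∀ (c : ℝ) x, N (c • x) = |c| * N x) (hdef : ∀ x, N x = 0 → x = 0) :
    ∃ (Z : Type) (_ : NormedAddCommGroup Z) (_ : NormedSpace ℝ Z) (_ : CompleteSpace Z)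
      (ι : (ℕ →₀ ℝ) →ₗ[ℝ] Z), DenseRange ι ∧ ∀ x, ‖ι x‖ = N x := by
  let G : AddGroupNorm (ℕ →₀ ℝ) :=
    { toFun := N
      map_zero' := by
        have := hsmul 0 0
        simpa using this
      add_le' := hadd
      neg' := fun x => by
        have := hsmul (-1) x
        simpa using this
      eq_zero_of_map_eq_zero' := hdef }
  letI i1 : NormedAddCommGroup (ℕ →₀ ℝ) := G.toNormedAddCommGroup
  have hnorm : ∀ x : ℕ →₀ ℝ, ‖x‖ = N x := fun x => rfl
  letI i2 : NormedSpace ℝ (ℕ →₀ ℝ) :=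
    { norm_smul_le := fun c x => by
        rw [hnorm, hnorm, hsmul, Real.norm_eq_abs] }
  refine ⟨UniformSpace.Completion (ℕ →₀ ℝ), inferInstance, inferInstance, inferInstance,
    (UniformSpace.Completion.toComplₗᵢ (𝕜 := ℝ) (E := (ℕ →₀ ℝ))).toLinearMap, ?_, ?_⟩
  · exact UniformSpace.Completion.denseRange_coe
  · intro x
    change ‖((x : ℕ →₀ ℝ) : UniformSpace.Completion (ℕ →₀ ℝ))‖ = _
    rw [UniformSpace.Completion.norm_coe, hnorm]

end Vale.Agent.P084
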